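import Vale.Agent.P024.Pl3

/-! The bridge to prime ideals of number fields. -/

namespace Vale.Agent.P024

open NumberField IsDedekindDomain

variable {H : Subgroup GG}

theorem finrank_fld (hH : IsOpen (H : Set GG)) : Module.finrank ℚ (fld H) = H.index := by
  rw [IntermediateField.finrank_eq_fixingSubgroup_index, fix_fld (H.isClosed_of_isOpen hH)]

section

variable (K : IntermediateField ℚ Om) [NumberField K] (P : Pl)

omit [NumberField K] in
theorem br_int (a : 𝓞 K) : P.w ((a : K) : Om) ≤ 1 :=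
  P.integral_le ((RingOfIntegers.isIntegral_coe a).map (K.val.restrictScalars ℤ))

theorem br_unit {a : 𝓞 K} (ha : a ∉ (P.pr K).asIdeal) : P.w ((a : K) : Om) = 1 :=
  le_antisymm (br_int K P a) (not_lt.1 ha)

theorem br_le {x : K} (hx : (P.pr K).valuation K x ≤ 1) : P.w x ≤ 1 := by
  obtain ⟨n, d, h⟩ := (P.pr K).exists_primeCompl_mul_eq_of_integer x hx
  have h1 : (x : Om) * ((d.1 : K) : Om) = ((n : K) : Om) := congrArg Subtype.val h
  have h2 := br_int K P n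
  rwa [← h1, map_mul, br_unit K P d.2, mul_one] at h2

theorem br_one {x : K} (hx : (P.pr K).valuation K x = 1) : P.w x = 1 := by
  have h0 : x ≠ 0 := fun h => by simp [h] at hx
  refine le_antisymm (br_le K P hx.le) ?_
  have h1 := br_le K P (x := x⁻¹) (by rw [map_inv₀, hx, inv_one])
  rwa [IntermediateField.coe_inv, map_inv₀, inv_le_one₀ (P.w.pos (by simpa using h0))] at h1

theorem br_log {x : K} (hx : x ≠ 0) : ∃ n : ℤ, (P.pr K).valuation K x = WithZero.exp (-n) :=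
  ⟨-WithZero.log ((P.pr K).valuation K x), by
    rw [neg_neg, WithZero.exp_log ((Valuation.ne_zero_iff _).2 hx)]⟩

theorem br_unif : ∃ (π : K) (e : ℕ), π ≠ 0 ∧ (P.pr K).valuation K π = WithZero.exp (-1) ∧
    0 < e ∧ P.w π ^ e = (P.p : ℝ)⁻¹ ∧
    ∀ (x : K) (n : ℤ), (P.pr K).valuation K x = WithZero.exp (-n) → P.w x = P.w π ^ n := by
  obtain ⟨π, hπ⟩ := (P.pr K).valuation_exists_uniformizer K
  have h0 : π ≠ 0 := fun h => by
    rw [h, map_zero] at hπ
    exact WithZero.exp_ne_zero hπ.symm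
  have h0' : P.w π ≠ 0 := (P.w.pos (by simpa using h0)).ne'
  have h1 : ∀ (x : K) (n : ℤ), (P.pr K).valuation K x = WithZero.exp (-n) →
      P.w x = P.w π ^ n := by
    intro x n hx
    have h2 := br_one K P (x := x / π ^ n) (by
      rw [map_div₀, map_zpow₀, hx, hπ, ← WithZero.exp_zsmul, smul_neg, smul_eq_mul, mul_one,
        div_self WithZero.exp_ne_zero])
    push_cast at h2
    rwa [show ((π ^ n : K) : Om) = (π : Om) ^ n from map_zpow₀ (algebraMap K Om) π n, map_div₀,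
      map_zpow₀, div_eq_one_iff_eq (zpow_ne_zero _ h0')] at h2
  obtain ⟨n, hn⟩ := br_log K P (x := (P.p : K)) (by exact_mod_cast P.hp.ne_zero)
  have h2 : (P.pr K).valuation K (P.p : K) < 1 := by
    have h3 := ((P.pr K).valuation_lt_one_iff_mem (K := K) (P.p : 𝓞 K)).2 (by
      rw [Pl.mem_pr]
      simpa using P.w_p_lt)
    simpa using h3
  rw [hn, ← WithZero.exp_zero, WithZero.exp_lt_exp] at h2
  obtain ⟨e, rfl⟩ := Int.eq_ofNat_of_zero_le (show 0 ≤ n by omega)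
  refine ⟨π, e, h0, hπ, by omega, ?_, h1⟩
  have h3 := h1 _ _ hn
  rw [zpow_natCast, SubringClass.coe_natCast, P.wp] at h3
  exact h3.symm

end

theorem br_main [NumberField (fld H)] (P : Pl) : 0 < P.e H ∧
    (∃ π : fld H, (P.pr (fld H)).valuation (fld H) π = WithZero.exp (-1)) ∧
    ∀ (x : fld H) (n : ℤ), (P.pr (fld H)).valuation (fld H) x = WithZero.exp (-n) →
      ord H P x = n ∧ P.w x ^ P.e H = (P.p : ℝ) ^ (-n) := by
  obtain ⟨π, e, h0, h1, h2, h3, h4⟩ := br_unif (fld H) P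
  have hp : (1 : ℝ) < P.p := by exact_mod_cast P.hp.one_lt
  have h5 : ∀ (x : fld H) (n : ℤ), (P.pr (fld H)).valuation (fld H) x = WithZero.exp (-n) →
      P.w x ^ e = (P.p : ℝ) ^ (-n) := by
    intro x n hx
    rw [h4 x n hx, ← zpow_natCast, ← zpow_mul, mul_comm, zpow_mul, zpow_natCast, h3, inv_zpow']
  have he : P.e H = e := by
    refine IsLeast.csInf_eq ⟨⟨h2, fun x hx hx0 => ?_⟩, fun k ⟨hk, hk'⟩ => ?_⟩
    · obtain ⟨n, hn⟩ := br_log (fld H) P (x := ⟨x, hx⟩) fun h => hx0 (congrArg Subtype.val h)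
      exact ⟨-n, h5 _ _ hn⟩
    · obtain ⟨m, hm⟩ := hk' π π.2 (by simpa using h0)
      have h6 : (P.p : ℝ) ^ (-(k : ℤ)) = (P.p : ℝ) ^ (m * e) := by
        rw [zpow_mul, ← hm, zpow_natCast, ← pow_mul, mul_comm, pow_mul, h3, zpow_neg,
          zpow_natCast, inv_pow]
      have h7 := zpow_right_injective₀ (by positivity) hp.ne' h6
      have h8 : (e : ℤ) ∣ k := ⟨-m, by linarith⟩
      exact Nat.le_of_dvd hk (by exact_mod_cast h8)
  refine ⟨he ▸ h2, ⟨π, h1⟩, fun x n hx => ⟨?_, he ▸ h5 x n hx⟩⟩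
  have h6 := congrArg (Real.logb P.p) (h5 x n hx)
  rw [Real.logb_pow, ← Real.rpow_intCast, Real.logb_rpow (by positivity) hp.ne'] at h6
  rw [ord, he, neg_mul, h6]
  simp

theorem e_spec (hH : IsOpen (H : Set GG)) (P : Pl) : 0 < P.e H ∧
    (∀ x ∈ fld H, x ≠ 0 → P.w x ^ P.e H = (P.p : ℝ) ^ (-ord H P x)) ∧
    ∃ π ∈ fld H, π ≠ 0 ∧ ord H P π = 1 := by
  have := nf hH
  obtain ⟨h1, ⟨π, h2⟩, h3⟩ := br_main (H := H) P
  refine ⟨h1, fun x hx hx0 => ?_, π, π.2, fun h => ?_, (h3 π 1 h2).1⟩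
  · obtain ⟨n, hn⟩ := br_log (fld H) P (x := ⟨x, hx⟩) fun h => hx0 (congrArg Subtype.val h)
    obtain ⟨h4, h5⟩ := h3 _ _ hn
    rw [h4]
    exact h5
  · rw [show π = 0 from Subtype.ext h, map_zero] at h2
    exact WithZero.exp_ne_zero h2.symm

theorem val_eq (hH : IsOpen (H : Set GG)) [NumberField (fld H)] (P : Pl) (x : fld H)
    (hx : x ≠ 0) : (P.pr (fld H)).valuation (fld H) x = WithZero.exp (-ord H P x) := by
  have _ := hH
  obtain ⟨n, hn⟩ := br_log (fld H) P hx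
  rw [((br_main (H := H) P).2.2 x n hn).1, hn]

theorem br_e [NumberField (fld H)] (P : Pl) :
    (P.pr (fld H)).valuation (fld H) (P.p : fld H) = WithZero.exp (-(P.e H : ℤ)) := by
  obtain ⟨n, hn⟩ := br_log (fld H) P (x := (P.p : fld H)) (by exact_mod_cast P.hp.ne_zero)
  have h1 := ((br_main (H := H) P).2.2 _ n hn).2
  have hp : (1 : ℝ) < P.p := by exact_mod_cast P.hp.one_lt
  rw [SubringClass.coe_natCast, P.wp, inv_pow, ← zpow_natCast, ← zpow_neg] at h1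
  rw [hn, zpow_right_injective₀ (by positivity) hp.ne' h1]

theorem pr_eq_iff (hH : IsOpen (H : Set GG)) [NumberField (fld H)] (P Q : Pl) :
    P.pr (fld H) = Q.pr (fld H) ↔ Q ∈ orb H P := by
  refine ⟨fun h => exists_smul (H.isClosed_of_isOpen hH) fun x hx => ?_, fun h => ?_⟩
  · have h1 : P.p = Q.p := by
      refine pl3_p_eq ?_
      have h2 : (Q.p : 𝓞 (fld H)) ∈ (Q.pr (fld H)).asIdeal := by
        rw [Pl.mem_pr]
        simpa using Q.w_p_lt
      rw [← h, Pl.mem_pr] at h2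
      simpa using h2
    have h2 : P.e H = Q.e H := by
      have h3 := br_e (H := H) P
      rw [h, h1, br_e, WithZero.exp_inj] at h3
      omega
    rcases eq_or_ne x 0 with rfl | hx0
    · simp
    obtain ⟨n, hn⟩ := br_log (fld H) P (x := ⟨x, hx⟩) fun h => hx0 (congrArg Subtype.val h)
    have h3 := ((br_main (H := H) P).2.2 _ n hn).2
    have h4 := ((br_main (H := H) Q).2.2 _ n (h ▸ hn)).2
    rw [h1, h2, ← h4] at h3
    exact (pow_left_inj₀ (P.w.nonneg _) (Q.w.nonneg _) (br_main (H := H) Q).1.ne').1 h3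
  · ext a
    rw [Pl.mem_pr, Pl.mem_pr, w_eq_of_orb h (a : fld H).2]

theorem pr_surj (hH : IsOpen (H : Set GG)) [NumberField (fld H)]
    (v : HeightOneSpectrum (𝓞 (fld H))) : ∃ P : Pl, P.pr (fld H) = v := by
  have _ := hH
  have hv := v.isPrime
  obtain ⟨p, hp, hpv⟩ : ∃ p : ℕ, p.Prime ∧ (p : 𝓞 (fld H)) ∈ v.asIdeal := by
    have h1 : ∀ n : ℕ, n ≠ 0 → (n : 𝓞 (fld H)) ∈ v.asIdeal →
        ∃ p : ℕ, p.Prime ∧ (p : 𝓞 (fld H)) ∈ v.asIdeal := by
      intro n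
      induction n using induction_on_primes with
      | zero => exact fun h => absurd rfl h
      | one => exact fun _ h => absurd ((Ideal.eq_top_iff_one _).2 (by simpa using h)) hv.ne_top
      | prime_mul p a hp ih =>
        intro h0 h
        rw [Nat.cast_mul] at h
        exact (hv.mem_or_mem h).elim (fun h => ⟨p, hp, h⟩) (ih (right_ne_zero_of_mul h0))
    exact h1 _ (by rw [Ne, Ideal.absNorm_eq_zero_iff]; exact v.ne_bot) (Ideal.absNorm_mem _)
  obtain ⟨P, rfl⟩ := exists_pl hp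
  by_contra hc
  push Not at hc
  have hfin : (Set.range fun g : GG => (g • P).pr (fld H)).Finite := by
    refine (Ideal.finite_factors (I := Ideal.span {(P.p : 𝓞 (fld H))}) ?_).subset ?_
    · rw [Ne, Ideal.zero_eq_bot, Ideal.span_singleton_eq_bot]
      exact_mod_cast hp.ne_zero
    · rintro _ ⟨g, rfl⟩
      rw [Set.mem_ofPred_eq, Ideal.dvd_span_singleton, Pl.mem_pr]
      simpa using (g • P).w_p_lt
  have h1 : ¬((v.asIdeal : Set (𝓞 (fld H))) ⊆
      ⋃ u ∈ Set.range fun g : GG => (g • P).pr (fld H), (u.asIdeal : Set (𝓞 (fld H)))) := by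
    rw [Ideal.subset_union_prime_finite hfin v v fun u _ _ _ => u.isPrime]
    rintro ⟨_, ⟨g, rfl⟩, h⟩
    exact hc _ (HeightOneSpectrum.ext (v.isMaximal.eq_of_le ((g • P).pr _).isPrime.ne_top h).symm)
  obtain ⟨x, hx, h2⟩ := Set.not_subset.1 h1
  have h3 : ∀ g : GG, P.w (g ((x : fld H) : Om)) = 1 := by
    intro g
    have h4 := br_unit (fld H) (g⁻¹ • P) (a := x) fun h =>
      h2 (Set.mem_iUnion₂.2 ⟨_, ⟨g⁻¹, rfl⟩, h⟩)
    simpa using h4
  have h4 : P.w ((Algebra.norm ℤ x : ℤ) : Om) = 1 := by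
    have h5 := Algebra.norm_eq_prod_embeddings ℚ Om (x : fld H)
    rw [← Algebra.coe_norm_int, map_intCast] at h5
    rw [h5, map_prod]
    refine Finset.prod_eq_one fun σ _ => ?_
    obtain ⟨g, hg⟩ := minpoly.exists_algEquiv_of_root' (K := ℚ) (x := σ (x : fld H))
      (Algebra.IsAlgebraic.isAlgebraic ((x : fld H) : Om)) (by
        rw [← IntermediateField.minpoly_eq, Polynomial.aeval_algHom_apply]
        exact (congrArg σ (minpoly.aeval ℚ (x : fld H))).trans (map_zero σ))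
    rw [← hg, h3]
  have h5 : ((Algebra.norm ℤ x).natAbs : 𝓞 (fld H)) ∈ v.asIdeal := by
    rw [← Ideal.absNorm_span_singleton]
    exact (Ideal.span_singleton_le_iff_mem _).2 hx (Ideal.absNorm_mem _)
  have h6 : ¬ P.p ∣ (Algebra.norm ℤ x).natAbs := by
    rintro h
    obtain ⟨k, hk⟩ := Int.natCast_dvd.2 h
    rw [hk, Int.cast_mul, map_mul, Int.cast_natCast] at h4
    exact (mul_lt_one_of_nonneg_of_lt_one_left (P.w.nonneg _) P.w_p_lt (P.int_le k)).ne h4
  obtain ⟨a, b, hab⟩ := Nat.isCoprime_iff_coprime.2 ((Nat.Prime.coprime_iff_not_dvd hp).2 h6)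
  refine hv.ne_top ((Ideal.eq_top_iff_one _).2 ?_)
  have h7 : (a : 𝓞 (fld H)) * P.p + b * (Algebra.norm ℤ x).natAbs = 1 := by
    have h8 := congrArg (Int.cast : ℤ → 𝓞 (fld H)) hab
    rwa [Int.cast_add, Int.cast_mul, Int.cast_mul, Int.cast_natCast, Int.cast_natCast,
      Int.cast_one] at h8
  exact h7 ▸ add_mem (Ideal.mul_mem_left _ _ hpv) (Ideal.mul_mem_left _ _ h5)

theorem pr_bij (hH : IsOpen (H : Set GG)) [NumberField (fld H)] :
    Function.Bijective fun v : Pr H => v.out.pr (fld H) := by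
  refine ⟨fun v u h => ?_, fun v => ?_⟩
  · obtain ⟨g, hg, h1⟩ := (pr_eq_iff hH _ _).1 h
    rw [← Quotient.out_eq' v, ← Quotient.out_eq' u]
    exact (Quotient.sound' (MulAction.orbitRel_apply.2 ⟨⟨g, hg⟩, h1.symm⟩)).symm
  · obtain ⟨P, rfl⟩ := pr_surj hH v
    refine ⟨Pr.mk H P, ((pr_eq_iff hH _ _).2 ?_).symm⟩
    obtain ⟨g, hg⟩ := Quotient.exact' (Quotient.out_eq' (Pr.mk H P))
    exact ⟨g, g.2, hg.symm⟩

/-- Elements of the valuation ring are congruent to algebraic integers. -/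
theorem exists_int_congr (hH : IsOpen (H : Set GG)) [NumberField (fld H)] (P : Pl) {x : Om}
    (hx : x ∈ fld H) (h : P.w x ≤ 1) {ε : ℝ} (hε : 0 < ε) :
    ∃ a : 𝓞 (fld H), P.w (x - ((a : fld H) : Om)) ≤ ε := by
  have _ := hH
  rcases eq_or_ne x 0 with rfl | hx0
  · exact ⟨0, by simpa using hε.le⟩
  have h1 : (P.pr (fld H)).valuation (fld H) ⟨x, hx⟩ ≤ 1 := by
    obtain ⟨n, hn⟩ := br_log (fld H) P (x := ⟨x, hx⟩) fun h => hx0 (congrArg Subtype.val h)
    have h2 := ((br_main (H := H) P).2.2 _ n hn).2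
    have hp : (1 : ℝ) < P.p := by exact_mod_cast P.hp.one_lt
    have h3 : (P.p : ℝ) ^ (-n) ≤ 1 := h2 ▸ pow_le_one₀ (P.w.nonneg _) h
    rw [hn, ← WithZero.exp_zero, WithZero.exp_le_exp]
    exact (zpow_le_one_iff_right₀ hp).1 h3
  obtain ⟨n, d, h2⟩ := (P.pr (fld H)).exists_primeCompl_mul_eq_of_integer _ h1
  have h3 : x * ((d.1 : fld H) : Om) = ((n : fld H) : Om) := congrArg Subtype.val h2
  obtain ⟨d', t, ht, h4⟩ := (P.pr (fld H)).isMaximal.exists_inv d.2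
  obtain ⟨k, hk⟩ := exists_pow_lt_of_lt_one hε ((P.mem_pr _ t).1 ht)
  have h5 : ((d' : fld H) : Om) * ((d.1 : fld H) : Om) = 1 - ((t : fld H) : Om) := by
    have h6 := congrArg (fun a : 𝓞 (fld H) => ((a : fld H) : Om)) h4
    simp only [map_add, map_mul, map_one] at h6
    push_cast at h6
    exact eq_sub_of_add_eq h6
  refine ⟨n * d' * ∑ i ∈ Finset.range k, t ^ i, ?_⟩
  have h6 : x - (((n * d' * ∑ i ∈ Finset.range k, t ^ i : 𝓞 (fld H)) : fld H) : Om) =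
      x * ((t : fld H) : Om) ^ k := by
    simp only [map_mul, map_sum, map_pow]
    push_cast
    have h7 := mul_neg_geom_sum ((t : fld H) : Om) k
    rw [← h3]
    linear_combination (-x * ∑ i ∈ Finset.range k, ((t : fld H) : Om) ^ i) * h5 - x * h7
  rw [h6, map_mul, map_pow]
  exact (mul_le_of_le_one_left (by positivity) h).trans hk.le

theorem br_f (hH : IsOpen (H : Set GG)) [NumberField (fld H)] (P : Pl) : ∃ f : ℕ, 0 < f ∧
    Ideal.absNorm (P.pr (fld H)).asIdeal = P.p ^ f ∧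
    ∀ k : ℕ, (∀ x ∈ fld H, P.w x ≤ 1 → P.w (x ^ (P.p ^ k) - x) < 1) ↔ f ∣ k := by
  set I := (P.pr (fld H)).asIdeal with hI
  have := (P.pr (fld H)).isMaximal
  let _ := Ideal.Quotient.field I
  have := Ideal.finiteQuotientOfFreeOfNeBot I (P.pr (fld H)).ne_bot
  have := Fintype.ofFinite (𝓞 (fld H) ⧸ I)
  have := Fact.mk P.hp
  have hc : CharP (𝓞 (fld H) ⧸ I) P.p := by
    refine (CharP.charP_iff_prime_eq_zero P.hp).2 ?_
    rw [← map_natCast (Ideal.Quotient.mk I), Ideal.Quotient.eq_zero_iff_mem, hI, Pl.mem_pr]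
    simpa using P.w_p_lt
  obtain ⟨f, -, hf⟩ := FiniteField.card (𝓞 (fld H) ⧸ I) P.p
  refine ⟨f, f.2, by rw [Ideal.absNorm_apply, Submodule.cardQuot_apply, Nat.card_eq_fintype_card,
    hf], fun k => ?_⟩
  have h1 : (∀ x ∈ fld H, P.w x ≤ 1 → P.w (x ^ (P.p ^ k) - x) < 1) ↔
      ∀ a : 𝓞 (fld H) ⧸ I, a ^ (P.p ^ k) = a := by
    have h2 : ∀ a : 𝓞 (fld H), Ideal.Quotient.mk I a ^ (P.p ^ k) = Ideal.Quotient.mk I a ↔
        P.w (((a : fld H) : Om) ^ (P.p ^ k) - ((a : fld H) : Om)) < 1 := by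
      intro a
      rw [← map_pow, Ideal.Quotient.eq, hI, Pl.mem_pr]
      simp
    refine ⟨fun h a => ?_, fun h x hx hx1 => ?_⟩
    · obtain ⟨a, rfl⟩ := Ideal.Quotient.mk_surjective a
      exact (h2 a).2 (h _ (a : fld H).2 (br_int _ P a))
    · obtain ⟨a, ha⟩ := exists_int_congr hH P hx hx1 (ε := 1 / 2) (by norm_num)
      have h3 : P.w (x - ((a : fld H) : Om)) < 1 := ha.trans_lt (by norm_num)
      have e : x ^ (P.p ^ k) - x = (x ^ (P.p ^ k) - ((a : fld H) : Om) ^ (P.p ^ k)) +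
          ((((a : fld H) : Om) ^ (P.p ^ k) - ((a : fld H) : Om)) - (x - ((a : fld H) : Om))) := by
        ring
      rw [e]
      exact (P.add_le _ _).trans_lt (max_lt ((P.pow_sub_le hx1 (br_int _ P a) _).trans_lt h3)
        ((P.sub_le _ _).trans_lt (max_lt ((h2 a).1 (h _)) h3)))
  have hpk : 0 < P.p ^ k := pow_pos P.hp.pos k
  have h2 : (∀ a : 𝓞 (fld H) ⧸ I, a ^ (P.p ^ k) = a) ↔
      ∀ a : (𝓞 (fld H) ⧸ I)ˣ, a ^ (P.p ^ k - 1) = 1 := by
    refine ⟨fun h a => ?_, fun h a => ?_⟩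
    · have h3 : a ^ (P.p ^ k) = a := Units.ext (by simpa using h a)
      rwa [← Nat.sub_add_cancel hpk, pow_succ, mul_eq_right] at h3
    · rcases eq_or_ne a 0 with rfl | ha
      · exact zero_pow hpk.ne'
      · have h3 : a ^ (P.p ^ k - 1) = 1 := by simpa using congrArg Units.val (h (Units.mk0 a ha))
        rw [← Nat.sub_add_cancel hpk, pow_succ, h3, one_mul]
  rw [h1, h2, FiniteField.forall_pow_eq_one_iff, hf]
  refine ⟨fun h => ?_, fun h => Nat.pow_sub_one_dvd_pow_sub_one _ h⟩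
  have h3 := Nat.pow_sub_one_gcd_pow_sub_one P.p f k
  rw [Nat.gcd_eq_left h] at h3
  have h4 : P.p ^ (f : ℕ) = P.p ^ Nat.gcd f k := by
    have h5 := pow_pos P.hp.pos (f : ℕ)
    have h6 := pow_pos P.hp.pos (Nat.gcd f k)
    omega
  exact Nat.gcd_eq_left_iff_dvd.1 (Nat.pow_right_injective P.hp.two_le h4).symm

theorem br_f' (hH : IsOpen (H : Set GG)) [NumberField (fld H)] (P : Pl) : 0 < P.f H ∧
    Ideal.absNorm (P.pr (fld H)).asIdeal = P.p ^ P.f H ∧
    ∀ k : ℕ, (∀ x ∈ fld H, P.w x ≤ 1 → P.w (x ^ (P.p ^ k) - x) < 1) ↔ P.f H ∣ k := by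
  obtain ⟨f, h1, h2, h3⟩ := br_f hH P
  have h4 : P.f H = f :=
    IsLeast.csInf_eq ⟨⟨h1, (h3 f).2 dvd_rfl⟩, fun k ⟨hk, hk'⟩ => Nat.le_of_dvd hk ((h3 k).1 hk')⟩
  rw [h4]
  exact ⟨h1, h2, h3⟩

theorem f_spec (hH : IsOpen (H : Set GG)) (P : Pl) : 0 < P.f H ∧
    (∀ x ∈ fld H, P.w x ≤ 1 → P.w (x ^ P.nm H - x) < 1) ∧
    ∀ k : ℕ, (∀ x ∈ fld H, P.w x ≤ 1 → P.w (x ^ (P.p ^ k) - x) < 1) → P.f H ∣ k := by
  have := nf hH
  obtain ⟨h1, -, h3⟩ := br_f' hH P
  exact ⟨h1, (h3 _).2 dvd_rfl, fun k => (h3 k).1⟩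

theorem absNorm_pr (hH : IsOpen (H : Set GG)) [NumberField (fld H)] (P : Pl) :
    Ideal.absNorm (P.pr (fld H)).asIdeal = P.nm H :=
  (br_f' hH P).2.1

end Vale.Agent.P024
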