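import Vale.Agent.P024.Dv1

/-! Consequences of the finiteness of the class group and of the unit theorem. -/

namespace Vale.Agent.P024

open NumberField IsDedekindDomain
open scoped nonZeroDivisors

variable {H : Subgroup GG}

theorem cl_count {R K : Type*} [CommRing R] [IsDedekindDomain R] [Field K] [Algebra R K]
    [IsFractionRing R K] (v : HeightOneSpectrum R) {x : K} (hx : x ≠ 0) :
    v.valuation K x =
      WithZero.exp (-FractionalIdeal.count K v (FractionalIdeal.spanSingleton R⁰ x)) := by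
  obtain ⟨a, b, hb, rfl⟩ := IsFractionRing.div_surjective (A := R) x
  have hb0 : b ≠ 0 := nonZeroDivisors.ne_zero hb
  have ha0 : a ≠ 0 := by
    rintro rfl
    simp at hx
  rw [FractionalIdeal.count_well_defined K v (a := b) (J := Ideal.span {a})
    (FractionalIdeal.spanSingleton_ne_zero_iff.2 hx) (by
      rw [FractionalIdeal.coeIdeal_span_singleton, FractionalIdeal.spanSingleton_mul_spanSingleton,
        div_eq_inv_mul]),
    map_div₀, HeightOneSpectrum.valuation_of_algebraMap, HeightOneSpectrum.valuation_of_algebraMap,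
    v.intValuation_if_neg ha0, v.intValuation_if_neg hb0, ← WithZero.exp_sub]
  congr 1
  ring

theorem cl_ne {x : Omˣ} : (x : Om) ≠ 0 := x.ne_zero

/-- Finitely many divisor classes. -/
theorem cl_fin (hH : IsOpen (H : Set GG)) : ∃ (h : ℕ) (c : (Pr H →₀ ℤ) → Fin h),
    ∀ d d', c d = c d' → ∃ y ∈ un H, d' = d + dv H y := by
  have := nf hH
  let e := Equiv.ofBijective _ (pr_bij hH)
  let J : (Pr H →₀ ℤ) → FractionalIdeal (𝓞 (fld H))⁰ (fld H) := fun d =>
    (d.equivMapDomain e).prod (HeightOneSpectrum.asIdeal · ^ ·)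
  have J0 : ∀ d, J d ≠ 0 := fun d => Finset.prod_ne_zero_iff.2 fun v _ =>
    zpow_ne_zero _ (FractionalIdeal.coeIdeal_ne_zero.2 v.ne_bot)
  have Jc : ∀ d v, FractionalIdeal.count (fld H) (e v) (J d) = d v := fun d v => by
    rw [FractionalIdeal.count_finsuppProd, Finsupp.equivMapDomain_apply, Equiv.symm_apply_apply]
  refine ⟨_, fun d => Finite.equivFin (ClassGroup (𝓞 (fld H)))
    (ClassGroup.mk (fld H) (Units.mk0 (J d) (J0 d))), fun d d' h => ?_⟩
  have h1 := (Finite.equivFin _).injective h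
  rw [eq_comm, ← div_eq_one, ← map_div, ClassGroup.mk_eq_one_iff,
    FractionalIdeal.isPrincipal_iff] at h1
  obtain ⟨x, hx⟩ := h1
  rw [Units.val_div_eq_div_val, Units.val_mk0, Units.val_mk0, div_eq_iff (J0 d)] at hx
  have x0 : x ≠ 0 := by
    rintro rfl
    rw [FractionalIdeal.spanSingleton_zero, zero_mul] at hx
    exact J0 d' hx
  have x1 : (x : Om) ≠ 0 := fun h => x0 (Subtype.ext h)
  refine ⟨Units.mk0 (x : Om) x1, x.2, ?_⟩
  ext v
  have h2 := (val_eq hH v.out x x0).symm.trans (cl_count _ x0)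
  rw [WithZero.exp_inj, neg_inj] at h2
  rw [Finsupp.add_apply, Units.val_mk0, dv_apply hH x.2 x1, h2, ← Jc d', ← Jc d, hx,
    FractionalIdeal.count_mul _ _ (FractionalIdeal.spanSingleton_ne_zero_iff.2 x0) (J0 d), add_comm]
  rfl

theorem cl_p (P : Pl) : (Pr.mk H P).out.p = P.p := (nm_orb (out_mk H P)).2.2

theorem cl_inv (hH : IsOpen (H : Set GG)) {y : Omˣ} (hy : y ∈ un H) :
    dv H ((y⁻¹ : Omˣ) : Om) = -dv H y := by
  ext v
  rw [Finsupp.neg_apply, dv_apply hH ((un H).inv_mem hy) cl_ne, dv_apply hH hy cl_ne,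
    Units.val_inv_eq_inv_val, ← zpow_neg_one, ord_zpow hH _ hy cl_ne, neg_one_mul]

theorem cl_mul (hH : IsOpen (H : Set GG)) {x y : Omˣ} (hx : x ∈ un H) (hy : y ∈ un H) :
    dv H ((x * y : Omˣ) : Om) = dv H x + dv H y := dv_mul hH hx hy cl_ne cl_ne

theorem cl_zpow (hH : IsOpen (H : Set GG)) {y : Omˣ} (hy : y ∈ un H) (k : ℤ) (v : Pr H) :
    dv H ((y ^ k : Omˣ) : Om) v = k * dv H y v := by
  rw [dv_apply hH ((un H).zpow_mem hy k) cl_ne, dv_apply hH hy cl_ne,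
    Units.val_zpow_eq_zpow_val, ord_zpow hH _ hy cl_ne]

theorem cl_w (hH : IsOpen (H : Set GG)) {y : Omˣ} (hy : y ∈ un H) {P : Pl}
    (h : dv H y (Pr.mk H P) = 0) : P.w y = 1 :=
  (ord_eq_zero_iff hH P hy cl_ne).1 ((dv_mk hH hy cl_ne P).symm.trans h)

theorem gen_el (hH : IsOpen (H : Set GG)) (P : Pl) : ∃ x ∈ fld H, x ≠ 0 ∧ P.w x < 1 ∧
    ∀ Q, Q ∉ orb H P → Q.w x = 1 := by
  obtain ⟨h, c, hc⟩ := cl_fin hH
  obtain ⟨m, n, hmn, e⟩ : ∃ m n : ℕ, m < n ∧
      c (Finsupp.single (Pr.mk H P) m) = c (Finsupp.single (Pr.mk H P) n) := by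
    obtain ⟨m, n, hmn, e⟩ := Finite.exists_ne_map_eq_of_infinite
      fun n : ℕ => c (Finsupp.single (Pr.mk H P) n)
    rcases lt_or_gt_of_ne hmn with h1 | h1
    · exact ⟨m, n, h1, e⟩
    · exact ⟨n, m, h1, e.symm⟩
  obtain ⟨y, hy, e⟩ := hc _ _ e
  refine ⟨y, hy, cl_ne, ?_, fun Q hQ => cl_w hH hy ?_⟩
  · have h1 := DFunLike.congr_fun e (Pr.mk H P)
    rw [Finsupp.add_apply, Finsupp.single_eq_same, Finsupp.single_eq_same,
      dv_mk hH hy cl_ne] at h1
    have h2 := ord_le_iff hH P hy (fld H).one_mem cl_ne one_ne_zero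
    rw [(ord_eq_zero_iff hH P (fld H).one_mem one_ne_zero).2 (map_one _), map_one] at h2
    exact not_le.1 fun h3 => by have := h2.2 h3; omega
  · have h1 := DFunLike.congr_fun e (Pr.mk H Q)
    have h2 : Pr.mk H Q ≠ Pr.mk H P := fun h => hQ (mk_eq_iff.1 h.symm)
    rwa [Finsupp.add_apply, Finsupp.single_eq_of_ne h2, Finsupp.single_eq_of_ne h2, zero_add,
      eq_comm] at h1

/-- Prescribed orders at finitely many primes. -/
theorem cl_approx (hH : IsOpen (H : Set GG)) (R : Finset (Pr H)) (d : Pr H → ℤ) :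
    ∃ y ∈ un H, ∀ v ∈ R, dv H y v = d v := by
  classical
  rcases R.eq_empty_or_nonempty with rfl | hR
  · exact ⟨1, (un H).one_mem, by simp⟩
  choose π hπ π0 π1 using fun P : Pl => (e_spec hH P).2.2
  let a : Pl → Om := fun P => π P ^ d (Pr.mk H P)
  have ha : ∀ P, a P ∈ fld H := fun P => zpow_mem (hπ P) _
  have a0 : ∀ P, a P ≠ 0 := fun P => zpow_ne_zero _ (π0 P)
  obtain ⟨v0, hv0, hm⟩ := R.exists_min_image (fun v => v.out.w (a v.out)) hR
  have p0 : 0 < v0.out.w (a v0.out) := v0.out.w.pos (a0 _)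
  obtain ⟨y, hy, h⟩ := approx (H.isClosed_of_isOpen hH) (R.image Quotient.out)
    (fun P hP Q hQ hne hq => by
      obtain ⟨v, -, rfl⟩ := Finset.mem_image.1 hP
      obtain ⟨v', -, rfl⟩ := Finset.mem_image.1 hQ
      have := mk_eq_iff.2 hq
      rw [mk_out, mk_out] at this
      exact hne (by rw [this])) a (fun P _ => ha P) (half_pos p0)
  have hw : ∀ v ∈ R, v.out.w y = v.out.w (a v.out) := fun v hv => by
    have h1 : v.out.w (y - a v.out) < v.out.w (a v.out) :=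
      (h _ (Finset.mem_image_of_mem _ hv)).trans_lt ((half_lt_self p0).trans_le (hm v hv))
    have h2 := v.out.add_le (y - a v.out) (a v.out)
    have h3 := v.out.sub_le y (y - a v.out)
    rw [sub_add_cancel, max_eq_right h1.le] at h2
    rw [sub_sub_cancel] at h3
    exact le_antisymm h2 ((le_max_iff.1 h3).resolve_right h1.not_ge)
  have y0 : y ≠ 0 := by
    rintro rfl
    have := hw v0 hv0
    rw [map_zero] at this
    exact p0.ne this
  refine ⟨Units.mk0 y y0, hy, fun v hv => ?_⟩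
  have h4 : ord H v.out y = ord H v.out (a v.out) := by rw [ord, ord, hw v hv]
  rw [Units.val_mk0, dv_apply hH hy y0, h4, ord_zpow hH _ (hπ _) (π0 _), π1, mul_one, mk_out]

theorem cl_over (hH : IsOpen (H : Set GG)) (T : Finset ℕ) :
    ∃ R : Finset (Pr H), ∀ v, v ∈ R ↔ v.out.p ∈ T :=
  (finOrb_primes H T).exists_finset hH

theorem exists_genOff (hH : IsOpen (H : Set GG)) (T : Finset ℕ) :
    ∃ T' : Finset ℕ, Disjoint T T' ∧ ∀ S : Set Pl, {P | P.p ∈ T'} ⊆ S → GenOff H S := by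
  classical
  obtain ⟨h, c, hc⟩ := cl_fin hH
  obtain ⟨R, hR⟩ := cl_over hH T
  have key : ∀ i : Fin h, ∃ r : Pr H →₀ ℤ, (∀ v ∈ R, r v = 0) ∧
      ∀ d, c d = i → ∃ y ∈ un H, d = r + dv H y := fun i => by
    by_cases hi : ∃ d, c d = i
    · obtain ⟨d0, rfl⟩ := hi
      obtain ⟨z, hz, e⟩ := cl_approx hH R d0
      refine ⟨d0 - dv H z, fun v hv => by rw [Finsupp.sub_apply, e v hv, sub_self], fun d hd => ?_⟩
      obtain ⟨y, hy, rfl⟩ := hc d0 d hd.symm
      exact ⟨z * y, (un H).mul_mem hz hy, by rw [cl_mul hH hz hy]; abel⟩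
    · exact ⟨0, fun _ _ => rfl, fun d hd => (hi ⟨d, hd⟩).elim⟩
  choose r r0 hr using key
  refine ⟨Finset.univ.biUnion fun i => (r i).support.image fun v => v.out.p,
    Finset.disjoint_right.2 fun p hp hT => ?_, fun S hS Q hQ => ?_⟩
  · obtain ⟨i, -, hi⟩ := Finset.mem_biUnion.1 hp
    obtain ⟨v, hv, rfl⟩ := Finset.mem_image.1 hi
    exact Finsupp.mem_support_iff.1 hv (r0 i v ((hR v).2 hT))
  · have z : ∀ i Q, Q ∉ S → r i (Pr.mk H Q) = 0 := fun i Q hQ => by
      by_contra h0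
      exact hQ (hS (Finset.mem_biUnion.2 ⟨i, Finset.mem_univ _,
        Finset.mem_image.2 ⟨_, Finsupp.mem_support_iff.2 h0, cl_p Q⟩⟩))
    obtain ⟨y, hy, e⟩ := hr _ (Finsupp.single (Pr.mk H Q) 1) rfl
    refine ⟨y, hy, ?_, fun Q' h1 h2 => cl_w hH hy ?_⟩
    · have h3 := DFunLike.congr_fun e (Pr.mk H Q)
      rwa [Finsupp.add_apply, z _ Q hQ, zero_add, Finsupp.single_eq_same, dv_mk hH hy cl_ne,
        eq_comm] at h3
    · have h3 := DFunLike.congr_fun e (Pr.mk H Q')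
      rwa [Finsupp.add_apply, z _ Q' h1, zero_add,
        Finsupp.single_eq_of_ne fun h => h2 (mk_eq_iff.1 h.symm), eq_comm] at h3

theorem cl_one (hH : IsOpen (H : Set GG)) (v : Pr H) : dv H ((1 : Omˣ) : Om) v = 0 := by
  simpa using cl_zpow hH (un H).one_mem 0 v

theorem genOff_dv (hH : IsOpen (H : Set GG)) {S : Set Pl} (hS : ∀ h ∈ H, ∀ P ∈ S, h • P ∈ S)
    (hg : GenOff H S) (d : Pr H →₀ ℤ) :
    ∃ y ∈ un H, ∀ v : Pr H, v.out ∉ S → dv H y v = d v := by
  have _ := hS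
  induction d using Finsupp.induction_linear with
  | zero => exact ⟨1, (un H).one_mem, fun v _ => cl_one hH v⟩
  | add f g hf hg =>
    obtain ⟨x, hx, e⟩ := hf
    obtain ⟨y, hy, e'⟩ := hg
    exact ⟨x * y, (un H).mul_mem hx hy, fun v hv => by
      rw [cl_mul hH hx hy, Finsupp.add_apply, Finsupp.add_apply, e v hv, e' v hv]⟩
  | single w m =>
    by_cases hw : w.out ∈ S
    · refine ⟨1, (un H).one_mem, fun v hv => ?_⟩
      rw [cl_one hH, Finsupp.single_eq_of_ne]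
      rintro rfl
      exact hv hw
    · obtain ⟨y, hy, e1, e2⟩ := hg _ hw
      refine ⟨y ^ m, (un H).zpow_mem hy m, fun v hv => ?_⟩
      rw [cl_zpow hH hy, dv_apply hH hy cl_ne]
      rcases eq_or_ne v w with rfl | hne
      · rw [e1, mul_one, Finsupp.single_eq_same]
      · rw [Finsupp.single_eq_of_ne hne, (ord_eq_zero_iff hH _ hy cl_ne).2 (e2 _ hv fun h => ?_),
          mul_zero]
        have := mk_eq_iff.2 h
        rw [mk_out, mk_out] at this
        exact hne this.symm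

theorem sel (hH : IsOpen (H : Set GG)) : ∃ h : ℕ, ∀ (n : ℕ) (T : Finset ℕ),
    ∃ A : Finset Omˣ, A.card ≤ h ∧ ∀ b ∈ un H, (∀ P : Pl, P.p ∉ T → (n : ℤ) ∣ ord H P b) →
      ∃ a ∈ A, ∃ u ∈ su H {P | P.p ∈ T}, ∃ y ∈ un H, b = a * u * y ^ n := by
  classical
  obtain ⟨h, c, hc⟩ := cl_fin hH
  refine ⟨h, fun n T => ?_⟩
  let D : Omˣ → Pr H →₀ ℤ := fun b => (dv H b).mapRange (· / n) (Int.zero_ediv _)
  let G : Omˣ → Prop := fun b => b ∈ un H ∧ ∀ P : Pl, P.p ∉ T → (n : ℤ) ∣ ord H P b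
  have hD : ∀ b, G b → ∀ P : Pl, P.p ∉ T → dv H b (Pr.mk H P) = n * D b (Pr.mk H P) :=
    fun b hb P hP => by
      rw [Finsupp.mapRange_apply, Int.mul_ediv_cancel']
      rw [dv_mk hH hb.1 cl_ne]
      exact hb.2 P hP
  have key : ∀ i : Fin h, ∃ a : Omˣ, (∃ b, G b ∧ c (D b) = i) → G a ∧ c (D a) = i := fun i => by
    by_cases hi : ∃ b, G b ∧ c (D b) = i
    · exact hi.imp fun b hb _ => hb
    · exact ⟨1, fun h => (hi h).elim⟩
  choose a ha using key
  refine ⟨Finset.univ.image a, Finset.card_image_le.trans (by simp), fun b hb hn => ?_⟩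
  obtain ⟨g, e⟩ := ha _ ⟨b, ⟨hb, hn⟩, rfl⟩
  obtain ⟨y, hy, e⟩ := hc _ _ e
  have m1 := (un H).inv_mem g.1
  have m2 := (un H).zpow_mem hy (-n)
  have m3 := (un H).mul_mem (un H |>.mul_mem m1 hb) m2
  refine ⟨_, Finset.mem_image_of_mem _ (Finset.mem_univ (c (D b))),
    (a (c (D b)))⁻¹ * b * y ^ (-n : ℤ), ⟨m3, fun P hP => cl_w hH m3 ?_⟩, y, hy, by
      rw [zpow_neg, zpow_natCast]; group⟩
  rw [cl_mul hH ((un H).mul_mem m1 hb) m2, cl_mul hH m1 hb, cl_inv hH g.1, Finsupp.add_apply,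
    Finsupp.add_apply, Finsupp.neg_apply, cl_zpow hH hy, hD _ g P hP, hD b ⟨hb, hn⟩ P hP,
    DFunLike.congr_fun e (Pr.mk H P), Finsupp.add_apply]
  ring

end Vale.Agent.P024
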