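import Vale.Agent.P024.Cl

/-! Finiteness of ray class groups, finite generation of `S`-units. -/

namespace Vale.Agent.P024

open NumberField IsDedekindDomain

variable {H : Subgroup GG}

theorem cl2_index {G F : Type*} [Group G] [Finite F] (K : Subgroup G) (c : G → F)
    (h : ∀ x y, c x = c y → x⁻¹ * y ∈ K) : K.index ≠ 0 := by
  have : Finite (G ⧸ K) := Finite.of_injective (fun q : G ⧸ K => c q.out) fun q q' hq => by
    rw [← q.out_eq', ← q'.out_eq']
    exact QuotientGroup.eq.2 (h _ _ hq)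
  exact Subgroup.index_ne_zero_of_finite

theorem cl2_aindex {G F : Type*} [AddGroup G] [Finite F] (K : AddSubgroup G) (c : G → F)
    (h : ∀ x y, c x = c y → -x + y ∈ K) : K.index ≠ 0 := by
  have : Finite (G ⧸ K) := Finite.of_injective (fun q : G ⧸ K => c q.out) fun q q' hq => by
    rw [← q.out_eq', ← q'.out_eq']
    exact QuotientAddGroup.eq.2 (h _ _ hq)
  exact AddSubgroup.index_ne_zero_of_finite

theorem cl2_hom (hH : IsOpen (H : Set GG)) (S : Set Pl) :
    ∃ ψ : Additive (su H S) →+ (Pr H →₀ ℤ), ∀ x : su H S,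
      ψ (Additive.ofMul x) = dv H ((x : Omˣ) : Om) := by
  obtain ⟨φ, hφ⟩ := exists_dvHom hH
  have hle : su H S ≤ un H := fun x hx => hx.1
  exact ⟨φ.comp (MonoidHom.toAdditive (Subgroup.inclusion hle)), fun x => hφ ⟨x.1, hle x.2⟩⟩

theorem cl2_out {S : Set Pl} (hS : FinOrb H S) {P : Pl} (hP : P ∈ S) : (Pr.mk H P).out ∈ S := by
  obtain ⟨g, hg, e⟩ := out_mk H P
  rw [e]
  exact hS.1 g hg P hP

theorem cl2_int (P : Pl) [NumberField (fld H)] (a : 𝓞 (fld H)) :
    P.w ((a : fld H) : Om) ≤ 1 :=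
  P.integral_le ((RingOfIntegers.isIntegral_coe a).map ((fld H).val.restrictScalars ℤ))

theorem cl2_lift {x : Om} (hx : x ∈ fld H) (h : ∀ P : Pl, P.w x ≤ 1) :
    ∃ a : 𝓞 (fld H), ((a : fld H) : Om) = x := by
  have h1 : IsIntegral ℤ (⟨x, hx⟩ : fld H) :=
    (isIntegral_algHom_iff ((fld H).val.restrictScalars ℤ) (fld H).val.injective).1
      (isIntegral_of_le_one h)
  exact ⟨⟨⟨x, hx⟩, h1⟩, rfl⟩

theorem su_fg (hH : IsOpen (H : Set GG)) {S : Set Pl} (hS : FinOrb H S) : (su H S).FG := by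
  haveI := nf hH
  obtain ⟨R, hR⟩ := hS.exists_finset hH
  obtain ⟨ψ, hψ⟩ := cl2_hom hH S
  let ι : 𝓞 (fld H) →+* Om := (algebraMap (fld H) Om).comp (algebraMap (𝓞 (fld H)) (fld H))
  have hι : Function.Injective ι :=
    (algebraMap (fld H) Om).injective.comp (RingOfIntegers.coe_injective)
  have hmem : ∀ u : (𝓞 (fld H))ˣ, Units.map (ι : 𝓞 (fld H) →* Om) u ∈ su H S := by
    intro u
    refine ⟨((u : 𝓞 (fld H)) : fld H).2, fun P _ => ?_⟩
    have h1 : P.w (ι u) ≤ 1 := cl2_int P _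
    have h2 : P.w (ι (u⁻¹ : (𝓞 (fld H))ˣ)) ≤ 1 := cl2_int P _
    have h3 : P.w (ι u) * P.w (ι (u⁻¹ : (𝓞 (fld H))ˣ)) = 1 := by
      rw [← map_mul, ← map_mul, Units.mul_inv, map_one, map_one]
    have h4 := P.w.nonneg (ι u)
    change P.w (ι u) = 1
    nlinarith
  let g0 : (𝓞 (fld H))ˣ →* su H S := (Units.map (ι : 𝓞 (fld H) →* Om)).codRestrict _ hmem
  let g : Additive (𝓞 (fld H))ˣ →ₗ[ℤ] Additive (su H S) := (MonoidHom.toAdditive g0).toIntLinearMap
  let f : Additive (su H S) →ₗ[ℤ] (R → ℤ) :=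
    LinearMap.pi fun v : R => (Finsupp.lapply v.1).comp ψ.toIntLinearMap
  have hall : ∀ x : su H S, f (Additive.ofMul x) = 0 ↔ ∀ P : Pl, P.w ((x : Omˣ) : Om) = 1 := by
    intro x
    have hx : ((x : Omˣ) : Om) ∈ fld H := x.2.1
    constructor
    · intro h P
      by_cases hP : P ∈ S
      · have h1 : ψ (Additive.ofMul x) (Pr.mk H P) = 0 :=
          congrFun h ⟨Pr.mk H P, (hR _).2 (cl2_out hS hP)⟩
        rwa [hψ, dv_mk hH hx (Units.ne_zero _), ord_eq_zero_iff hH P hx (Units.ne_zero _)] at h1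
      · exact x.2.2 P hP
    · intro h
      funext v
      change ψ (Additive.ofMul x) v.1 = 0
      rw [hψ, dv_apply hH hx (Units.ne_zero _), ord_eq_zero_iff hH _ hx (Units.ne_zero _)]
      exact h _
  have hker : ⊤ ⊓ LinearMap.ker f = LinearMap.range g := by
    rw [top_inf_eq]
    ext x
    obtain ⟨x, rfl⟩ := Additive.ofMul.surjective x
    rw [LinearMap.mem_ker, hall]
    constructor
    · intro h
      obtain ⟨a, ha⟩ := cl2_lift (H := H) x.2.1 fun P => (h P).le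
      obtain ⟨b, hb⟩ := cl2_lift (H := H) ((su H S).inv_mem x.2).1 fun P => by
        rw [Units.val_inv_eq_inv_val, map_inv₀, h P, inv_one]
      have ha' : ι a = ((x : Omˣ) : Om) := ha
      have hb' : ι b = (((x : Omˣ)⁻¹ : Omˣ) : Om) := hb
      have hab : a * b = 1 := hι (by rw [map_mul, ha', hb', Units.mul_inv, map_one])
      refine ⟨Additive.ofMul (Units.mkOfMulEqOne a b hab), ?_⟩
      exact congrArg Additive.ofMul (Subtype.ext (Units.ext ha'))
    · rintro ⟨u, hu⟩ P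
      obtain ⟨u, rfl⟩ := Additive.ofMul.surjective u
      have e : g0 u = x := Additive.ofMul.injective hu
      have h1 : P.w (ι u) ≤ 1 := cl2_int P _
      have h2 : P.w (ι (u⁻¹ : (𝓞 (fld H))ˣ)) ≤ 1 := cl2_int P _
      have h3 : P.w (ι u) * P.w (ι (u⁻¹ : (𝓞 (fld H))ˣ)) = 1 := by
        rw [← map_mul, ← map_mul, Units.mul_inv, map_one, map_one]
      have h4 := P.w.nonneg (ι u)
      rw [← e]
      change P.w (ι u) = 1
      nlinarith
  have h1 : (⊤ : Submodule ℤ (Additive (su H S))).FG :=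
    Submodule.fg_of_fg_map_of_fg_inf_ker f (IsNoetherian.noetherian _)
      (hker ▸ Submodule.fg_range g)
  have h2 : Module.Finite ℤ (Additive (su H S)) := ⟨h1⟩
  rw [← Group.fg_iff_subgroup_fg, GroupFG.iff_add_fg, ← Module.Finite.iff_addGroup_fg]
  exact h2

theorem cg_relIndex (hH : IsOpen (H : Set GG)) {S : Set Pl} (hS : FinOrb H S) (N : ℕ) :
    (cg H S N).relIndex (su H Sᶜ) ≠ 0 := by
  haveI := nf hH
  obtain ⟨R, hR⟩ := hS.exists_finset hH
  have hε : (0 : ℝ) < (1 / 2) ^ (N + 1) := by positivity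
  have hw : ∀ (x : su H Sᶜ) (P : Pl), P ∈ S → P.w ((x : Omˣ) : Om) = 1 :=
    fun x P hP => x.2.2 P fun h => h hP
  choose a ha using fun (x : su H Sᶜ) (v : R) =>
    exists_int_congr hH v.1.out (x := ((x : Omˣ) : Om)) x.2.1 (hw x _ ((hR _).1 v.2)).le hε
  let I : R → Ideal (𝓞 (fld H)) := fun v => Ideal.span {((v.1.out.p : ℕ) : 𝓞 (fld H)) ^ (N + 1)}
  haveI : ∀ v, Finite (𝓞 (fld H) ⧸ I v) := fun v =>
    Ideal.finiteQuotientOfFreeOfNeBot _ (by
      rw [Ne, Ideal.span_singleton_eq_bot]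
      exact pow_ne_zero _ (Nat.cast_ne_zero.2 v.1.out.hp.ne_zero))
  refine cl2_index _ (fun x v => Ideal.Quotient.mk (I v) (a x v)) fun x y h => ?_
  rw [Subgroup.mem_subgroupOf]
  have hxy : (((x⁻¹ * y : su H Sᶜ) : Omˣ) : Om) ∈ fld H := (x⁻¹ * y).2.1
  refine ⟨hxy, fun P hP => ?_⟩
  let v : R := ⟨Pr.mk H P, (hR _).2 (cl2_out hS hP)⟩
  rw [← w_eq_of_orb (out_mk H P) (sub_mem hxy (one_mem _))]
  change v.1.out.w _ ≤ _
  obtain ⟨c, hc⟩ := Ideal.mem_span_singleton'.1 (Ideal.Quotient.eq.1 (congrFun h v))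
  have hax := ha x v
  have hay := ha y v
  have hx1 := hw x _ ((hR _).1 v.2)
  generalize v.1.out = Q at *
  have h1 : Q.w (((a x v : fld H) : Om) - ((a y v : fld H) : Om)) ≤ (1 / 2) ^ (N + 1) := by
    have e : ((a x v : fld H) : Om) - ((a y v : fld H) : Om) =
        ((c : fld H) : Om) * (Q.p : Om) ^ (N + 1) := by
      have := congrArg (fun t : 𝓞 (fld H) => ((t : fld H) : Om)) hc
      simpa using this.symm
    rw [e, map_mul, map_pow, Q.wp]
    have h2 : (Q.p : ℝ)⁻¹ ≤ 1 / 2 := by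
      rw [one_div]
      exact inv_anti₀ two_pos (by exact_mod_cast Q.hp.two_le)
    calc _ ≤ 1 * (1 / 2 : ℝ) ^ (N + 1) :=
          mul_le_mul (cl2_int Q c) (pow_le_pow_left₀ (by positivity) h2 _) (by positivity)
            zero_le_one
      _ = _ := one_mul _
  have e : (((x⁻¹ * y : su H Sᶜ) : Omˣ) : Om) - 1 = ((x : Omˣ) : Om)⁻¹ *
      ((((y : Omˣ) : Om) - ((a y v : fld H) : Om)) -
        ((((x : Omˣ) : Om) - ((a x v : fld H) : Om)) +
          (((a x v : fld H) : Om) - ((a y v : fld H) : Om)))) := by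
    have h0 : ((x : Omˣ) : Om) ≠ 0 := Units.ne_zero _
    rw [Subgroup.coe_mul, Subgroup.coe_inv, Units.val_mul, Units.val_inv_eq_inv_val]
    field_simp
    ring
  rw [e, map_mul, map_inv₀, hx1, inv_one, one_mul]
  exact (Q.sub_le _ _).trans (max_le hay ((Q.add_le _ _).trans (max_le hax h1)))

theorem cl2_gen (hH : IsOpen (H : Set GG)) (v : Pr H) : ∃ x ∈ un H, ∃ k : ℤ, 0 < k ∧
    dv H (x : Om) = Finsupp.single v k ∧ ∀ Q : Pl, Q.p ≠ v.out.p → Q.w x = 1 := by
  obtain ⟨x, hx, hx0, h1, h2⟩ := gen_el hH v.out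
  refine ⟨Units.mk0 x hx0, hx, ord H v.out x, ?_, ?_, fun Q hQ => h2 Q ?_⟩
  · have h3 := ord_le_iff hH v.out hx (one_mem _) hx0 one_ne_zero
    rw [(ord_eq_zero_iff hH v.out (one_mem _) one_ne_zero).2 (map_one _), map_one] at h3
    exact not_le.1 fun h => absurd (h3.1 h) (not_le.2 h1)
  · ext u
    rw [Units.val_mk0, dv_apply hH hx hx0]
    by_cases h : u = v
    · rw [h, Finsupp.single_eq_same]
    · rw [Finsupp.single_eq_of_ne h, ord_eq_zero_iff hH _ hx hx0]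
      refine h2 _ fun h3 => h ?_
      rw [← mk_out u, ← mk_out v]
      exact (mk_eq_iff.2 h3).symm
  · rintro ⟨g, -, rfl⟩
    exact hQ rfl

theorem PN_index (hH : IsOpen (H : Set GG)) (H' : Subgroup GG) {S : Set Pl} (hS : FinOrb H S)
    (N : ℕ) : (PN H H' S N).index ≠ 0 := by
  classical
  obtain ⟨T', hT, hg⟩ := exists_genOff hH hS.2.toFinset
  have hS' := finOrb_primes H T'
  obtain ⟨R, hR⟩ := hS'.exists_finset hH
  have hdis : ∀ P ∈ S, P.p ∉ T' := fun P hP =>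
    Finset.disjoint_left.1 hT (hS.2.mem_toFinset.2 ⟨P, hP, rfl⟩)
  obtain ⟨ψ, hψ⟩ := cl2_hom hH Sᶜ
  choose x hx k hk hdv hw using cl2_gen hH
  have hxS : ∀ v : R, x v ∈ su H Sᶜ := fun v => ⟨hx v, fun P hP => hw v P fun h =>
    hdis P (not_not.1 hP) (h ▸ (hR _).1 v.2)⟩
  have key : ∀ d : Pr H →₀ ℤ, ∃ z : su H Sᶜ, (∀ v : R, d v - ψ (Additive.ofMul z) v ∈
      Set.Ico 0 (k v)) ∧ ∀ v : Pr H, v.out ∉ S → v ∉ R → d v = ψ (Additive.ofMul z) v := by
    intro d
    obtain ⟨y, hy, h1⟩ := genOff_dv hH hS'.1 (hg _ subset_rfl) (d.filter fun v => v.out ∉ S)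
    have hyS : y ∈ su H Sᶜ := by
      refine ⟨hy, fun P hP => ?_⟩
      have h2 := cl2_out hS (not_not.1 hP)
      have h3 := h1 _ (hdis _ h2)
      rwa [Finsupp.filter_apply, if_neg (not_not.2 h2), dv_mk hH hy (Units.ne_zero _),
        ord_eq_zero_iff hH P hy (Units.ne_zero _)] at h3
    have h2 : ψ (Additive.ofMul ⟨y, hyS⟩ + ∑ v : R, ((d v - dv H y v) / k v) •
        Additive.ofMul (⟨x v, hxS v⟩ : su H Sᶜ)) =
        dv H y + ∑ v : R, Finsupp.single v.1 ((d v - dv H y v) / k v * k v) := by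
      simp only [map_add, map_sum, map_zsmul, hψ, hdv, Finsupp.smul_single, smul_eq_mul]
    refine ⟨Additive.toMul (Additive.ofMul ⟨y, hyS⟩ + ∑ v : R, ((d v - dv H y v) / k v) •
        Additive.ofMul (⟨x v, hxS v⟩ : su H Sᶜ)), fun v => ?_, fun v hv hvR => ?_⟩
    · rw [ofMul_toMul, h2, Finsupp.add_apply, Finsupp.finset_sum_apply,
        Finset.sum_eq_single v (fun u _ hu => Finsupp.single_eq_of_ne
          fun h => hu (Subtype.ext h.symm)) (by simp), Finsupp.single_eq_same, ← sub_sub]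
      have h3 := Int.emod_nonneg (d v - dv H y v) (hk v).ne'
      have h4 := Int.emod_lt_of_pos (d v - dv H y v) (hk v)
      rw [Int.emod_def, mul_comm] at h3 h4
      exact ⟨h3, h4⟩
    · rw [ofMul_toMul, h2, Finsupp.add_apply, Finsupp.finset_sum_apply,
        Finset.sum_eq_zero (fun (u : R) _ => Finsupp.single_eq_of_ne
          fun h : v = u.1 => hvR (h ▸ u.2)),
        add_zero, h1 v fun h => hvR ((hR v).2 h), Finsupp.filter_apply, if_pos hv]
  choose z hz1 hz2 using key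
  haveI : Finite (su H Sᶜ ⧸ (cg H S N).subgroupOf (su H Sᶜ)) :=
    Nat.finite_of_card_ne_zero (cg_relIndex hH hS N)
  refine cl2_aindex _ (fun d => ((fun v : R => (⟨_, hz1 d v⟩ : Set.Ico 0 (k v))),
    (z d : su H Sᶜ ⧸ (cg H S N).subgroupOf (su H Sᶜ)))) fun d d' h => ?_
  obtain ⟨h1, h2⟩ := Prod.ext_iff.1 h
  refine (mem_PN hH).2 ⟨_, Subgroup.mem_subgroupOf.1 (QuotientGroup.eq.1 h2), fun v hv => ?_⟩
  rw [← hψ, ofMul_mul, ofMul_inv, map_add, map_neg]
  have e : (-d + d') v - (-ψ (Additive.ofMul (z d)) + ψ (Additive.ofMul (z d'))) v = 0 := by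
    simp only [Finsupp.add_apply, Finsupp.neg_apply]
    by_cases hvR : v ∈ R
    · have := congrArg Subtype.val (congrFun h1 ⟨v, hvR⟩)
      simp only at this
      linarith
    · rw [← hz2 d v hv hvR, ← hz2 d' v hv hvR, sub_self]
  rw [e]
  exact dvd_zero _

end Vale.Agent.P024
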