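import Mathlib

/-! Definitions for the proof of Uchida's conjecture: places of `ℚ̄`, Frobenius elements,
divisors of fixed fields of open subgroups, characters. -/

namespace Vale.Agent.P024

open NumberField IsDedekindDomain

/-- A fixed algebraic closure of `ℚ`. -/
def Om : Type := AlgebraicClosure ℚ

noncomputable instance : Field Om := inferInstanceAs (Field (AlgebraicClosure ℚ))

instance : CharZero Om := inferInstanceAs (CharZero (AlgebraicClosure ℚ))

instance : IsAlgClosed Om := inferInstanceAs (IsAlgClosed (AlgebraicClosure ℚ))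

instance : Algebra.IsAlgebraic ℚ Om := AlgebraicClosure.isAlgebraic ℚ

instance : IsAlgClosure ℚ Om := ⟨inferInstance, inferInstance⟩

instance : IsGalois ℚ Om := inferInstance

abbrev GG : Type := Om ≃ₐ[ℚ] Om

/-- A finite place of `ℚ̄`, normalised by `|p| = 1/p`. -/
@[ext] structure Pl where
  p : ℕ
  hp : p.Prime
  w : AbsoluteValue Om ℝ
  na : IsNonarchimedean w
  wp : w (p : Om) = (p : ℝ)⁻¹

noncomputable def Pl.act (g : GG) (P : Pl) : Pl where
  p := P.p
  hp := P.hp
  w := P.w.comp (f := (g.symm : Om →+* Om)) g.symm.injective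
  na := fun x y => by
    show P.w (g.symm (x + y)) ≤ max (P.w (g.symm x)) (P.w (g.symm y))
    rw [map_add]
    exact P.na _ _
  wp := by
    show P.w (g.symm (P.p : Om)) = _
    rw [map_natCast]
    exact P.wp

noncomputable instance : MulAction GG Pl where
  smul := Pl.act
  one_smul P := by
    refine Pl.ext rfl ?_
    ext x
    rfl
  mul_smul g h P := by
    refine Pl.ext rfl ?_
    ext x
    rfl

@[simp] theorem Pl.smul_w (g : GG) (P : Pl) (x : Om) : (g • P).w x = P.w (g⁻¹ x) := rfl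

@[simp] theorem Pl.smul_p (g : GG) (P : Pl) : (g • P).p = P.p := rfl

theorem Pl.smul_w_apply (g : GG) (P : Pl) (x : Om) : (g • P).w (g x) = P.w x := by
  rw [Pl.smul_w]
  congr 1
  exact g.symm_apply_apply x

theorem Pl.add_le (P : Pl) (x y : Om) : P.w (x + y) ≤ max (P.w x) (P.w y) := P.na x y

theorem Pl.sub_le (P : Pl) (x y : Om) : P.w (x - y) ≤ max (P.w x) (P.w y) := by
  have := P.na x (-y)
  rwa [AbsoluteValue.map_neg, ← sub_eq_add_neg] at this

theorem Pl.nat_le (P : Pl) (n : ℕ) : P.w (n : Om) ≤ 1 := by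
  induction n with
  | zero => simp
  | succ n ih =>
    push_cast
    exact (P.add_le _ _).trans (max_le ih (by simp))

theorem Pl.int_le (P : Pl) (n : ℤ) : P.w (n : Om) ≤ 1 := by
  obtain ⟨m, rfl | rfl⟩ := Int.eq_nat_or_neg n
  · simpa using P.nat_le m
  · simpa using P.nat_le m

theorem Pl.sum_le (P : Pl) {ι : Type*} (s : Finset ι) (f : ι → Om) {c : ℝ} (hc : 0 ≤ c)
    (h : ∀ i ∈ s, P.w (f i) ≤ c) : P.w (∑ i ∈ s, f i) ≤ c := by
  classical
  induction s using Finset.induction_on with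
  | empty => simpa using hc
  | insert a s ha ih =>
    rw [Finset.sum_insert ha]
    exact (P.add_le _ _).trans (max_le (h a (Finset.mem_insert_self _ _))
      (ih fun i hi => h i (Finset.mem_insert_of_mem hi)))

theorem Pl.integral_le (P : Pl) {x : Om} (hx : IsIntegral ℤ x) : P.w x ≤ 1 := by
  by_contra hcon
  have h1 : 1 < P.w x := not_le.1 hcon
  obtain ⟨g, hg, h0⟩ := hx
  have h2 : Polynomial.aeval x g = 0 := h0
  rw [Polynomial.aeval_eq_sum_range, Finset.sum_range_succ, hg.coeff_natDegree, one_smul] at h2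
  have h3 : x ^ g.natDegree = -∑ i ∈ Finset.range g.natDegree, g.coeff i • x ^ i :=
    eq_neg_of_add_eq_zero_right h2
  rcases Nat.eq_zero_or_pos g.natDegree with h4 | h4
  · rw [h4] at h3
    simp at h3
  · have h5 : P.w (∑ i ∈ Finset.range g.natDegree, g.coeff i • x ^ i) ≤
        P.w x ^ (g.natDegree - 1) := by
      refine P.sum_le _ _ (by positivity) fun i hi => ?_
      rw [zsmul_eq_mul, map_mul, map_pow]
      have hi' : i ≤ g.natDegree - 1 := by
        have := Finset.mem_range.1 hi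
        omega
      calc P.w (g.coeff i : Om) * P.w x ^ i ≤ 1 * P.w x ^ (g.natDegree - 1) :=
            mul_le_mul (P.int_le _) (pow_le_pow_right₀ h1.le hi') (by positivity) zero_le_one
        _ = _ := one_mul _
    have h6 : P.w x ^ g.natDegree ≤ P.w x ^ (g.natDegree - 1) := by
      rw [← map_pow, h3, AbsoluteValue.map_neg]; exact h5
    have h7 := pow_lt_pow_right₀ h1 (show g.natDegree - 1 < g.natDegree by omega)
    linarith

/-- Decomposition group. -/
noncomputable def Pl.dec (P : Pl) : Subgroup GG := MulAction.stabilizer GG P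

theorem Pl.mem_dec {P : Pl} {σ : GG} : σ ∈ P.dec ↔ ∀ x, P.w (σ x) = P.w x := by
  constructor
  · intro h x
    have h' : σ • P = P := h
    have := P.smul_w_apply σ x
    rwa [h'] at this
  · intro h
    show σ • P = P
    refine Pl.ext rfl ?_
    ext x
    rw [Pl.smul_w, ← h]
    congr 1
    exact σ.apply_symm_apply x

/-- Inertia group. -/
def Pl.ine (P : Pl) : Subgroup GG where
  carrier := {σ | σ ∈ P.dec ∧ ∀ x, P.w x ≤ 1 → P.w (σ x - x) < 1}
  one_mem' := ⟨P.dec.one_mem, fun x _ => by simp⟩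
  mul_mem' := by
    rintro a b ⟨ha, ha'⟩ ⟨hb, hb'⟩
    refine ⟨P.dec.mul_mem ha hb, fun x hx => ?_⟩
    have e : (a * b) x - x = (a (b x) - b x) + (b x - x) := by
      rw [AlgEquiv.mul_apply]; ring
    rw [e]
    refine (P.add_le _ _).trans_lt (max_lt (ha' _ ?_) (hb' _ hx))
    rwa [Pl.mem_dec.1 hb]
  inv_mem' := by
    rintro a ⟨ha, ha'⟩
    refine ⟨P.dec.inv_mem ha, fun x hx => ?_⟩
    have h1 : P.w (a⁻¹ x) ≤ 1 := by rwa [Pl.mem_dec.1 (P.dec.inv_mem ha)]
    have h2 := ha' _ h1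
    have e : a (a⁻¹ x) = x := a.apply_symm_apply x
    rw [e] at h2
    rwa [AbsoluteValue.map_sub]

/-- `σ` acts on the residue field of `P` as the `n`-th power map. -/
def Pl.IsFr (P : Pl) (n : ℕ) (σ : GG) : Prop :=
  σ ∈ P.dec ∧ ∀ x, P.w x ≤ 1 → P.w (σ x - x ^ n) < 1

/-- The fixed field. -/
noncomputable abbrev fld (H : Subgroup GG) : IntermediateField ℚ Om := IntermediateField.fixedField H

theorem mem_fld {H : Subgroup GG} {x : Om} : x ∈ fld H ↔ ∀ σ ∈ H, σ x = x :=
  IntermediateField.mem_fixedField_iff H x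

theorem fix_fld {H : Subgroup GG} (hH : IsClosed (H : Set GG)) : (fld H).fixingSubgroup = H :=
  InfiniteGalois.fixingSubgroup_fixedField ⟨H, hH⟩

theorem mem_of_fix {H : Subgroup GG} (hH : IsClosed (H : Set GG)) {σ : GG}
    (h : ∀ x ∈ fld H, σ x = x) : σ ∈ H := by
  rw [← fix_fld hH]
  exact (IntermediateField.mem_fixingSubgroup_iff _ _).2 h

theorem nf {H : Subgroup GG} (hH : IsOpen (H : Set GG)) : NumberField (fld H) := by
  have h1 : FiniteDimensional ℚ (fld H) := by
    rw [← InfiniteGalois.isOpen_iff_finite, fix_fld (H.isClosed_of_isOpen hH)]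
    exact hH
  exact ⟨⟩

/-- The fixed field contains a square root of `-1`. -/
def TC (H : Subgroup GG) : Prop := ∃ i ∈ fld H, i * i = -1

/-- The prime of a number field under a place. -/
def Pl.pr (P : Pl) (K : IntermediateField ℚ Om) [NumberField K] : HeightOneSpectrum (𝓞 K) where
  asIdeal :=
    { carrier := {x | P.w ((x : K) : Om) < 1}
      add_mem' := fun {a b} ha hb => by
        have := (P.add_le ((a : K) : Om) ((b : K) : Om)).trans_lt (max_lt ha hb)
        simpa using this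
      zero_mem' := by simp
      smul_mem' := fun c x hx => by
        have hc : P.w ((c : K) : Om) ≤ 1 :=
          P.integral_le ((RingOfIntegers.isIntegral_coe c).map (K.val.restrictScalars ℤ))
        have hx' : P.w ((x : K) : Om) < 1 := hx
        have := mul_lt_one_of_nonneg_of_lt_one_right hc (P.w.nonneg _) hx'
        simpa using this }
  isPrime := by
    refine ⟨?_, ?_⟩
    · rw [Ne, Ideal.eq_top_iff_one]
      intro h
      have h' : P.w (((1 : 𝓞 K) : K) : Om) < 1 := h
      simp at h'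
    · intro a b hab
      have h' : P.w (((a * b : 𝓞 K) : K) : Om) < 1 := hab
      by_contra hcon
      rw [not_or] at hcon
      have ha : 1 ≤ P.w ((a : K) : Om) := not_lt.1 hcon.1
      have hb : 1 ≤ P.w ((b : K) : Om) := not_lt.1 hcon.2
      have := one_le_mul_of_one_le_of_one_le ha hb
      simp at h'
      linarith
  ne_bot := by
    intro h
    have h1 : ((P.p : ℕ) : 𝓞 K) ∈ (⊥ : Ideal (𝓞 K)) := by
      rw [← h]
      show P.w ((((P.p : ℕ) : 𝓞 K) : K) : Om) < 1
      have := P.wp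
      have h2 : (1 : ℝ) < P.p := by exact_mod_cast P.hp.one_lt
      simp only [map_natCast, SubringClass.coe_natCast] at *
      rw [this]
      exact inv_lt_one_of_one_lt₀ h2
    rw [Ideal.mem_bot] at h1
    exact P.hp.ne_zero (by exact_mod_cast h1)

theorem Pl.mem_pr (P : Pl) (K : IntermediateField ℚ Om) [NumberField K] (x : 𝓞 K) :
    x ∈ (P.pr K).asIdeal ↔ P.w ((x : K) : Om) < 1 := Iff.rfl

/-- Absolute ramification index in the fixed field of `H`. -/
noncomputable def Pl.e (P : Pl) (H : Subgroup GG) : ℕ :=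
  sInf {k : ℕ | 0 < k ∧ ∀ x ∈ fld H, x ≠ 0 → ∃ m : ℤ, P.w x ^ k = (P.p : ℝ) ^ m}

/-- Normalised additive valuation on the fixed field of `H`. -/
noncomputable def ord (H : Subgroup GG) (P : Pl) (x : Om) : ℤ :=
  ⌊-(P.e H : ℝ) * Real.logb P.p (P.w x)⌋

/-- Absolute residue degree in the fixed field of `H`. -/
noncomputable def Pl.f (P : Pl) (H : Subgroup GG) : ℕ :=
  sInf {k : ℕ | 0 < k ∧ ∀ x ∈ fld H, P.w x ≤ 1 → P.w (x ^ (P.p ^ k) - x) < 1}

/-- Norm of the prime under `P`. -/
noncomputable def Pl.nm (P : Pl) (H : Subgroup GG) : ℕ := P.p ^ P.f H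

/-- Primes of the fixed field of `H`. -/
abbrev Pr (H : Subgroup GG) : Type := MulAction.orbitRel.Quotient H Pl

noncomputable def Pr.mk (H : Subgroup GG) (P : Pl) : Pr H := Quotient.mk'' P

open Classical in
/-- The divisor of an element. -/
noncomputable def dv (H : Subgroup GG) (x : Om) : Pr H →₀ ℤ :=
  if h : (Function.support fun v : Pr H => ord H v.out x).Finite then
    Finsupp.ofSupportFinite _ h else 0

open Classical in
/-- A chosen Frobenius element of `H` at `P`. -/
noncomputable def frob (H : Subgroup GG) (P : Pl) : GG :=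
  if h : ∃ σ ∈ H, P.IsFr (P.nm H) σ then h.choose else 1

/-- The Artin sum of a divisor. -/
noncomputable def art {A : Type*} [AddCommGroup A] (H : Subgroup GG) (ρ : GG → A)
    (d : Pr H →₀ ℤ) : A := d.sum fun v m => m • ρ (frob H v.out)

/-- The multiplicative group of the fixed field. -/
def un (H : Subgroup GG) : Subgroup Omˣ where
  carrier := {x | (x : Om) ∈ fld H}
  one_mem' := (fld H).one_mem
  mul_mem' := fun ha hb => (fld H).mul_mem ha hb
  inv_mem' := fun {x} hx => by
    show ((x⁻¹ : Omˣ) : Om) ∈ fld H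
    rw [Units.val_inv_eq_inv_val]
    exact (fld H).inv_mem hx

/-- `S`-units of the fixed field. -/
def su (H : Subgroup GG) (S : Set Pl) : Subgroup Omˣ where
  carrier := {x | x ∈ un H ∧ ∀ P, P ∉ S → P.w x = 1}
  one_mem' := ⟨(un H).one_mem, fun P _ => by simp⟩
  mul_mem' := fun ha hb => ⟨(un H).mul_mem ha.1 hb.1, fun P hP => by
    rw [Units.val_mul, map_mul, ha.2 P hP, hb.2 P hP, one_mul]⟩
  inv_mem' := fun {x} hx => ⟨(un H).inv_mem hx.1, fun P hP => by
    rw [Units.val_inv_eq_inv_val, map_inv₀, hx.2 P hP, inv_one]⟩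

theorem Pl.eq_one_of_sub_lt (P : Pl) {x : Om} (h : P.w (x - 1) < 1) : P.w x = 1 := by
  have h1 : P.w x ≤ 1 := by
    have := P.add_le (x - 1) 1
    rw [sub_add_cancel, map_one] at this
    exact this.trans (max_le h.le le_rfl)
  refine le_antisymm h1 (not_lt.1 fun h2 => ?_)
  have := P.sub_le x (x - 1)
  rw [sub_sub_cancel, map_one] at this
  exact absurd (this.trans_lt (max_lt h2 h)) (lt_irrefl _)

/-- Elements close to `1` at the places of `S` (level `N`). -/
def cg (H : Subgroup GG) (S : Set Pl) (N : ℕ) : Subgroup Omˣ where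
  carrier := {x | x ∈ un H ∧ ∀ P ∈ S, P.w (x - 1) ≤ (1 / 2) ^ (N + 1)}
  one_mem' := ⟨(un H).one_mem, fun P _ => by simp⟩
  mul_mem' := fun {a b} ha hb => ⟨(un H).mul_mem ha.1 hb.1, fun P hP => by
    have h1 : (1 / 2 : ℝ) ^ (N + 1) < 1 := pow_lt_one₀ (by norm_num) (by norm_num) (by omega)
    have h2 := P.eq_one_of_sub_lt ((ha.2 P hP).trans_lt h1)
    have e : ((a * b : Omˣ) : Om) - 1 = a * (b - 1) + (a - 1) := by
      rw [Units.val_mul]; ring
    rw [e]
    refine (P.add_le _ _).trans (max_le ?_ (ha.2 P hP))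
    rw [map_mul, h2, one_mul]
    exact hb.2 P hP⟩
  inv_mem' := fun {a} ha => ⟨(un H).inv_mem ha.1, fun P hP => by
    have h1 : (1 / 2 : ℝ) ^ (N + 1) < 1 := pow_lt_one₀ (by norm_num) (by norm_num) (by omega)
    have h2 := P.eq_one_of_sub_lt ((ha.2 P hP).trans_lt h1)
    have e : ((a⁻¹ : Omˣ) : Om) - 1 = -((a : Om)⁻¹ * (a - 1)) := by
      rw [Units.val_inv_eq_inv_val]
      field_simp
      ring
    rw [e, AbsoluteValue.map_neg, map_mul, map_inv₀, h2, inv_one, one_mul]
    exact ha.2 P hP⟩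

/-- The action of `σ` on the multiplicative group. -/
noncomputable def sig (σ : GG) : Omˣ →* Omˣ := Units.map (σ : Om →* Om)

/-- The norm for a cyclic extension with generator `σ` of order `n`. -/
noncomputable def nrm (σ : GG) (n : ℕ) : Omˣ →* Omˣ := ∏ i ∈ Finset.range n, sig (σ ^ i)

/-- The norm from the fixed field of `H'` to the fixed field of `H`. -/
noncomputable def rn (H H' : Subgroup GG) (x : Om) : Om :=
  ∏ᶠ τ : H ⧸ H'.subgroupOf H, ((τ.out : H) : GG) x

/-- `H'` is normalised by `H`. -/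
def Nl (H H' : Subgroup GG) : Prop := ∀ h ∈ H, ∀ x ∈ H', h * x * h⁻¹ ∈ H'

/-- A cyclic extension of degree `n` with generator `σ`. -/
structure Cyc (H H' : Subgroup GG) (σ : GG) (n : ℕ) : Prop where
  oH : IsOpen (H : Set GG)
  oH' : IsOpen (H' : Set GG)
  le : H' ≤ H
  nl : Nl H H'
  mem : σ ∈ H
  gen : ∀ h ∈ H, ∃ i : ℕ, (σ ^ i)⁻¹ * h ∈ H'
  idx : H'.relIndex H = n

/-- The order of the decomposition group of `P` in `H / H'`. -/
noncomputable def dg (H H' : Subgroup GG) (P : Pl) : ℕ := H'.relIndex (P.dec ⊓ H)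

/-- An `H`-stable set of places above finitely many primes. -/
def FinOrb (H : Subgroup GG) (S : Set Pl) : Prop :=
  (∀ h ∈ H, ∀ P ∈ S, h • P ∈ S) ∧ (Pl.p '' S).Finite

/-- The `H`-orbit of a place. -/
def orb (H : Subgroup GG) (P : Pl) : Set Pl := {Q | ∃ h ∈ H, Q = h • P}

/-- Every prime outside `S` is principal up to primes in `S`. -/
def GenOff (H : Subgroup GG) (S : Set Pl) : Prop :=
  ∀ Q, Q ∉ S → ∃ y ∈ un H, ord H Q y = 1 ∧ ∀ Q', Q' ∉ S → Q' ∉ orb H Q → Q'.w y = 1

/-- Norms times principal divisors of elements close to `1` at `S`, modulo `S`. -/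
noncomputable def PN (H H' : Subgroup GG) (S : Set Pl) (N : ℕ) : AddSubgroup (Pr H →₀ ℤ) :=
  AddSubgroup.closure {d | ∃ x ∈ cg H S N, ∀ v : Pr H, v.out ∉ S →
    (dg H H' v.out : ℤ) ∣ d v - dv H x v}

/-- Norms times elements close to `1` at `S`. -/
noncomputable def NC (H H' : Subgroup GG) (σ : GG) (n : ℕ) (S : Set Pl) (N : ℕ) : Subgroup Omˣ :=
  (un H').map (nrm σ n) ⊔ cg H S N

/-- Additive on `H`. -/
def AddOn {A : Type*} [Add A] (H : Subgroup GG) (ρ : GG → A) : Prop :=
  ∀ x ∈ H, ∀ y ∈ H, ρ (x * y) = ρ x + ρ y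

/-- Uniformly locally constant on `H`. -/
def LC {A : Type*} (H : Subgroup GG) (c : GG → A) : Prop :=
  ∃ U : Subgroup GG, IsOpen (U : Set GG) ∧ ∀ x ∈ H, ∀ u ∈ H, u ∈ U → c (x * u) = c x

/-- A continuous additive character of `H` with values in `ℂ_[q]`. -/
def IsCh (q : ℕ) [Fact q.Prime] (H : Subgroup GG) (lam : GG → ℂ_[q]) : Prop :=
  AddOn H lam ∧ ContinuousOn lam H

/-- The cyclotomic character modulo `m`. -/
noncomputable def chm (m : ℕ) [NeZero m] : GG →* (ZMod m)ˣ :=
  (modularCyclotomicCharacter Om (HasEnoughRootsOfUnity.natCard_rootsOfUnity Om m)).comp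
    (MulSemiringAction.toRingAut GG Om)

/-- The `q`-adic cyclotomic character. -/
noncomputable def chi (q : ℕ) [Fact q.Prime] : GG →* ℤ_[q]ˣ :=
  (cyclotomicCharacter Om q).comp (MulSemiringAction.toRingAut GG Om)

/-- A fixed primitive `n`-th root of unity. -/
noncomputable def zet (n : ℕ) [NeZero n] : Om :=
  (HasEnoughRootsOfUnity.exists_primitiveRoot Om n).choose

theorem zet_spec (n : ℕ) [NeZero n] : IsPrimitiveRoot (zet n) n :=
  (HasEnoughRootsOfUnity.exists_primitiveRoot Om n).choose_spec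

open Classical in
/-- The Kummer cocycle of `β`. -/
noncomputable def kum (n : ℕ) [NeZero n] (β : Om) (σ : GG) : ZMod n :=
  if h : ∃ a : ZMod n, σ β = zet n ^ a.val * β then h.choose else 0

/-- A fixed embedding into `ℂ_[q]`. -/
noncomputable def emb (q : ℕ) [Fact q.Prime] : Om →ₐ[ℚ] ℂ_[q] := IsAlgClosed.lift

open Classical in
/-- The `q`-adic logarithm near `1`. -/
noncomputable def plog (q : ℕ) [Fact q.Prime] (x : ℂ_[q]) : ℂ_[q] :=
  if h : ∃ z : ℂ_[q], ‖z‖ ≤ (q : ℝ)⁻¹ ∧ NormedSpace.exp z = x then h.choose else 0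

/-- The inclusion of `ℤ_[q]` in `ℂ_[q]`. -/
noncomputable def zc (q : ℕ) [Fact q.Prime] : ℤ_[q] →+* ℂ_[q] :=
  (algebraMap ℚ_[q] ℂ_[q]).comp PadicInt.Coe.ringHom

/-- The logarithm of a `q`-adic unit. -/
noncomputable def ulog (q : ℕ) [Fact q.Prime] (u : ℤ_[q]ˣ) : ℂ_[q] :=
  ((q : ℂ_[q]) - 1)⁻¹ * plog q (zc q ((u : ℤ_[q]) ^ (q - 1)))

/-- The logarithm of the cyclotomic character. -/
noncomputable def lchi (q : ℕ) [Fact q.Prime] (σ : GG) : ℂ_[q] := ulog q (chi q σ)

/-- The norm endomorphism of a module over a cyclic group. -/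
def hN {M : Type*} [AddCommGroup M] (s : AddMonoid.End M) (n : ℕ) : AddMonoid.End M :=
  ∑ i ∈ Finset.range n, s ^ i

/-- The order of `H^0`. -/
noncomputable def h0 {M : Type*} [AddCommGroup M] (s : AddMonoid.End M) (n : ℕ) : ℕ :=
  (AddMonoidHom.range (hN s n)).relIndex (AddMonoidHom.ker (s - 1))

/-- The order of `H^1`. -/
noncomputable def h1 {M : Type*} [AddCommGroup M] (s : AddMonoid.End M) (n : ℕ) : ℕ :=
  (AddMonoidHom.range (s - 1)).relIndex (AddMonoidHom.ker (hN s n))

/-- The shift on the free module of rank `k` over the group ring of `ZMod n`. -/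
def shf (k n : ℕ) : AddMonoid.End (Fin k → ZMod n → ℤ) where
  toFun m := fun j i => m j (i - 1)
  map_zero' := rfl
  map_add' _ _ := rfl

/-- `σ` as an endomorphism of a stable subgroup of the multiplicative group. -/
noncomputable def sEnd (σ : GG) (M : Subgroup Omˣ) (hM : ∀ x ∈ M, sig σ x ∈ M) :
    AddMonoid.End (Additive M) :=
  MonoidHom.toAdditive (((sig σ).comp M.subtype).codRestrict M fun x => hM x x.2)

/-- Congruent to `1` modulo `q`. -/
def Cq (q : ℕ) (H : Subgroup GG) (x : Om) : Prop :=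
  x ∈ fld H ∧ ∀ P : Pl, P.p = q → P.w (x - 1) ≤ (q : ℝ)⁻¹

/-- The group `ℚ_q / ℤ_q`. -/
abbrev DD (q : ℕ) [Fact q.Prime] : Type := ℚ_[q] ⧸ (1 : Submodule ℤ_[q] ℚ_[q])

/-- Eigencharacters of `M` with values in `ℚ_q / ℤ_q`, unramified outside `q`. -/
def TT (q : ℕ) [Fact q.Prime] (H M : Subgroup GG) (κ : GG → ℤ_[q]ˣ) : Set (GG → DD q) :=
  {f | AddOn M f ∧ LC M f ∧ (∀ x, x ∉ M → f x = 0) ∧
    (∀ P : Pl, P.p ≠ q → ∀ τ ∈ P.ine ⊓ M, f τ = 0) ∧
    ∀ σ ∈ H, ∀ x ∈ M, f (σ⁻¹ * x * σ) = (κ σ : ℤ_[q]) • f x}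

/-- Multiplicative independence of a family of points of a torus. -/
def Indep {F : Type*} [Field F] {l D : ℕ} (y : Fin l → Fin D → Fˣ) : Prop :=
  ∀ (s : Fin l → ℤ) (κ : Fin D → ℤ), s ≠ 0 → κ ≠ 0 → ∏ i, ∏ t, y i t ^ (s i * κ t) ≠ 1

end Vale.Agent.P024
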