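import Vale.Agent.P024.Fr

/-! The decomposition group is topologically generated by inertia and Frobenius. -/

namespace Vale.Agent.P024

open NumberField IsDedekindDomain Polynomial Filter

variable {H : Subgroup GG}

theorem fr2_gen {k : Type*} [Field k] {p : ℕ} [Fact p.Prime] [CharP k p] (s : k →+* k) {z : k}
    {n : ℕ} (hn : 0 < n) (hz : z ^ p ^ n = z) : ∃ j, s z = z ^ p ^ j := by
  set g : ℕ → k[X] := fun j => X - C (z ^ p ^ j) with hg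
  have h1 : (∏ j ∈ Finset.range n, g j).map (frobenius k p) = ∏ j ∈ Finset.range n, g j := by
    have e := (Finset.prod_range_succ' g n).symm.trans (Finset.prod_range_succ g n)
    have e0 : g n = g 0 := by simp only [hg, hz, pow_zero, pow_one]
    rw [e0] at e
    refine Eq.trans ?_ (mul_right_cancel₀ (X_sub_C_ne_zero _) e)
    rw [Polynomial.map_prod]
    refine Finset.prod_congr rfl fun j _ => ?_
    rw [hg, Polynomial.map_sub, map_X, map_C, frobenius_def, ← pow_mul, ← pow_succ]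
  have h2 : (∏ j ∈ Finset.range n, g j).map s = ∏ j ∈ Finset.range n, g j := by
    ext i
    have e := congrArg (fun f => coeff f i) h1
    simp only [coeff_map, frobenius_def] at e
    rw [coeff_map]
    exact (bot_le : ⊥ ≤ RingHom.eqLocusField s (RingHom.id k))
      ((Subfield.mem_bot_iff_pow_eq_self k p).2 e)
  have h3 : (∏ j ∈ Finset.range n, g j).eval (s z) = 0 := by
    rw [← h2, eval_map, eval₂_at_apply, eval_prod,
      Finset.prod_eq_zero (Finset.mem_range.2 hn) (by simp [hg]), map_zero]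
  rw [eval_prod, Finset.prod_eq_zero_iff] at h3
  obtain ⟨j, -, hj⟩ := h3
  exact ⟨j, by simpa [hg, sub_eq_zero] using hj⟩

/-- The valuation ring. -/
def fr2O (P : Pl) : Subring Om where
  carrier := {x | P.w x ≤ 1}
  one_mem' := by simp
  zero_mem' := by simp
  mul_mem' {a b} ha hb := by
    show P.w (a * b) ≤ 1
    rw [map_mul]
    exact mul_le_one₀ ha (P.w.nonneg _) hb
  add_mem' {a b} ha hb := (P.add_le a b).trans (max_le ha hb)
  neg_mem' {a} ha := (P.w.map_neg a).trans_le ha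

/-- The maximal ideal. -/
def fr2M (P : Pl) : Ideal (fr2O P) where
  carrier := {x | P.w x < 1}
  zero_mem' := by simp
  add_mem' {a b} ha hb := (P.add_le a b).trans_lt (max_lt ha hb)
  smul_mem' c x hx := (map_mul P.w c.1 x.1).trans_lt
    (mul_lt_one_of_nonneg_of_lt_one_right c.2 (P.w.nonneg _) hx)

theorem fr2_max (P : Pl) : (fr2M P).IsMaximal := by
  refine Ideal.isMaximal_iff.2 ⟨fun h => (map_one P.w).not_lt h, fun J x _ hx hJ => ?_⟩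
  have h1 : P.w x = 1 := le_antisymm x.2 (not_lt.1 hx)
  have h0 : (x : Om) ≠ 0 := fun h => by simp [h] at h1
  have h2 : (x : Om)⁻¹ ∈ fr2O P := show P.w _ ≤ 1 by rw [map_inv₀, h1, inv_one]
  have e : (⟨_, h2⟩ * x : fr2O P) = 1 := Subtype.ext (inv_mul_cancel₀ h0)
  exact e ▸ J.mul_mem_left _ hJ

theorem fr2_pow {P : Pl} {σ : GG} (hσ : σ ∈ P.dec) {z : Om} (hz : P.w z ≤ 1) {n : ℕ} (hn : 0 < n)
    (h : z ^ P.p ^ n = z) : ∃ j, P.w (σ z - z ^ P.p ^ j) < 1 := by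
  have := fr2_max P
  have := Fact.mk P.hp
  let _ := Ideal.Quotient.field (fr2M P)
  have : CharP (fr2O P ⧸ fr2M P) P.p := (CharP.charP_iff_prime_eq_zero P.hp).2 <| by
    rw [← map_natCast (Ideal.Quotient.mk (fr2M P)), Ideal.Quotient.eq_zero_iff_mem]
    exact P.w_p_lt
  let r : fr2O P →+* fr2O P := (σ : Om →+* Om).restrict _ _ fun x hx =>
    (Pl.mem_dec.1 hσ x).trans_le hx
  have hr : fr2M P ≤ (fr2M P).comap r := fun x hx => (Pl.mem_dec.1 hσ x.1).trans_lt hx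
  have hz' : z ∈ fr2O P := hz
  obtain ⟨j, hj⟩ := fr2_gen (Ideal.quotientMap (fr2M P) r hr) (z := Ideal.Quotient.mk _ ⟨z, hz'⟩) hn
    (by rw [← map_pow]; exact congrArg _ (Subtype.ext h))
  rw [Ideal.quotientMap_mk, ← map_pow, Ideal.Quotient.eq] at hj
  exact ⟨j, hj⟩

theorem fr2_dvd {ζ : Om} {a b : ℕ} (h : ζ ^ a = 1) (hd : a ∣ b) : ζ ^ b = 1 := by
  obtain ⟨c, rfl⟩ := hd
  rw [pow_mul, h, one_pow]

theorem fr2_nd (P : Pl) {n : ℕ} (hn : 0 < n) : ¬ P.p ∣ P.p ^ n - 1 := fun h =>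
  P.hp.one_lt.ne' (Nat.dvd_one.1 ((Nat.dvd_sub_iff_right (Nat.one_le_pow _ _ P.hp.pos)
    (dvd_pow_self _ hn.ne')).1 h))

theorem fr2_ne (P : Pl) {n : ℕ} (hn : 0 < n) : P.p ^ n - 1 ≠ 0 := fun h =>
  fr2_nd P hn (h ▸ dvd_zero _)

/-- The decomposition group acts on roots of unity by powers of `p`. -/
theorem fr2_act {P : Pl} {σ : GG} (hσ : σ ∈ P.dec) {n : ℕ} (hn : 0 < n) :
    ∃ j, ∀ ζ : Om, ζ ^ (P.p ^ n - 1) = 1 → σ ζ = ζ ^ P.p ^ j := by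
  have := NeZero.mk (fr2_ne P hn)
  obtain ⟨z, hz⟩ : ∃ z : Om, IsPrimitiveRoot z (P.p ^ n - 1) := ⟨_, zet_spec (P.p ^ n - 1)⟩
  have w1 := P.pl2_root (fr2_ne P hn) hz.pow_eq_one
  obtain ⟨j, hj⟩ := fr2_pow hσ w1.le hn (by
    rw [← Nat.sub_add_cancel (Nat.one_le_pow n _ P.hp.pos), pow_succ, hz.pow_eq_one, one_mul])
  have e := P.pl2_eq (fr2_nd P hn) (by rw [map_pow, w1, one_pow]) (by
    rw [← map_pow, pow_right_comm, hz.pow_eq_one, map_one, one_pow]) hj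
  refine ⟨j, fun ζ hζ => ?_⟩
  obtain ⟨i, -, rfl⟩ := hz.eq_pow_of_pow_eq_one hζ
  rw [map_pow, e, pow_right_comm]

/-- Teichmueller representatives. -/
theorem fr2_teich (hH : IsOpen (H : Set GG)) (P : Pl) {x : Om} (hx : x ∈ fld H) (h : P.w x = 1) :
    ∃ ζ : Om, ζ ^ (P.p ^ P.f H - 1) = 1 ∧ P.w (x - ζ) < 1 := by
  obtain ⟨f0, hf, -⟩ := f_spec hH P
  have := NeZero.mk (fr2_ne P f0)
  have h1 := hf x hx h.le
  rw [Pl.nm, ← Nat.sub_add_cancel (Nat.one_le_pow (P.f H) _ P.hp.pos), pow_succ, ← sub_one_mul,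
    map_mul, h, mul_one] at h1
  have e := congrArg (eval x) (X_pow_sub_one_eq_prod (fr2_ne P f0).bot_lt (zet_spec _))
  simp only [eval_sub, eval_pow, eval_X, eval_one, eval_prod, eval_C] at e
  rw [e, map_prod] at h1
  by_contra hc
  refine h1.not_ge (Finset.one_le_prod fun ζ hζ => not_lt.1 fun h2 => hc ⟨ζ, ?_, h2⟩)
  exact (mem_nthRootsFinset (fr2_ne P f0).bot_lt _).1 hζ

theorem fr2_ine {P : Pl} {σ : GG} (hσ : σ ∈ P.dec)
    (h : ∀ n, 0 < n → ∀ ζ : Om, ζ ^ (P.p ^ n - 1) = 1 → σ ζ = ζ) : σ ∈ P.ine := by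
  refine ⟨hσ, fun x hx => ?_⟩
  rcases hx.eq_or_lt with h1 | h1
  · have hH : IsOpen (MulAction.stabilizer GG x : Set GG) := isOpen_stab x
    obtain ⟨ζ, h2, h3⟩ := fr2_teich hH P (mem_fld.2 fun _ hg => hg) h1
    rw [show σ x - x = σ (x - ζ) - (x - ζ) by rw [map_sub, h _ (f_spec hH P).1 ζ h2]; ring]
    exact (P.sub_le _ _).trans_lt (max_lt ((Pl.mem_dec.1 hσ _).trans_lt h3) h3)
  · exact (P.sub_le _ _).trans_lt (max_lt ((Pl.mem_dec.1 hσ _).trans_lt h1) h1)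

theorem fr2_fin (hH : IsOpen (H : Set GG)) {P : Pl} {φ : GG} (hφ : P.IsFr (P.nm H) φ) {σ : GG}
    (hσ : σ ∈ P.dec ⊓ H) {n : ℕ} (hn : 0 < n) :
    ∃ a : ℕ, ∀ ζ : Om, ζ ^ (P.p ^ n - 1) = 1 → (φ ^ a) ζ = σ ζ := by
  obtain ⟨f0, -, hf⟩ := f_spec hH P
  obtain ⟨j, hj⟩ := fr2_act hσ.1 (mul_pos f0 hn)
  have hd : ∀ {m : ℕ} {ζ : Om}, m ∣ P.f H * n → ζ ^ (P.p ^ m - 1) = 1 → σ ζ = ζ ^ P.p ^ j :=
    fun hm h => hj _ (fr2_dvd h (Nat.pow_sub_one_dvd_pow_sub_one _ hm))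
  obtain ⟨a, rfl⟩ := hf j fun x hx h => by
    rcases h.eq_or_lt with h1 | h1
    · obtain ⟨ζ, h2, h3⟩ := fr2_teich hH P hx h1
      rw [show x ^ P.p ^ j - x = (x ^ P.p ^ j - ζ ^ P.p ^ j) - σ (x - ζ) by
        rw [map_sub, hd (dvd_mul_right _ _) h2, mem_fld.1 hx σ hσ.2]; ring]
      exact (P.sub_le _ _).trans_lt (max_lt ((P.pow_sub_le h
        (P.pl2_root (fr2_ne P f0) h2).le _).trans_lt h3) ((Pl.mem_dec.1 hσ.1 _).trans_lt h3))
    · refine (P.sub_le _ _).trans_lt (max_lt ?_ h1)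
      rw [map_pow]
      exact pow_lt_one₀ (P.w.nonneg _) h1 (pow_ne_zero _ P.hp.ne_zero)
  refine ⟨a, fun ζ h => ?_⟩
  rw [(hφ.pow a).root (fr2_nd P hn) h, hd (dvd_mul_left _ _) h, Pl.nm, pow_mul]

theorem dec_dense (hH : IsOpen (H : Set GG)) {U : Subgroup GG} (hU : IsOpen (U : Set GG))
    {P : Pl} {φ : GG} (hφH : φ ∈ H) (hφ : P.IsFr (P.nm H) φ) {σ : GG} (hσ : σ ∈ P.dec ⊓ H) :
    ∃ a : ℕ, ∃ τ ∈ P.ine ⊓ H, ∃ u ∈ U, σ = φ ^ a * τ * u := by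
  choose a ha using fun n : ℕ => fr2_fin hH hφ hσ n.factorial_pos
  obtain ⟨c, -, hc⟩ := isCompact_univ.exists_mapClusterPt (f := atTop) (u := fun n => φ ^ a n)
    (by simp)
  have c1 : c ∈ P.dec := P.isClosed_dec.mem_of_mapClusterPt hc
    (Eventually.of_forall fun n => P.dec.pow_mem hφ.1 _)
  have c2 : c ∈ H := (H.isClosed_of_isOpen hH).mem_of_mapClusterPt hc
    (Eventually.of_forall fun n => H.pow_mem hφH _)
  have c3 : c⁻¹ * σ ∈ P.ine := fr2_ine (P.dec.mul_mem (P.dec.inv_mem c1) hσ.1) fun n hn ζ h => by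
    have : c ζ = σ ζ := (pl2_closed ζ (· = σ ζ)).mem_of_mapClusterPt hc
      ((eventually_ge_atTop n).mono fun m hm => ha m ζ (fr2_dvd h
        (Nat.pow_sub_one_dvd_pow_sub_one _ (Nat.dvd_factorial hn hm))))
    rw [AlgEquiv.mul_apply, ← this, pl2_inv]
  obtain ⟨n, hn⟩ := (hc.frequently (p := fun y => (c⁻¹ * σ)⁻¹ * y⁻¹ * σ ∈ U)
    ((hU.preimage (f := fun y => (c⁻¹ * σ)⁻¹ * y⁻¹ * σ) (by fun_prop)).mem_nhds
      (by simp [U.one_mem]))).exists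
  exact ⟨a n, _, ⟨c3, H.mul_mem (H.inv_mem c2) hσ.2⟩, _, hn, by group⟩

theorem dec_comm (P : Pl) {σ τ : GG} (hσ : σ ∈ P.dec) (hτ : τ ∈ P.dec) :
    σ * τ * σ⁻¹ * τ⁻¹ ∈ P.ine := by
  refine fr2_ine (P.dec.mul_mem (P.dec.mul_mem (P.dec.mul_mem hσ hτ) (P.dec.inv_mem hσ))
    (P.dec.inv_mem hτ)) fun n hn ζ h => ?_
  obtain ⟨i, hi⟩ := fr2_act hσ hn
  obtain ⟨j, hj⟩ := fr2_act hτ hn
  have h' : ((τ * σ)⁻¹ ζ) ^ (P.p ^ n - 1) = 1 := by rw [← map_pow, h, map_one]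
  have e : (σ * τ) ((τ * σ)⁻¹ ζ) = (τ * σ) ((τ * σ)⁻¹ ζ) := by
    rw [AlgEquiv.mul_apply, AlgEquiv.mul_apply τ, hi _ h', hj _ h', map_pow, map_pow, hi _ h',
      hj _ h', pow_right_comm]
  rw [mul_assoc (σ * τ), ← mul_inv_rev, AlgEquiv.mul_apply, e, pl2_inv']

end Vale.Agent.P024
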