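import Vale.Agent.P024.Ram2
import Vale.Agent.P024.Fr2

/-! Divisors. -/

namespace Vale.Agent.P024

open NumberField IsDedekindDomain

variable {H H' : Subgroup GG}

theorem mk_eq_iff {P Q : Pl} : Pr.mk H P = Pr.mk H Q ↔ Q ∈ orb H P := by
  rw [eq_comm]
  refine Quotient.eq''.trans (MulAction.orbitRel_apply.trans ?_)
  exact ⟨fun ⟨h, hh⟩ => ⟨h, h.2, hh.symm⟩, fun ⟨h, hh, e⟩ => ⟨⟨h, hh⟩, e.symm⟩⟩

theorem out_mk (H : Subgroup GG) (P : Pl) : (Pr.mk H P).out ∈ orb H P := by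
  exact mk_eq_iff.1 (Quotient.out_eq' _).symm

theorem mk_out (v : Pr H) : Pr.mk H v.out = v := by
  exact Quotient.out_eq' v

theorem dv1_fin (hH : IsOpen (H : Set GG)) (p : ℕ) :
    {v : Pr H | v.out.p = p}.Finite ∧ {v : Pr H | v.out.p = p}.ncard ≤ H.index := by
  rcases Set.eq_empty_or_nonempty {v : Pr H | v.out.p = p} with h | ⟨v₀, hv₀⟩
  · rw [h]
    simp
  have := H.quotient_finite_of_isOpen hH
  let f : GG ⧸ H → Pr H := fun q => Pr.mk H (q.out⁻¹ • v₀.out)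
  have h1 : {v : Pr H | v.out.p = p} ⊆ f '' Set.univ := by
    intro v hv
    obtain ⟨g, hg⟩ := exists_smul_of_p (P := v₀.out) (Q := v.out) (hv₀.trans hv.symm)
    obtain ⟨h, hh⟩ := QuotientGroup.mk_out_eq_mul H g⁻¹
    refine ⟨(g⁻¹ : GG), Set.mem_univ _, ?_⟩
    rw [← mk_out v]
    refine mk_eq_iff.2 ⟨h, h.2, ?_⟩
    rw [hh, hg, ← mul_smul, mul_inv_rev, inv_inv, mul_inv_cancel_left]
  have h2 : (f '' Set.univ).Finite := Set.finite_univ.image f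
  refine ⟨h2.subset h1, (Set.ncard_le_ncard h1 h2).trans ?_⟩
  refine (Set.ncard_image_le Set.finite_univ).trans ?_
  rw [Set.ncard_univ]
  rfl

theorem ord_orb {P Q : Pl} (h : Q ∈ orb H P) {x : Om} (hx : x ∈ fld H) :
    ord H Q x = ord H P x := by
  obtain ⟨g, hg, rfl⟩ := h
  have h1 := ord_smul ((Nl.self H).iff hg) P x
  rwa [mem_fld.1 hx g hg] at h1

theorem nm_orb {P Q : Pl} (h : Q ∈ orb H P) : Q.nm H = P.nm H ∧ Q.f H = P.f H ∧ Q.p = P.p := by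
  obtain ⟨g, hg, rfl⟩ := h
  have h1 := f_smul ((Nl.self H).iff hg) P
  exact ⟨by rw [Pl.nm, Pl.nm, h1, Pl.smul_p], h1, rfl⟩

theorem ord_mul (hH : IsOpen (H : Set GG)) (P : Pl) {x y : Om} (hx : x ∈ fld H) (hy : y ∈ fld H)
    (hx0 : x ≠ 0) (hy0 : y ≠ 0) : ord H P (x * y) = ord H P x + ord H P y := by
  have h := (e_spec hH P).2.1
  have h1 := h _ ((fld H).mul_mem hx hy) (mul_ne_zero hx0 hy0)
  have h3 : (1 : ℝ) < P.p := by exact_mod_cast P.hp.one_lt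
  rw [map_mul, mul_pow, h x hx hx0, h y hy hy0, ← zpow_add₀ (by positivity)] at h1
  have h4 := zpow_right_injective₀ (by positivity) h3.ne' h1
  linarith

theorem ord_zpow (hH : IsOpen (H : Set GG)) (P : Pl) {x : Om} (hx : x ∈ fld H) (hx0 : x ≠ 0)
    (k : ℤ) : ord H P (x ^ k) = k * ord H P x := by
  have h := (e_spec hH P).2.1
  have h1 := h _ (zpow_mem hx k) (zpow_ne_zero k hx0)
  have h3 : (1 : ℝ) < P.p := by exact_mod_cast P.hp.one_lt
  rw [map_zpow₀, ← zpow_natCast, ← zpow_mul, mul_comm, zpow_mul, zpow_natCast, h x hx hx0,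
    ← zpow_mul] at h1
  have h4 := zpow_right_injective₀ (by positivity) h3.ne' h1
  linarith

theorem ord_eq_zero_iff (hH : IsOpen (H : Set GG)) (P : Pl) {x : Om} (hx : x ∈ fld H)
    (hx0 : x ≠ 0) : ord H P x = 0 ↔ P.w x = 1 := by
  obtain ⟨h0, h, -⟩ := e_spec hH P
  have h1 := h x hx hx0
  have h3 : (1 : ℝ) < P.p := by exact_mod_cast P.hp.one_lt
  constructor
  · intro h2
    rw [h2, neg_zero, zpow_zero] at h1
    exact (pow_eq_one_iff_of_nonneg (P.w.nonneg _) h0.ne').1 h1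
  · intro h2
    rw [h2, one_pow, ← zpow_zero (P.p : ℝ)] at h1
    have h4 := zpow_right_injective₀ (by positivity) h3.ne' h1
    linarith

theorem ord_le_iff (hH : IsOpen (H : Set GG)) (P : Pl) {x y : Om} (hx : x ∈ fld H) (hy : y ∈ fld H)
    (hx0 : x ≠ 0) (hy0 : y ≠ 0) : ord H P x ≤ ord H P y ↔ P.w y ≤ P.w x := by
  obtain ⟨h0, h, -⟩ := e_spec hH P
  have h3 : (1 : ℝ) < P.p := by exact_mod_cast P.hp.one_lt
  rw [← pow_le_pow_iff_left₀ (P.w.nonneg _) (P.w.nonneg _) h0.ne', h x hx hx0, h y hy hy0,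
    zpow_le_zpow_iff_right₀ h3, neg_le_neg_iff]

theorem dv_apply (hH : IsOpen (H : Set GG)) {x : Om} (hx : x ∈ fld H) (hx0 : x ≠ 0) (v : Pr H) :
    dv H x v = ord H v.out x := by
  have h : (Function.support fun v : Pr H => ord H v.out x).Finite := by
    refine ((finite_p_ne_one hx0).biUnion fun p _ => (dv1_fin hH p).1).subset fun v hv => ?_
    simp only [Set.mem_iUnion]
    exact ⟨_, ⟨v.out, fun h1 => hv ((ord_eq_zero_iff hH _ hx hx0).2 h1), rfl⟩, rfl⟩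
  rw [dv, dif_pos h]
  rfl

theorem dv_mk (hH : IsOpen (H : Set GG)) {x : Om} (hx : x ∈ fld H) (hx0 : x ≠ 0) (P : Pl) :
    dv H x (Pr.mk H P) = ord H P x := by
  rw [dv_apply hH hx hx0, ord_orb (out_mk H P) hx]

theorem dv_mul (hH : IsOpen (H : Set GG)) {x y : Om} (hx : x ∈ fld H) (hy : y ∈ fld H)
    (hx0 : x ≠ 0) (hy0 : y ≠ 0) : dv H (x * y) = dv H x + dv H y := by
  ext v
  rw [Finsupp.add_apply, dv_apply hH hx hx0, dv_apply hH hy hy0,
    dv_apply hH ((fld H).mul_mem hx hy) (mul_ne_zero hx0 hy0), ord_mul hH _ hx hy hx0 hy0]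

theorem exists_dvHom (hH : IsOpen (H : Set GG)) :
    ∃ φ : Additive (un H) →+ (Pr H →₀ ℤ), ∀ x : un H, φ (Additive.ofMul x) = dv H ((x : Omˣ) : Om) := by
  refine ⟨AddMonoidHom.mk' (fun x => dv H (((Additive.toMul x : un H) : Omˣ) : Om)) fun a b => ?_,
    fun x => rfl⟩
  exact dv_mul hH (Additive.toMul a).2 (Additive.toMul b).2 (Units.ne_zero _) (Units.ne_zero _)

theorem mem_PN (hH : IsOpen (H : Set GG)) {S : Set Pl} {N : ℕ} {d : Pr H →₀ ℤ} :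
    d ∈ PN H H' S N ↔ ∃ x ∈ cg H S N, ∀ v : Pr H, v.out ∉ S →
      (dg H H' v.out : ℤ) ∣ d v - dv H x v := by
  obtain ⟨φ, hφ⟩ := exists_dvHom hH
  refine ⟨fun hd => ?_, fun hd => AddSubgroup.subset_closure hd⟩
  refine AddSubgroup.closure_induction (fun d hd => hd) ?_ ?_ ?_ hd
  · refine ⟨1, (cg H S N).one_mem, fun v _ => ?_⟩
    have h1 := hφ 1
    rw [ofMul_one, map_zero] at h1
    have h2 : dv H ((1 : Omˣ) : Om) = 0 := h1.symm
    rw [h2]
    simp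
  · rintro a b - - ⟨x, hx, ha⟩ ⟨y, hy, hb⟩
    refine ⟨x * y, (cg H S N).mul_mem hx hy, fun v hv => ?_⟩
    rw [Units.val_mul, dv_mul hH hx.1 hy.1 x.ne_zero y.ne_zero, Finsupp.add_apply,
      Finsupp.add_apply, add_sub_add_comm]
    exact dvd_add (ha v hv) (hb v hv)
  · rintro a - ⟨x, hx, ha⟩
    refine ⟨x⁻¹, (cg H S N).inv_mem hx, fun v hv => ?_⟩
    have h1 := hφ (⟨x, hx.1⟩⁻¹)
    rw [ofMul_inv, map_neg, hφ] at h1
    have h2 : dv H ((x⁻¹ : Omˣ) : Om) = -dv H (x : Om) := h1.symm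
    rw [h2, Finsupp.neg_apply, Finsupp.neg_apply, ← neg_sub', dvd_neg]
    exact ha v hv

theorem art_add {A : Type*} [AddCommGroup A] (ρ : GG → A) (d d' : Pr H →₀ ℤ) :
    art H ρ (d + d') = art H ρ d + art H ρ d' := by
  exact Finsupp.sum_add_index' (fun _ => zero_zsmul _) fun _ _ _ => add_zsmul _ _ _

theorem art_single {A : Type*} [AddCommGroup A] (ρ : GG → A) (v : Pr H) (m : ℤ) :
    art H ρ (Finsupp.single v m) = m • ρ (frob H v.out) := by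
  exact Finsupp.sum_single_index (zero_zsmul _)

/-- An unramified character takes the same value on all Frobenius elements over a prime. -/
theorem frob_indep {A : Type*} [AddCommGroup A] (hH : IsOpen (H : Set GG)) {ρ : GG → A}
    (hρ : AddOn H ρ) {P : Pl} (hun : ∀ τ ∈ P.ine ⊓ H, ρ τ = 0) {φ : GG} (hφH : φ ∈ H)
    (hφ : P.IsFr (P.nm H) φ) : ρ (frob H (Pr.mk H P).out) = ρ φ := by
  obtain ⟨g, hg, e⟩ := out_mk H P
  obtain ⟨hψH, hψ⟩ := frob_spec hH (Pr.mk H P).out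
  set ψ := frob H (Pr.mk H P).out
  rw [(nm_orb (out_mk H P)).1, e] at hψ
  have h1 := hψ.smul g⁻¹
  rw [inv_smul_smul, inv_inv] at h1
  have h2 : g⁻¹ * ψ * g ∈ H := H.mul_mem (H.mul_mem (H.inv_mem hg) hψH) hg
  have h3 : φ⁻¹ * (g⁻¹ * ψ * g) ∈ H := H.mul_mem (H.inv_mem hφH) h2
  have h4 := hρ φ hφH _ h3
  rw [hun _ ⟨hφ.inv_mul h1, h3⟩, add_zero, mul_inv_cancel_left] at h4
  have h5 := hρ g hg _ h2
  rw [mul_assoc, mul_inv_cancel_left, hρ ψ hψH g hg, ← mul_assoc, h4, add_comm] at h5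
  exact add_left_cancel h5

theorem dg_eq_order {A : Type*} [AddCommGroup A] (hH : IsOpen (H : Set GG))
    (hH' : IsOpen (H' : Set GG)) {ρ : GG → A} (hρ : AddOn H ρ)
    (hk : ∀ x, x ∈ H' ↔ x ∈ H ∧ ρ x = 0) {P : Pl} (hun : P.ine ⊓ H ≤ H') :
    dg H H' P = addOrderOf (ρ (frob H P)) := by
  obtain ⟨hφH, hφ⟩ := frob_spec hH P
  let r : (P.dec ⊓ H : Subgroup GG) →* Multiplicative A :=
    MonoidHom.mk' (fun x => Multiplicative.ofAdd (ρ x)) fun a b => by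
      rw [← ofAdd_add, ← hρ _ a.2.2 _ b.2.2]
      rfl
  have h1 : H'.subgroupOf (P.dec ⊓ H) = r.ker := by
    ext x
    rw [Subgroup.mem_subgroupOf, hk, MonoidHom.mem_ker]
    exact ⟨fun h => congrArg Multiplicative.ofAdd h.2, fun h => ⟨x.2.2, h⟩⟩
  let φ : (P.dec ⊓ H : Subgroup GG) := ⟨frob H P, hφ.1, hφH⟩
  have h2 : r.range = Subgroup.zpowers (r φ) := by
    refine le_antisymm ?_ (Subgroup.zpowers_le.2 ⟨φ, rfl⟩)
    rintro _ ⟨σ, rfl⟩
    obtain ⟨a, τ, hτ, u, hu, e⟩ := dec_dense hH hH' hφH hφ σ.2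
    have h3 : r σ = r φ ^ a := by
      rw [← map_pow]
      show Multiplicative.ofAdd (ρ σ) = Multiplicative.ofAdd (ρ (frob H P ^ a))
      have h4 := (hk _).1 hu
      have h5 := (hk _).1 (hun hτ)
      rw [e, hρ _ (H.mul_mem (H.pow_mem hφH a) hτ.2) _ h4.1, hρ _ (H.pow_mem hφH a) _ hτ.2,
        h4.2, h5.2, add_zero, add_zero]
    rw [h3]
    exact Subgroup.pow_mem _ (Subgroup.mem_zpowers _) _
  rw [dg, Subgroup.relIndex, h1, Subgroup.index_ker, h2, Nat.card_zpowers]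
  exact orderOf_ofAdd_eq_addOrderOf _

theorem finite_over (hH : IsOpen (H : Set GG)) (p : ℕ) :
    {v : Pr H | v.out.p = p}.Finite ∧ {v : Pr H | v.out.p = p}.ncard ≤ H.index := by
  exact dv1_fin hH p

theorem FinOrb.exists_finset (hH : IsOpen (H : Set GG)) {S : Set Pl} (hS : FinOrb H S) :
    ∃ R : Finset (Pr H), ∀ v, v ∈ R ↔ v.out ∈ S := by
  have h : {v : Pr H | v.out ∈ S}.Finite := by
    refine (hS.2.biUnion fun p _ => (dv1_fin hH p).1).subset fun v hv => ?_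
    simp only [Set.mem_iUnion]
    exact ⟨_, ⟨v.out, hv, rfl⟩, rfl⟩
  exact ⟨h.toFinset, fun v => h.mem_toFinset⟩

theorem finOrb_orb (H : Subgroup GG) (P : Pl) : FinOrb H (orb H P) := by
  refine ⟨?_, (Set.finite_singleton P.p).subset ?_⟩
  · rintro h hh _ ⟨g, hg, rfl⟩
    exact ⟨h * g, H.mul_mem hh hg, (mul_smul _ _ _).symm⟩
  · rintro _ ⟨_, ⟨g, -, rfl⟩, rfl⟩
    rfl

theorem finOrb_primes (H : Subgroup GG) (T : Finset ℕ) : FinOrb H {P | P.p ∈ T} := by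
  refine ⟨fun h _ P hP => hP, T.finite_toSet.subset ?_⟩
  rintro _ ⟨P, hP, rfl⟩
  exact hP

theorem cg_mono {S S' : Set Pl} {N N' : ℕ} (hH : H' ≤ H) (hS : S' ⊆ S) (hN : N' ≤ N) :
    cg H S N ≤ cg H' S' N' := by
  intro x hx
  refine ⟨mem_fld.2 fun σ hσ => mem_fld.1 hx.1 σ (hH hσ), fun P hP => (hx.2 P (hS hP)).trans ?_⟩
  exact pow_le_pow_of_le_one (by norm_num) (by norm_num) (by omega)

theorem cg_w {S : Set Pl} {N : ℕ} {x : Omˣ} (hx : x ∈ cg H S N) {P : Pl} (hP : P ∈ S) :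
    P.w x = 1 := by
  exact P.eq_one_of_sub_lt ((hx.2 P hP).trans_lt
    (pow_lt_one₀ (by norm_num) (by norm_num) (by omega)))

end Vale.Agent.P024
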