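import Vale.Agent.P024.Dv1

/-! Norms. -/

namespace Vale.Agent.P024

open NumberField IsDedekindDomain

variable {H H' : Subgroup GG}

theorem dv2_finite (hH' : IsOpen (H' : Set GG)) (H : Subgroup GG) :
    Finite (H ⧸ H'.subgroupOf H) := by
  have : H'.FiniteIndex := ⟨index_ne_zero hH'⟩
  infer_instance

theorem dv2_out (h : H) : ∃ k ∈ H',
    (((QuotientGroup.mk h : H ⧸ H'.subgroupOf H).out : H) : GG) = h * k := by
  obtain ⟨k, hk⟩ := QuotientGroup.mk_out_eq_mul (H'.subgroupOf H) h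
  exact ⟨k.1.1, k.2, by rw [hk]; rfl⟩

theorem dv2_out_apply {x : Om} (hx : x ∈ fld H') (h : H) :
    (((QuotientGroup.mk h : H ⧸ H'.subgroupOf H).out : H) : GG) x = (h : GG) x := by
  obtain ⟨k, hk, e⟩ := dv2_out (H' := H') h
  rw [e, AlgEquiv.mul_apply, mem_fld.1 hx k hk]

theorem dv2_rn [Fintype (H ⧸ H'.subgroupOf H)] (x : Om) :
    rn H H' x = ∏ τ : H ⧸ H'.subgroupOf H, ((τ.out : H) : GG) x :=
  finprod_eq_prod_of_fintype _

theorem rn_mem (hH' : IsOpen (H' : Set GG)) (hle : H' ≤ H) {x : Om} (hx : x ∈ fld H') :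
    rn H H' x ∈ fld H := by
  have := dv2_finite hH' H
  have := Fintype.ofFinite (H ⧸ H'.subgroupOf H)
  have _ := hle
  rw [mem_fld]
  intro σ hσ
  rw [dv2_rn, map_prod]
  refine Fintype.prod_equiv (MulAction.toPerm (⟨σ, hσ⟩ : H)) _ _ fun τ => ?_
  rw [MulAction.toPerm_apply, ← MulAction.Quotient.mk_smul_out, dv2_out_apply hx]
  rfl

theorem rn_ne_zero (hH' : IsOpen (H' : Set GG)) {x : Om} (hx : x ≠ 0) : rn H H' x ≠ 0 := by
  have := dv2_finite hH' H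
  have := Fintype.ofFinite (H ⧸ H'.subgroupOf H)
  rw [dv2_rn]
  exact Finset.prod_ne_zero_iff.2 fun τ _ => (map_ne_zero _).2 hx

theorem dv2_prod_close (P : Pl) {ι : Type*} (s : Finset ι) (f : ι → Om) {ε : ℝ} (hε : 0 ≤ ε)
    (hε1 : ε ≤ 1) (h : ∀ i ∈ s, P.w (f i - 1) ≤ ε) : P.w (∏ i ∈ s, f i - 1) ≤ ε := by
  classical
  induction s using Finset.induction_on with
  | empty => simpa using hε
  | insert a s ha ih =>
    rw [Finset.prod_insert ha]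
    have h1 := h a (Finset.mem_insert_self _ _)
    have h2 := ih fun i hi => h i (Finset.mem_insert_of_mem hi)
    have h3 : P.w (f a) ≤ 1 := by
      have := P.add_le (f a - 1) 1
      rw [sub_add_cancel, map_one] at this
      exact this.trans (max_le (h1.trans hε1) le_rfl)
    have e : f a * ∏ i ∈ s, f i - 1 = f a * (∏ i ∈ s, f i - 1) + (f a - 1) := by ring
    rw [e]
    refine (P.add_le _ _).trans (max_le ?_ h1)
    rw [map_mul]
    exact (mul_le_of_le_one_left (P.w.nonneg _) h3).trans h2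

theorem dv2_w (P : Pl) (g : GG) (x : Om) : P.w (g x) = (g⁻¹ • P).w x := by
  rw [Pl.smul_w, inv_inv]

theorem rn_close (hH' : IsOpen (H' : Set GG)) {x : Om} {P : Pl} {ε : ℝ} (hε : 0 ≤ ε) (hε1 : ε ≤ 1)
    (h : ∀ Q ∈ orb H P, Q.w (x - 1) ≤ ε) : P.w (rn H H' x - 1) ≤ ε := by
  have := dv2_finite hH' H
  have := Fintype.ofFinite (H ⧸ H'.subgroupOf H)
  rw [dv2_rn]
  refine dv2_prod_close P _ _ hε hε1 fun τ _ => ?_
  have h1 := h _ ⟨_, H.inv_mem τ.out.2, rfl⟩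
  rwa [← dv2_w, map_sub, map_one] at h1

/-- The prime of the upper field attached to a coset. -/
noncomputable def dv2_phi (H H' : Subgroup GG) (P : Pl) (τ : H ⧸ H'.subgroupOf H) : Pr H' :=
  Pr.mk H' (((τ.out : H) : GG)⁻¹ • P)

theorem dv2_phi_mk (P : Pl) (h : H) :
    dv2_phi H H' P (QuotientGroup.mk h) = Pr.mk H' ((h : GG)⁻¹ • P) := by
  obtain ⟨k, hk, e⟩ := dv2_out (H' := H') h
  unfold dv2_phi
  rw [e, eq_comm, mk_eq_iff]
  exact ⟨k⁻¹, H'.inv_mem hk, by rw [mul_inv_rev, mul_smul]⟩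

theorem dv2_fibre (hle : H' ≤ H) (hn : Nl H H') (P : Pl) (h0 : H) :
    {τ | dv2_phi H H' P τ = dv2_phi H H' P (QuotientGroup.mk h0)}.ncard = dg H H' P := by
  have e1 : {τ | dv2_phi H H' P τ = dv2_phi H H' P (QuotientGroup.mk h0)}
      = MulAction.orbit ((P.dec ⊓ H).subgroupOf H)
        (QuotientGroup.mk h0 : H ⧸ H'.subgroupOf H) := by
    ext τ
    obtain ⟨h, rfl⟩ := QuotientGroup.mk_surjective τ
    rw [Set.mem_ofPred_eq, dv2_phi_mk, dv2_phi_mk, mk_eq_iff, MulAction.mem_orbit_iff]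
    constructor
    · rintro ⟨k, hk, e⟩
      have hkH : (h0 : GG) * k * h⁻¹ ∈ P.dec := by
        change ((h0 : GG) * k * h⁻¹) • P = P
        rw [mul_smul, mul_smul, Subgroup.coe_inv, ← e, smul_inv_smul]
      have hm : (h0 * ⟨k, hle hk⟩ * h⁻¹)⁻¹ ∈ (P.dec ⊓ H).subgroupOf H := by
        refine Subgroup.inv_mem _ (Subgroup.mem_subgroupOf.2 (Subgroup.mem_inf.2 ⟨hkH, ?_⟩))
        exact H.mul_mem (H.mul_mem h0.2 (hle hk)) (h⁻¹).2
      refine ⟨⟨_, hm⟩, ?_⟩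
      change (QuotientGroup.mk ((h0 * ⟨k, hle hk⟩ * h⁻¹)⁻¹ * h0) : H ⧸ H'.subgroupOf H)
        = QuotientGroup.mk h
      rw [QuotientGroup.eq, Subgroup.mem_subgroupOf]
      simpa [mul_assoc] using hk
    · rintro ⟨δ, hδ⟩
      have h1 : (QuotientGroup.mk (δ.1 * h0) : H ⧸ H'.subgroupOf H) = QuotientGroup.mk h := hδ
      rw [QuotientGroup.eq, Subgroup.mem_subgroupOf] at h1
      have h2 : (δ.1 : GG)⁻¹ • P = P := P.dec.inv_mem (Subgroup.mem_subgroupOf.1 δ.2).1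
      refine ⟨_, h1, ?_⟩
      simp only [Subgroup.coe_mul, Subgroup.coe_inv, mul_inv_rev, mul_smul, smul_inv_smul, h2]
  have e2 : MulAction.stabilizer ((P.dec ⊓ H).subgroupOf H)
      (QuotientGroup.mk h0 : H ⧸ H'.subgroupOf H)
      = (H'.subgroupOf H).subgroupOf ((P.dec ⊓ H).subgroupOf H) := by
    ext δ
    rw [MulAction.mem_stabilizer_iff, Subgroup.mem_subgroupOf, Subgroup.mem_subgroupOf]
    change (QuotientGroup.mk (δ.1 * h0) : H ⧸ H'.subgroupOf H) = QuotientGroup.mk h0 ↔ _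
    rw [eq_comm, QuotientGroup.eq, Subgroup.mem_subgroupOf, hn.iff (H.inv_mem h0.2) (δ.1 : GG)]
    simp only [Subgroup.coe_mul, Subgroup.coe_inv, inv_inv, mul_assoc]
  rw [e1, ← MulAction.index_stabilizer, e2]
  exact Subgroup.relIndex_subgroupOf inf_le_right

open Classical in
theorem dv2_card [Fintype (H ⧸ H'.subgroupOf H)] (hle : H' ≤ H) (hn : Nl H H') (P : Pl)
    (u : Pr H') : (Finset.univ.filter fun τ => dv2_phi H H' P τ = u).card
      = if Pr.mk H u.out = Pr.mk H P then dg H H' P else 0 := by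
  split_ifs with hu
  · obtain ⟨g, hg, e⟩ := mk_eq_iff.1 hu.symm
    have e1 : u = dv2_phi H H' P (QuotientGroup.mk (⟨g, hg⟩ : H)⁻¹) := by
      rw [dv2_phi_mk, Subgroup.coe_inv, inv_inv, ← e, mk_out]
    rw [← dv2_fibre hle hn P (⟨g, hg⟩ : H)⁻¹, ← e1, ← Set.ncard_coe_finset]
    congr 1
    ext τ
    simp
  · rw [Finset.card_eq_zero, Finset.filter_eq_empty_iff]
    intro τ _ hτ
    apply hu
    obtain ⟨k, hk, e⟩ := out_mk H' (((τ.out : H) : GG)⁻¹ • P)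
    rw [eq_comm, mk_eq_iff, ← hτ]
    exact ⟨k * ((τ.out : H) : GG)⁻¹, H.mul_mem (hle hk) (H.inv_mem τ.out.2), by
      rw [mul_smul]; exact e⟩

open Classical in
theorem dv2_sum [Fintype (H ⧸ H'.subgroupOf H)] (hle : H' ≤ H) (hn : Nl H H') (P : Pl)
    (d : Pr H' →₀ ℤ) : ∑ τ, d (dv2_phi H H' P τ)
      = ∑ u ∈ d.support, if Pr.mk H u.out = Pr.mk H P then (dg H H' P : ℤ) * d u else 0 := by
  have e1 : ∀ τ, d (dv2_phi H H' P τ)
      = ∑ u ∈ d.support, if dv2_phi H H' P τ = u then d u else 0 := fun τ => by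
    rw [Finset.sum_ite_eq]
    split_ifs with h
    · rfl
    · exact Finsupp.notMem_support_iff.1 h
  rw [Finset.sum_congr rfl fun τ _ => e1 τ, Finset.sum_comm]
  refine Finset.sum_congr rfl fun u _ => ?_
  rw [← Finset.sum_filter, Finset.sum_const, dv2_card hle hn]
  split_ifs <;> simp

theorem dv2_ord_prod (hH : IsOpen (H : Set GG)) (P : Pl) {ι : Type*} (s : Finset ι) (f : ι → Om)
    (h : ∀ i, f i ∈ fld H) (h0 : ∀ i, f i ≠ 0) :
    ord H P (∏ i ∈ s, f i) = ∑ i ∈ s, ord H P (f i) := by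
  classical
  induction s using Finset.induction_on with
  | empty =>
    rw [Finset.prod_empty, Finset.sum_empty]
    exact (ord_eq_zero_iff hH P (fld H).one_mem one_ne_zero).2 (map_one _)
  | insert a s ha ih =>
    rw [Finset.prod_insert ha, Finset.sum_insert ha, ord_mul hH P (h a)
      (prod_mem fun i _ => h i) (h0 a) (Finset.prod_ne_zero_iff.2 fun i _ => h0 i), ih]

theorem dv2_ord_rn [Fintype (H ⧸ H'.subgroupOf H)] (hH' : IsOpen (H' : Set GG)) (hn : Nl H H')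
    {x : Om} (hx : x ∈ fld H') (hx0 : x ≠ 0) (P : Pl) :
    ord H' P (rn H H' x) = ∑ τ, dv H' x (dv2_phi H H' P τ) := by
  rw [dv2_rn, dv2_ord_prod hH' P _ _ (fun τ => hn.apply_mem τ.out.2 hx)
    fun τ => (map_ne_zero _).2 hx0]
  refine Finset.sum_congr rfl fun τ _ => ?_
  unfold dv2_phi
  rw [dv_mk hH' hx hx0, ← ord_smul (hn.iff (H.inv_mem τ.out.2)) P, pl2_inv]

theorem dv_rn (hH : IsOpen (H : Set GG)) (hH' : IsOpen (H' : Set GG)) (hle : H' ≤ H)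
    (hn : Nl H H') {x : Om} (hx : x ∈ fld H') (hx0 : x ≠ 0)
    (hr : ∀ P : Pl, ¬ P.ine ⊓ H ≤ H' → P.w x = 1) :
    dv H (rn H H' x) = (dv H' x).sum fun v m =>
      Finsupp.single (Pr.mk H v.out) ((dg H H' v.out : ℤ) * m) := by
  classical
  have := dv2_finite hH' H
  have := Fintype.ofFinite (H ⧸ H'.subgroupOf H)
  ext v
  have hm := rn_mem hH' hle hx
  have h0 := rn_ne_zero (H := H) hH' hx0
  have key : ord H v.out (rn H H' x) = ∑ τ, dv H' x (dv2_phi H H' v.out τ) := by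
    by_cases hP : v.out.ine ⊓ H ≤ H'
    · rw [← ord_eq hH hH' hle hn hP, dv2_ord_rn hH' hn hx hx0]
    · have h1 : ∀ g ∈ H, (g • v.out).w x = 1 := fun g hg => hr _ fun h2 => hP fun σ hσ =>
        (hn.iff hg σ).2 (h2 ⟨mem_ine_smul.2 (by simpa [mul_assoc] using hσ.1),
          H.mul_mem (H.mul_mem hg hσ.2) (H.inv_mem hg)⟩)
      rw [(ord_eq_zero_iff hH _ hm h0).2, eq_comm]
      · refine Finset.sum_eq_zero fun τ _ => ?_
        unfold dv2_phi
        rw [dv_mk hH' hx hx0]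
        exact (ord_eq_zero_iff hH' _ hx hx0).2 (h1 _ (H.inv_mem τ.out.2))
      · rw [dv2_rn, map_prod]
        refine Finset.prod_eq_one fun τ _ => ?_
        rw [dv2_w]
        exact h1 _ (H.inv_mem τ.out.2)
  rw [dv_apply hH hm h0, key, dv2_sum hle hn, Finsupp.sum, Finsupp.finsetSum_apply]
  refine Finset.sum_congr rfl fun u _ => ?_
  rw [Finsupp.single_apply, mk_out]
  split_ifs with hu
  · obtain ⟨g, hg, e⟩ := mk_eq_iff.1 (hu.trans (mk_out v).symm)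
    rw [e, dg_smul hn hg]
  · rfl

theorem dv2_normal (hn : Nl H H') : (H'.subgroupOf H).Normal :=
  ⟨fun k hk g => hn g g.2 k hk⟩

theorem dv2_pow {σ : GG} (hσ : σ ∈ H) [(H'.subgroupOf H).Normal] (i : ℕ) :
    (QuotientGroup.mk (⟨σ, hσ⟩ : H) : H ⧸ H'.subgroupOf H) ^ i
      = QuotientGroup.mk (⟨σ ^ i, H.pow_mem hσ i⟩ : H) := rfl

theorem dv2_order {σ : GG} {n : ℕ} (hC : Cyc H H' σ n) [(H'.subgroupOf H).Normal] :
    (∀ τ : H ⧸ H'.subgroupOf H,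
      τ ∈ Submonoid.powers (QuotientGroup.mk (⟨σ, hC.mem⟩ : H) : H ⧸ H'.subgroupOf H)) ∧
    orderOf (QuotientGroup.mk (⟨σ, hC.mem⟩ : H) : H ⧸ H'.subgroupOf H) = n := by
  have h1 : ∀ τ : H ⧸ H'.subgroupOf H,
      τ ∈ Submonoid.powers (QuotientGroup.mk (⟨σ, hC.mem⟩ : H) : H ⧸ H'.subgroupOf H) := by
    intro τ
    obtain ⟨h, rfl⟩ := QuotientGroup.mk_surjective τ
    obtain ⟨i, hi⟩ := hC.gen h h.2
    refine ⟨i, ?_⟩
    simp only
    rw [dv2_pow, QuotientGroup.eq]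
    exact hi
  exact ⟨h1, (orderOf_eq_card_of_forall_mem_powers h1).trans hC.idx⟩

theorem dv2_pos {σ : GG} {n : ℕ} (hC : Cyc H H' σ n) : 0 < n := by
  have := dv2_finite hC.oH' H
  rw [← hC.idx]
  exact Nat.card_pos

theorem dv2_nrm_coe (σ : GG) (n : ℕ) (y : Omˣ) :
    ((nrm σ n y : Omˣ) : Om) = ∏ i ∈ Finset.range n, (σ ^ i) (y : Om) := by
  rw [nrm, MonoidHom.finsetProd_apply, Units.coe_prod]
  rfl

theorem dv2_nrm_rn {σ : GG} {n : ℕ} (hC : Cyc H H' σ n) {y : Omˣ} (hy : y ∈ un H') :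
    ((nrm σ n y : Omˣ) : Om) = rn H H' y := by
  have := dv2_finite hC.oH' H
  have := Fintype.ofFinite (H ⧸ H'.subgroupOf H)
  have := dv2_normal hC.nl
  obtain ⟨h1, h2⟩ := dv2_order hC
  rw [dv2_nrm_coe, dv2_rn]
  refine Finset.prod_nbij
    (fun i => (QuotientGroup.mk (⟨σ, hC.mem⟩ : H) : H ⧸ H'.subgroupOf H) ^ i)
    (fun _ _ => Finset.mem_univ _) ?_ (fun τ _ => ?_) fun i _ => ?_
  · have h3 := pow_injOn_Iio_orderOf
      (x := (QuotientGroup.mk (⟨σ, hC.mem⟩ : H) : H ⧸ H'.subgroupOf H))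
    rw [h2] at h3
    rwa [Finset.coe_range]
  · obtain ⟨i, hi⟩ := h1 τ
    refine ⟨i % n, Finset.mem_coe.2 (Finset.mem_range.2 (Nat.mod_lt _ (dv2_pos hC))), ?_⟩
    have h3 := pow_mod_orderOf (QuotientGroup.mk (⟨σ, hC.mem⟩ : H) : H ⧸ H'.subgroupOf H) i
    rw [h2] at h3
    exact h3.trans hi
  · rw [dv2_pow, dv2_out_apply hy]

theorem ord_nrm_dvd {σ : GG} {n : ℕ} (hC : Cyc H H' σ n) {y : Omˣ} (hy : y ∈ un H') {P : Pl}
    (hP : P.ine ⊓ H ≤ H') : (dg H H' P : ℤ) ∣ ord H P (nrm σ n y) := by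
  classical
  have := dv2_finite hC.oH' H
  have := Fintype.ofFinite (H ⧸ H'.subgroupOf H)
  rw [dv2_nrm_rn hC hy, ← ord_eq hC.oH hC.oH' hC.le hC.nl hP,
    dv2_ord_rn hC.oH' hC.nl hy y.ne_zero, dv2_sum hC.le hC.nl]
  refine Finset.dvd_sum fun u _ => ?_
  split_ifs
  · exact dvd_mul_right _ _
  · exact dvd_zero _

theorem nrm_mem {σ : GG} {n : ℕ} (hC : Cyc H H' σ n) {y : Omˣ} (hy : y ∈ un H') :
    nrm σ n y ∈ un H := by
  change ((nrm σ n y : Omˣ) : Om) ∈ fld H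
  rw [dv2_nrm_rn hC hy]
  exact rn_mem hC.oH' hC.le hy

theorem nrm_of_mem {σ : GG} (hσ : σ ∈ H) (n : ℕ) {y : Omˣ} (hy : y ∈ un H) : nrm σ n y = y ^ n := by
  ext
  rw [dv2_nrm_coe, Finset.prod_congr rfl fun i _ => mem_fld.1 hy _ (H.pow_mem hσ i)]
  simp

theorem Cyc.pow_mem {σ : GG} {n : ℕ} (hC : Cyc H H' σ n) : σ ^ n ∈ H' ∧ 0 < n ∧
    ∀ i : ℕ, σ ^ i ∈ H' → n ∣ i := by
  have := dv2_normal hC.nl
  obtain ⟨-, h2⟩ := dv2_order hC
  have h3 : ∀ i : ℕ, σ ^ i ∈ H' ↔ n ∣ i := fun i => by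
    rw [← h2, orderOf_dvd_iff_pow_eq_one, dv2_pow, QuotientGroup.eq_one_iff]
    rfl
  exact ⟨(h3 n).2 dvd_rfl, dv2_pos hC, fun i => (h3 i).1⟩

theorem Cyc.mem_un {σ : GG} {n : ℕ} (hC : Cyc H H' σ n) {y : Omˣ} (hy : y ∈ un H') :
    y ∈ un H ↔ sig σ y = y := by
  refine ⟨fun h => Units.ext (mem_fld.1 h σ hC.mem), fun h => mem_fld.2 fun g hg => ?_⟩
  have h1 : σ (y : Om) = y := congrArg Units.val h
  have h2 : ∀ i : ℕ, (σ ^ i) (y : Om) = y := fun i => by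
    induction i with
    | zero => rfl
    | succ i ih => rw [pow_succ, AlgEquiv.mul_apply, h1, ih]
  obtain ⟨i, hi⟩ := hC.gen g hg
  have h3 := mem_fld.1 hy _ hi
  rw [AlgEquiv.mul_apply] at h3
  rw [← pl2_inv' (σ ^ i) (g y), h3, h2]

end Vale.Agent.P024
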