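import Vale.Agent.P024.Dv2

/-! The absolute norm. -/

namespace Vale.Agent.P024

open NumberField IsDedekindDomain

variable {H H' : Subgroup GG}

theorem Dv3_ext {K : IntermediateField ℚ Om} (ψ : K →ₐ[ℚ] Om) :
    ∃ σ : GG, ∀ y : K, σ y = ψ y :=
  ⟨AlgEquiv.ofBijective (ψ.liftNormal Om) (Algebra.IsAlgebraic.algHom_bijective _),
    fun y => ψ.liftNormal_commutes Om y⟩

theorem Dv3_emb (hH : IsOpen (H : Set GG)) {ι : Type} (g : ι → GG)
    (h1 : ∀ a b, (g a)⁻¹ * g b ∈ H → a = b) (h2 : ∀ σ : GG, ∃ a, (g a)⁻¹ * σ ∈ H) (x : fld H) :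
    ∏ᶠ a, g a x = ((Algebra.norm ℚ x : ℚ) : Om) := by
  have := nf hH
  have hb : Function.Bijective fun a => ((g a : Om →ₐ[ℚ] Om).comp (fld H).val : fld H →ₐ[ℚ] Om) := by
    constructor
    · intro a b hab
      refine h1 a b (mem_of_fix (H.isClosed_of_isOpen hH) fun y hy => ?_)
      have h3 : g a y = g b y := DFunLike.congr_fun hab ⟨y, hy⟩
      rw [AlgEquiv.mul_apply, ← h3, pl2_inv]
    · intro ψ
      obtain ⟨σ, hσ⟩ := Dv3_ext ψ
      obtain ⟨a, ha⟩ := h2 σ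
      refine ⟨a, AlgHom.ext fun y => ?_⟩
      have h3 := mem_fld.1 y.2 _ ha
      rw [AlgEquiv.mul_apply] at h3
      show g a y = ψ y
      rw [← hσ, ← pl2_inv' (g a) (σ y), h3]
  rw [finprod_eq_of_bijective (f := fun a => g a x) (g := fun ψ : fld H →ₐ[ℚ] Om => ψ x) _ hb
    fun _ => rfl,
    finprod_eq_prod_of_fintype, ← Algebra.norm_eq_prod_embeddings ℚ Om x]
  rfl

theorem rn_top (hH : IsOpen (H : Set GG)) (x : fld H) :
    rn ⊤ H x = ((Algebra.norm ℚ x : ℚ) : Om) := by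
  refine Dv3_emb hH
    (fun τ : (⊤ : Subgroup GG) ⧸ H.subgroupOf ⊤ => ((τ.out : (⊤ : Subgroup GG)) : GG))
    (fun a b hab => ?_) (fun σ => ?_) x
  · rw [← a.out_eq', ← b.out_eq']
    exact QuotientGroup.eq.2 hab
  · refine ⟨QuotientGroup.mk ⟨σ, Subgroup.mem_top σ⟩, ?_⟩
    have h := QuotientGroup.eq.1 (QuotientGroup.out_eq'
      (QuotientGroup.mk ⟨σ, Subgroup.mem_top σ⟩ : (⊤ : Subgroup GG) ⧸ H.subgroupOf ⊤))
    exact h

theorem rn_top' (hH : IsOpen (H : Set GG)) {x : Om} (hx : x ∈ fld H) :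
    rn ⊤ H x = ∏ᶠ τ : GG ⧸ H, τ.out x := by
  refine (rn_top hH ⟨x, hx⟩).trans (Dv3_emb hH (fun τ : GG ⧸ H => τ.out)
    (fun a b hab => ?_) (fun σ => ?_) ⟨x, hx⟩).symm
  · rw [← a.out_eq', ← b.out_eq']
    exact QuotientGroup.eq.2 hab
  · exact ⟨QuotientGroup.mk σ, QuotientGroup.eq.1 (QuotientGroup.out_eq' (QuotientGroup.mk σ))⟩

theorem Dv3_pos {K : Type} [Field K] [NumberField K] {i : K} (hi : i * i = -1) {x : K}
    (hx : x ≠ 0) : 0 < Algebra.norm ℚ x := by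
  classical
  let c : (K →ₐ[ℚ] ℂ) → (K →ₐ[ℚ] ℂ) := fun φ => (starRingEnd ℂ).toRatAlgHom.comp φ
  have hc : ∀ φ y, c φ y = (starRingEnd ℂ) (φ y) := fun _ _ => rfl
  have hcc : ∀ φ, c (c φ) = φ := fun φ => AlgHom.ext fun y => by rw [hc, hc, Complex.conj_conj]
  have hI : ∀ φ : K →ₐ[ℚ] ℂ, φ i = Complex.I ∨ φ i = -Complex.I := by
    intro φ
    refine mul_self_eq_mul_self_iff.1 ?_
    rw [← map_mul, hi, map_neg, map_one, Complex.I_mul_I]
  have hne : -Complex.I ≠ Complex.I := by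
    intro h
    have := congrArg Complex.im h
    norm_num at this
  have h1 := Algebra.norm_eq_prod_embeddings ℚ ℂ x
  rw [← Finset.prod_filter_mul_prod_filter_not Finset.univ (fun φ => φ i = Complex.I)] at h1
  have h2 : ∏ φ ∈ Finset.univ.filter (fun φ : K →ₐ[ℚ] ℂ => ¬ φ i = Complex.I), φ x =
      ∏ φ ∈ Finset.univ.filter (fun φ : K →ₐ[ℚ] ℂ => φ i = Complex.I), (starRingEnd ℂ) (φ x) := by
    refine Finset.prod_nbij' c c (fun φ hφ => ?_) (fun φ hφ => ?_) (fun φ _ => hcc φ)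
      (fun φ _ => hcc φ) fun φ _ => ?_
    · rw [Finset.mem_filter] at hφ ⊢
      refine ⟨Finset.mem_univ _, ?_⟩
      rw [hc, (hI φ).resolve_left hφ.2, map_neg, Complex.conj_I, neg_neg]
    · rw [Finset.mem_filter] at hφ ⊢
      refine ⟨Finset.mem_univ _, ?_⟩
      rw [hc, hφ.2, Complex.conj_I]
      exact hne
    · rw [hc, Complex.conj_conj]
  rw [h2, ← map_prod, Complex.mul_conj, eq_ratCast, ← Complex.ofReal_ratCast,
    Complex.ofReal_inj] at h1
  have h3 : (0 : ℝ) < (Algebra.norm ℚ x : ℚ) := by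
    rw [h1]
    exact Complex.normSq_pos.2 (Finset.prod_ne_zero_iff.2 fun φ _ => (map_ne_zero φ).2 hx)
  exact_mod_cast h3

theorem norm_pos (hH : IsOpen (H : Set GG)) (hT : TC H) (x : fld H) (hx : x ≠ 0) :
    0 < Algebra.norm ℚ x := by
  have := nf hH
  obtain ⟨i, hi, hii⟩ := hT
  exact Dv3_pos (i := ⟨i, hi⟩) (Subtype.ext hii) hx

theorem norm_formula (hH : IsOpen (H : Set GG)) (x : fld H) (hx : x ≠ 0) :
    |Algebra.norm ℚ x| = (dv H x).prod fun v m => (v.out.nm H : ℚ) ^ m := by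
  have := nf hH
  have hx0 : (x : Om) ≠ 0 := fun h => hx (Subtype.ext h)
  have hb : Function.Bijective fun v : Pr H => FinitePlace.mk (v.out.pr (fld H)) :=
    FinitePlace.equivHeightOneSpectrum.symm.bijective.comp (pr_bij hH)
  have h1 := FinitePlace.prod_eq_inv_abs_norm hx
  have h2 : ∀ v : Pr H, ((v.out.nm H : ℝ) ^ dv H x v)⁻¹ = FinitePlace.mk (v.out.pr (fld H)) x := by
    intro v
    rw [FinitePlace.mk_apply, FinitePlace.norm_embedding', val_eq hH _ x hx,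
      WithZeroMulInt.toNNReal_neg_apply _ WithZero.exp_ne_zero, absNorm_pr hH, dv_apply hH x.2 hx0,
      ← zpow_neg]
    push_cast
    rfl
  rw [← finprod_eq_of_bijective (g := fun w : FinitePlace (fld H) => w x) _ hb h2,
    finprod_inv_distrib, Rat.cast_inv, inv_inj,
    finprod_eq_prod_of_mulSupport_subset (s := (dv H x).support)] at h1
  · have h3 : ((|Algebra.norm ℚ x| : ℚ) : ℝ) =
        (((dv H x).prod fun v m => (v.out.nm H : ℚ) ^ m : ℚ) : ℝ) := by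
      rw [← h1, Finsupp.prod]
      push_cast
      rfl
    exact_mod_cast h3
  · intro v hv
    rw [Finset.mem_coe, Finsupp.mem_support_iff]
    intro h0
    exact hv (by simp only [h0, zpow_zero])

end Vale.Agent.P024
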