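import Vale.Agent.P024.Br

/-! Existence of Frobenius elements and the structure of decomposition groups. -/

namespace Vale.Agent.P024

open NumberField IsDedekindDomain

variable {H : Subgroup GG}

/-- The valuation ring of a place. -/
def frR (P : Pl) : Subring Om where
  carrier := {x | P.w x ≤ 1}
  mul_mem' := fun {a b} ha hb => by
    show P.w (a * b) ≤ 1
    rw [map_mul]
    exact mul_le_one₀ ha (P.w.nonneg _) hb
  one_mem' := (map_one P.w).le
  add_mem' := fun ha hb => (P.add_le _ _).trans (max_le ha hb)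
  zero_mem' := (map_zero P.w).trans_le zero_le_one
  neg_mem' := fun {a} ha => (P.w.map_neg a).trans_le ha

/-- Its maximal ideal. -/
def frI (P : Pl) : Ideal (frR P) where
  carrier := {x | P.w x < 1}
  add_mem' := fun ha hb => (P.add_le _ _).trans_lt (max_lt ha hb)
  zero_mem' := (map_zero P.w).trans_lt zero_lt_one
  smul_mem' := fun c x hx => (map_mul P.w (c : Om) x).trans_lt
    (mul_lt_one_of_nonneg_of_lt_one_right c.2 (P.w.nonneg _) hx)

theorem frI_prime (P : Pl) : (frI P).IsPrime := by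
  refine ⟨(Ideal.ne_top_iff_one _).2 fun h => lt_irrefl _ ((map_one P.w).symm.trans_lt h),
    fun {a b} h => ?_⟩
  by_contra hn
  rw [not_or] at hn
  have h1 : 1 ≤ P.w a := not_lt.1 hn.1
  have h2 : 1 ≤ P.w b := not_lt.1 hn.2
  exact not_le.2 h ((one_le_mul_of_one_le_of_one_le h1 h2).trans_eq (map_mul P.w (a : Om) b).symm)

theorem fr_pow (P : Pl) {a b : Om} (ha : P.w a ≤ 1) (hb : P.w b ≤ 1) (h : P.w (a - b) < 1)
    (n : ℕ) : P.w (a ^ n - b ^ n) < 1 :=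
  Ideal.mem_of_dvd (frI P) (sub_dvd_pow_sub_pow (⟨a, ha⟩ : frR P) ⟨b, hb⟩ n) h

theorem fr_tri (P : Pl) {a b c : Om} (h : P.w (a - b) < 1) (h' : P.w (b - c) < 1) :
    P.w (a - c) < 1 := by
  rw [← sub_add_sub_cancel a b c]
  exact (P.add_le _ _).trans_lt (max_lt h h')

open Polynomial in
theorem fr_key (hH : IsOpen (H : Set GG)) (P : Pl) {γ : Om} (hγ : P.w γ ≤ 1) :
    ∃ σ ∈ P.dec ⊓ H, P.w (σ γ - γ ^ P.nm H) < 1 := by
  have := frI_prime P
  have := Fact.mk P.hp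
  have : CharP (frR P ⧸ frI P) P.p := (CharP.charP_iff_prime_eq_zero P.hp).2 (by
    rw [← map_natCast (Ideal.Quotient.mk (frI P)), Ideal.Quotient.eq_zero_iff_mem]
    exact P.w_p_lt)
  have hi : IsIntegral ℚ γ := Algebra.IsIntegral.isIntegral γ
  have hfin : {η : frR P | ∃ σ ∈ P.dec ⊓ H, σ γ = η}.Finite := by
    refine (((minpoly ℚ γ).rootSet_finite Om).preimage
      Subtype.val_injective.injOn).subset ?_
    rintro η ⟨σ, -, h⟩
    rw [Set.mem_preimage, ← h, mem_rootSet_of_ne (minpoly.ne_zero hi), aeval_algEquiv]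
    simp
  obtain ⟨g, hg⟩ : ∃ g : (frR P)[X], g = ∏ η ∈ hfin.toFinset, (X - C η) := ⟨_, rfl⟩
  have mem : ∀ σ ∈ P.dec ⊓ H, ∀ η : frR P, σ η ∈ frR P := fun σ hσ η =>
    (Pl.mem_dec.1 hσ.1 η).trans_le η.2
  have mem' : ∀ σ (hσ : σ ∈ P.dec ⊓ H), ∀ η ∈ hfin.toFinset,
      (⟨σ η, mem σ hσ η⟩ : frR P) ∈ hfin.toFinset := fun σ hσ η hη => by
    obtain ⟨τ, hτ, e⟩ := hfin.mem_toFinset.1 hη
    exact hfin.mem_toFinset.2 ⟨σ * τ, mul_mem hσ hτ, congrArg σ e⟩
  have fix : ∀ i, ∀ σ ∈ P.dec ⊓ H, σ (g.coeff i) = g.coeff i := by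
    intro i σ hσ
    have : g.map ((σ : Om →+* Om).comp (frR P).subtype) = g.map (frR P).subtype := by
      simp only [hg, Polynomial.map_prod, Polynomial.map_sub, map_X, map_C]
      exact Finset.prod_nbij' (fun η => ⟨σ η, mem σ hσ η⟩)
        (fun η => ⟨σ⁻¹ η, mem _ (inv_mem hσ) η⟩) (mem' σ hσ) (mem' _ (inv_mem hσ))
        (fun η _ => Subtype.ext (σ.symm_apply_apply _))
        (fun η _ => Subtype.ext (σ.apply_symm_apply _)) fun _ _ => rfl
    simpa using congrArg (coeff · i) this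
  have e : (g.map (Ideal.Quotient.mk (frI P))).map (iterateFrobenius _ P.p (P.f H)) =
      g.map (Ideal.Quotient.mk (frI P)) := by
    ext i
    rw [coeff_map, coeff_map, iterateFrobenius_def, ← map_pow, Ideal.Quotient.eq]
    obtain ⟨y, hy, h1⟩ := dec_approx (H.isClosed_of_isOpen hH) P (fix i) one_half_pos
    have h2 := h1.trans_lt one_half_lt_one
    have h3 : P.w y ≤ 1 := by
      rw [← sub_add_cancel y (g.coeff i)]
      exact (P.add_le _ _).trans (max_le h2.le (g.coeff i).2)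
    exact fr_tri P (fr_pow P (g.coeff i).2 h3 ((P.w.map_sub _ _).trans_lt h2) _)
      (fr_tri P ((f_spec hH P).2.1 y hy h3) h2)
  have r : g.IsRoot ⟨γ, hγ⟩ := by
    rw [hg, IsRoot, eval_prod]
    exact Finset.prod_eq_zero (i := ⟨γ, hγ⟩) (hfin.mem_toFinset.2 ⟨1, one_mem _, rfl⟩) (by simp)
  have r2 := (r.map (f := Ideal.Quotient.mk (frI P))).map (f := iterateFrobenius _ P.p (P.f H))
  rw [e, iterateFrobenius_def, ← map_pow, IsRoot, eval_map, eval₂_at_apply,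
    Ideal.Quotient.eq_zero_iff_mem, hg, eval_prod, Ideal.IsPrime.prod_mem_iff] at r2
  obtain ⟨η, hη, h⟩ := r2
  obtain ⟨σ, hσ, e⟩ := hfin.mem_toFinset.1 hη
  rw [eval_sub, eval_X, eval_C] at h
  exact ⟨σ, hσ, by rw [e, P.w.map_sub]; exact h⟩

theorem fr_open (x : Om) (S : Set Om) : IsOpen {σ : GG | σ x ∈ S} := by
  refine isOpen_iff_forall_mem_open.2 fun τ hτ =>
    ⟨_, fun σ hσ => ?_, (isOpen_stab x).preimage (continuous_const_mul τ⁻¹), ?_⟩
  · have : σ x = τ x := (τ.apply_symm_apply _).symm.trans (congrArg τ hσ)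
    exact (show σ x ∈ S from this ▸ hτ)
  · exact τ.symm_apply_apply x

theorem fr_root (P : Pl) {ζ : Om} {m : ℕ} (hm : 0 < m) (h : ζ ^ m = 1) : P.w ζ ≤ 1 :=
  ((pow_eq_one_iff_of_nonneg (P.w.nonneg ζ) hm.ne').1 (by rw [← map_pow, h, map_one])).le

theorem fr_teich (P : Pl) {x : Om} (hx : P.w x = 1) :
    ∃ (m : ℕ) (ζ : Om), 0 < m ∧ ζ ^ m = 1 ∧ P.w (x - ζ) < 1 := by
  obtain ⟨h1, h2, -⟩ := f_spec (H := MulAction.stabilizer GG x) (isOpen_stab x) P
  have h3 := h2 x (mem_fld.2 fun _ h => h) hx.le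
  obtain ⟨m, hm⟩ := Nat.exists_eq_add_of_lt (Nat.one_lt_pow h1.ne' P.hp.one_lt)
  have : NeZero (1 + m) := ⟨by omega⟩
  rw [Pl.nm, hm, pow_succ, ← sub_one_mul, map_mul, hx, mul_one] at h3
  have h4 := congrArg (Polynomial.eval x)
    (Polynomial.X_pow_sub_one_eq_prod (NeZero.pos _) (zet_spec (1 + m)))
  simp only [Polynomial.eval_sub, Polynomial.eval_pow, Polynomial.eval_X, Polynomial.eval_one,
    Polynomial.eval_prod, Polynomial.eval_C] at h4
  rw [h4, map_prod] at h3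
  by_contra hn
  refine not_le.2 h3 (Finset.one_le_prod fun ζ hζ => not_lt.1 fun h => hn ⟨_, ζ, NeZero.pos _,
    (Polynomial.mem_nthRootsFinset (NeZero.pos _) _).1 hζ, h⟩)

theorem fr_main (hH : IsOpen (H : Set GG)) (P : Pl) : ∃ σ ∈ H, P.IsFr (P.nm H) σ := by
  have cl : ∀ n : ℕ, IsClosed {σ : GG | σ ∈ P.dec ⊓ H ∧ ∀ ζ : Om, ζ ^ n.factorial = 1 →
      P.w (σ ζ - ζ ^ P.nm H) < 1} := fun n => by
    refine IsClosed.and (P.isClosed_dec.inter (H.isClosed_of_isOpen hH)) ?_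
    simp only [Set.ofPred_forall]
    exact isClosed_iInter fun ζ => isClosed_iInter fun _ =>
      ⟨fr_open ζ {y | P.w (y - ζ ^ P.nm H) < 1}ᶜ⟩
  obtain ⟨σ, hσ⟩ := IsCompact.nonempty_iInter_of_sequence_nonempty_isCompact_isClosed
    (fun n : ℕ => {σ : GG | σ ∈ P.dec ⊓ H ∧ ∀ ζ : Om, ζ ^ n.factorial = 1 →
      P.w (σ ζ - ζ ^ P.nm H) < 1}) (fun n σ hσ => ⟨hσ.1, fun ζ h => hσ.2 ζ (by rw [Nat.factorial_succ, pow_mul', h, one_pow])⟩)
    (fun n => by
      have : NeZero n.factorial := ⟨n.factorial_ne_zero⟩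
      have h1 := fr_root P n.factorial_pos (zet_spec _).pow_eq_one
      obtain ⟨σ, h2, h3⟩ := fr_key hH P h1
      refine ⟨σ, h2, fun ζ h => ?_⟩
      obtain ⟨i, -, rfl⟩ := (zet_spec _).eq_pow_of_pow_eq_one h
      rw [map_pow, pow_right_comm]
      exact fr_pow P ((Pl.mem_dec.1 h2.1 _).trans_le h1)
        ((map_pow P.w _ _).trans_le (pow_le_one₀ (P.w.nonneg _) h1)) h3 i)
    (cl 0).isCompact cl
  have h0 := (Set.mem_iInter.1 hσ 0).1
  refine ⟨σ, h0.2, h0.1, fun x hx => ?_⟩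
  rcases hx.lt_or_eq with h | h
  · refine (P.sub_le _ _).trans_lt (max_lt ((Pl.mem_dec.1 h0.1 x).trans_lt h) ?_)
    rw [map_pow]
    exact pow_lt_one₀ (P.w.nonneg _) h (pow_pos P.hp.pos _).ne'
  · obtain ⟨m, ζ, hm, h1, h2⟩ := fr_teich P h
    obtain ⟨c, hc⟩ := Nat.dvd_factorial hm le_rfl
    have h3 := (Set.mem_iInter.1 hσ m).2 ζ (by rw [hc, pow_mul, h1, one_pow])
    refine fr_tri P ?_ (fr_tri P h3 (fr_pow P (fr_root P hm h1) hx
      ((P.w.map_sub _ _).trans_lt h2) _))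
    rwa [← map_sub, Pl.mem_dec.1 h0.1]

theorem fr_top (P : Pl) : P.nm ⊤ = P.p := by
  have h := (f_spec (H := ⊤) isOpen_univ P).2.2 1 fun x hx h1 => ?_
  · rw [Pl.nm, Nat.dvd_one.1 h, pow_one]
  obtain ⟨r, rfl⟩ := (InfiniteGalois.mem_range_algebraMap_iff_fixed x).2
    fun σ => mem_fld.1 hx σ trivial
  have hd : (r.den : Om) ≠ 0 := Nat.cast_ne_zero.2 r.den_nz
  have e : algebraMap ℚ Om r * r.den = r.num := by
    rw [eq_ratCast, Rat.cast_def, div_mul_cancel₀ _ hd]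
  have lt : ∀ n : ℤ, (P.p : ℤ) ∣ n → P.w n < 1 := by
    rintro _ ⟨c, rfl⟩
    rw [Int.cast_mul, map_mul, Int.cast_natCast]
    exact mul_lt_one_of_nonneg_of_lt_one_left (P.w.nonneg _) P.w_p_lt (P.int_le c)
  have h2 : P.w r.den = 1 := P.w_coprime fun h => by
    have a1 := lt r.den (Int.natCast_dvd_natCast.2 h)
    have a2 : P.w (r.num.natAbs : ℕ) = 1 :=
      P.w_coprime fun h' => P.hp.one_lt.ne' (Nat.eq_one_of_dvd_coprimes r.reduced h' h)
    have a3 : P.w r.num = 1 := by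
      rw [← a2, ← Int.cast_natCast, Int.natCast_natAbs]
      rcases abs_choice r.num with h | h <;> simp [h]
    rw [← e, map_mul] at a3
    exact (mul_lt_one_of_nonneg_of_lt_one_right h1 (P.w.nonneg _) a1).ne a3
  have h3 := lt _ (((Int.prime_dvd_pow_self_sub P.hp r.num).mul_right r.den).sub
    ((Int.prime_dvd_pow_self_sub P.hp r.den).mul_left r.num))
  push_cast at h3
  rw [← e, show ∀ a d : Om, ((a * d) ^ P.p - a * d) * d - a * d * (d ^ P.p - d) =
    (a ^ P.p - a) * d ^ (P.p + 1) from fun a d => by ring, map_mul, map_pow, h2] at h3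
  simpa using h3

theorem exists_fr (P : Pl) : ∃ F : GG, P.IsFr P.p F := by
  obtain ⟨σ, -, h⟩ := fr_main (H := ⊤) isOpen_univ P
  exact ⟨σ, fr_top P ▸ h⟩

theorem frob_spec (hH : IsOpen (H : Set GG)) (P : Pl) :
    frob H P ∈ H ∧ P.IsFr (P.nm H) (frob H P) := by
  rw [frob, dif_pos (fr_main hH P)]
  exact (fr_main hH P).choose_spec

theorem f_dvd (hH : IsOpen (H : Set GG)) {P : Pl} {σ : GG} (hσ : σ ∈ H) {k : ℕ}
    (h : P.IsFr (P.p ^ k) σ) : P.f H ∣ k := by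
  refine (f_spec hH P).2.2 k fun x hx h1 => ?_
  have := h.2 x h1
  rwa [mem_fld.1 hx σ hσ, P.w.map_sub] at this

theorem nm_top (P : Pl) : P.nm ⊤ = P.p := by
  exact fr_top P

end Vale.Agent.P024
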