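import Vale.Agent.P024.Defs

/-! Places: existence, approximation, transitivity. -/

namespace Vale.Agent.P024

open NumberField IsDedekindDomain

theorem Pl.w_p_lt (P : Pl) : P.w (P.p : Om) < 1 := by
  rw [P.wp]
  exact inv_lt_one_of_one_lt₀ (by exact_mod_cast P.hp.one_lt)

theorem Pl.w_coprime (P : Pl) {n : ℕ} (h : ¬ P.p ∣ n) : P.w (n : Om) = 1 := by
  refine le_antisymm (P.nat_le n) (not_lt.1 fun h1 => ?_)
  obtain ⟨a, b, hab⟩ : IsCoprime (P.p : ℤ) (n : ℤ) :=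
    Nat.isCoprime_iff_coprime.2 ((Nat.Prime.coprime_iff_not_dvd P.hp).2 h)
  have h2 : (a : Om) * P.p + b * n = 1 := by exact_mod_cast congrArg (Int.cast : ℤ → Om) hab
  have h3 := P.add_le ((a : Om) * P.p) (b * n)
  rw [h2, map_one, map_mul, map_mul] at h3
  exact absurd (h3.trans_lt (max_lt
    (mul_lt_one_of_nonneg_of_lt_one_right (P.int_le a) (P.w.nonneg _) P.w_p_lt)
    (mul_lt_one_of_nonneg_of_lt_one_right (P.int_le b) (P.w.nonneg _) h1))) (lt_irrefl _)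

theorem Pl.pl1_nat (P : Pl) (n : ℕ) : P.w (n : Om) = (padicNorm P.p n : ℝ) := by
  have := Fact.mk P.hp
  rcases eq_or_ne n 0 with rfl | hn
  · simp
  obtain ⟨k, m, hm, rfl⟩ := Nat.exists_eq_pow_mul_and_not_dvd hn P.p P.hp.ne_one
  push_cast
  rw [map_mul, map_pow, P.wp, P.w_coprime hm, padicNorm.mul, (padicNorm.nat_eq_one_iff m).2 hm,
    IsAbsoluteValue.abv_pow (padicNorm P.p), padicNorm.padicNorm_p_of_prime]
  simp

theorem Pl.pl1_int (P : Pl) (n : ℤ) : P.w (n : Om) = (padicNorm P.p n : ℝ) := by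
  obtain ⟨m, rfl | rfl⟩ := Int.eq_nat_or_neg n
  · simpa using P.pl1_nat m
  · simpa using P.pl1_nat m

theorem Pl.w_rat (P : Pl) (x : ℚ) : P.w (x : Om) = (padicNorm P.p x : ℝ) := by
  have := Fact.mk P.hp
  conv_rhs => rw [← Rat.num_div_den x]
  rw [Rat.cast_def, map_div₀, P.pl1_int, P.pl1_nat, padicNorm.div]
  simp

theorem emb_pl (q : ℕ) [Fact q.Prime] : ∃ P : Pl, P.p = q ∧ ∀ x, P.w x = ‖emb q x‖ := by
  refine ⟨⟨q, Fact.out, (NormedField.toAbsoluteValue ℂ_[q]).comp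
    (f := (emb q : Om →+* ℂ_[q])) (emb q : Om →+* ℂ_[q]).injective, fun x y => ?_, ?_⟩, rfl,
    fun _ => rfl⟩
  · change ‖emb q (x + y)‖ ≤ max ‖emb q x‖ ‖emb q y‖
    rw [map_add]
    exact PadicComplex.isNonarchimedean q _ _
  · change ‖emb q (q : Om)‖ = _
    rw [map_natCast, ← PadicComplex.coe_natCast, PadicComplex.norm_extends,
      ← map_natCast (algebraMap ℚ_[q] (PadicAlgCl q)) q]
    exact (PadicAlgCl.norm_extends q (q : ℚ_[q])).trans Padic.norm_p

theorem exists_pl {p : ℕ} (hp : p.Prime) : ∃ P : Pl, P.p = p := by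
  have := Fact.mk hp
  exact (emb_pl p).imp fun P h => h.1

/-- The elements that are integral at all places. -/
def pl1_int : Subring Om where
  carrier := {y | ∀ P : Pl, P.w y ≤ 1}
  one_mem' P := by simp
  zero_mem' P := by simp
  mul_mem' {a b} ha hb P := by
    rw [map_mul]
    exact mul_le_one₀ (ha P) (P.w.nonneg _) (hb P)
  add_mem' {a b} ha hb P := (P.add_le a b).trans (max_le (ha P) (hb P))
  neg_mem' {a} ha P := by
    rw [AbsoluteValue.map_neg]
    exact ha P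

theorem pl1_rat {c : ℚ} (h : ∀ P : Pl, P.w (c : Om) ≤ 1) : ∃ n : ℤ, (n : ℚ) = c := by
  by_cases hd : c.den = 1
  · exact ⟨c.num, (Rat.den_eq_one_iff c).1 hd⟩
  exfalso
  obtain ⟨p, hp, k, hk⟩ := Nat.exists_prime_and_dvd hd
  obtain ⟨P, rfl⟩ := exists_pl hp
  have h1 : ¬ P.p ∣ c.num.natAbs := fun h2 =>
    hp.ne_one (Nat.eq_one_of_dvd_coprimes c.reduced h2 ⟨k, hk⟩)
  have h2 : P.w (c.num : Om) = 1 := by
    rw [← P.w_coprime h1]
    obtain h3 | h3 := Int.natAbs_eq c.num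
    · conv_lhs => rw [h3]
      simp
    · conv_lhs => rw [h3]
      simp
  have h3 : (c : Om) * c.den = c.num := by exact_mod_cast Rat.mul_den_eq_num c
  have h4 : P.w (c.den : Om) < 1 := by
    rw [hk, Nat.cast_mul, map_mul]
    exact mul_lt_one_of_nonneg_of_lt_one_left (P.w.nonneg _) P.w_p_lt (P.nat_le k)
  rw [← h3, map_mul] at h2
  exact (mul_lt_one_of_nonneg_of_lt_one_right (h P) (P.w.nonneg _) h4).ne h2

theorem isIntegral_of_le_one {x : Om} (h : ∀ P : Pl, P.w x ≤ 1) : IsIntegral ℤ x := by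
  have hx : IsAlgebraic ℚ x := Algebra.IsAlgebraic.isAlgebraic x
  have hm := minpoly.monic hx.isIntegral
  have h1 : (minpoly ℚ x).map (algebraMap ℚ Om) ∈ Polynomial.lifts pl1_int.subtype := by
    refine (IsAlgClosed.splits _).mem_lift_of_roots_mem_range (hm.map _) _ fun r hr => ?_
    have h2 : Polynomial.aeval r (minpoly ℚ x) = 0 := by
      rw [Polynomial.mem_roots (hm.map _).ne_zero, Polynomial.IsRoot.def,
        Polynomial.eval_map_algebraMap] at hr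
      exact hr
    obtain ⟨g, rfl⟩ := minpoly.exists_algEquiv_of_root' hx h2
    refine ⟨⟨g x, fun P => ?_⟩, rfl⟩
    simpa using h (g⁻¹ • P)
  have h3 : minpoly ℚ x ∈ Polynomial.lifts (algebraMap ℤ ℚ) := by
    rw [Polynomial.lifts_iff_coeff_lifts] at h1 ⊢
    intro n
    obtain ⟨y, hy⟩ := h1 n
    rw [Polynomial.coeff_map] at hy
    refine pl1_rat fun P => ?_
    have h4 : (y : Om) = ((minpoly ℚ x).coeff n : Om) := hy
    rw [← h4]
    exact y.2 P
  obtain ⟨q, h4, -, h5⟩ := Polynomial.lifts_and_natDegree_eq_and_monic h3 hm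
  refine ⟨q, h5, ?_⟩
  have h6 := minpoly.aeval ℚ x
  rw [← h4, Polynomial.aeval_map_algebraMap] at h6
  exact h6

theorem pl1_fin (x : Om) : ∃ n : ℕ, n ≠ 0 ∧ ∀ P : Pl, ¬ P.p ∣ n → P.w x ≤ 1 := by
  have hx : IsAlgebraic ℤ x :=
    (IsFractionRing.isAlgebraic_iff ℤ ℚ Om).2 (Algebra.IsAlgebraic.isAlgebraic x)
  obtain ⟨n, hn, h⟩ := hx.exists_integral_multiple
  refine ⟨n.natAbs, Int.natAbs_ne_zero.2 hn, fun P hP => ?_⟩
  have h1 := P.integral_le h
  have h2 : P.w (n : Om) = 1 := by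
    rw [← P.w_coprime hP]
    obtain h3 | h3 := Int.natAbs_eq n
    · conv_lhs => rw [h3]
      simp
    · conv_lhs => rw [h3]
      simp
  rwa [zsmul_eq_mul, map_mul, h2, one_mul] at h1

theorem finite_p_ne_one {x : Om} (hx : x ≠ 0) : (Pl.p '' {P : Pl | P.w x ≠ 1}).Finite := by
  obtain ⟨n, hn, h1⟩ := pl1_fin x
  obtain ⟨m, hm, h2⟩ := pl1_fin x⁻¹
  refine (Set.finite_le_nat (n * m)).subset ?_
  rintro _ ⟨P, hP, rfl⟩
  refine Nat.le_of_dvd (Nat.pos_of_ne_zero (mul_ne_zero hn hm)) ?_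
  by_contra h3
  refine hP (le_antisymm (h1 P fun h => h3 (h.mul_right m)) ?_)
  have h4 := h2 P fun h => h3 (h.mul_left n)
  rwa [map_inv₀, inv_le_one₀ (P.w.pos hx)] at h4

end Vale.Agent.P024
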