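import Vale.Agent.P024.Pl1

/-! Decomposition groups, inertia groups, Frobenius elements: formal properties. -/

namespace Vale.Agent.P024

open NumberField IsDedekindDomain

theorem mem_dec_smul {g σ : GG} {P : Pl} : σ ∈ (g • P).dec ↔ g⁻¹ * σ * g ∈ P.dec := by
  change σ • g • P = g • P ↔ (g⁻¹ * σ * g) • P = P
  rw [mul_smul, mul_smul, inv_smul_eq_iff]

theorem pl2_inv (g : GG) (x : Om) : g⁻¹ (g x) = x := g.symm_apply_apply x

theorem pl2_inv' (g : GG) (x : Om) : g (g⁻¹ x) = x := g.apply_symm_apply x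

theorem mem_ine_smul {g σ : GG} {P : Pl} : σ ∈ (g • P).ine ↔ g⁻¹ * σ * g ∈ P.ine := by
  refine and_congr mem_dec_smul ⟨fun h x hx => ?_, fun h x hx => ?_⟩
  · have h1 := h (g x) (by rwa [Pl.smul_w_apply])
    rwa [Pl.smul_w, map_sub, pl2_inv] at h1
  · have h1 := h (g⁻¹ x) hx
    rw [AlgEquiv.mul_apply, AlgEquiv.mul_apply, pl2_inv'] at h1
    rwa [Pl.smul_w, map_sub]

theorem Pl.IsFr.smul {P : Pl} {n : ℕ} {σ : GG} (h : P.IsFr n σ) (g : GG) :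
    (g • P).IsFr n (g * σ * g⁻¹) := by
  refine ⟨mem_dec_smul.2 (by simpa [mul_assoc] using h.1), fun x hx => ?_⟩
  rw [Pl.smul_w, map_sub, AlgEquiv.mul_apply, AlgEquiv.mul_apply, pl2_inv, map_pow]
  exact h.2 _ hx

theorem Pl.ine_le_dec (P : Pl) : P.ine ≤ P.dec := fun _ h => h.1

theorem isOpen_stab (x : Om) : IsOpen {σ : GG | σ x = x} :=
  stabilizer_isOpen_of_isIntegral (K := ℚ) x

theorem pl2_lc (x : Om) : IsLocallyConstant fun σ : GG => σ x := by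
  refine (IsLocallyConstant.iff_eventually_eq _).2 fun g => ?_
  have h1 : IsOpen ((fun σ : GG => g⁻¹ * σ) ⁻¹' {σ : GG | σ x = x}) :=
    (isOpen_stab x).preimage (continuous_const_mul _)
  filter_upwards [h1.mem_nhds (show (g⁻¹ * g) x = x by simp)] with σ hσ
  have h2 : g⁻¹ (σ x) = x := hσ
  conv_rhs => rw [← h2, pl2_inv']

theorem pl2_closed (x : Om) (p : Om → Prop) : IsClosed {σ : GG | p (σ x)} :=
  ⟨pl2_lc x {y | ¬p y}⟩

theorem Pl.isClosed_dec (P : Pl) : IsClosed (P.dec : Set GG) := by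
  have e : (P.dec : Set GG) = ⋂ x, {σ : GG | P.w (σ x) = P.w x} := by
    ext σ
    simp [Pl.mem_dec]
  rw [e]
  exact isClosed_iInter fun x => pl2_closed x fun y => P.w y = P.w x

theorem Pl.isClosed_isFr (P : Pl) (n : ℕ) : IsClosed {σ : GG | P.IsFr n σ} := by
  have e : {σ : GG | P.IsFr n σ} =
      (P.dec : Set GG) ∩ ⋂ x, {σ : GG | P.w x ≤ 1 → P.w (σ x - x ^ n) < 1} := by
    ext σ
    simp [Pl.IsFr]
  rw [e]
  exact P.isClosed_dec.inter
    (isClosed_iInter fun x => pl2_closed x fun y => P.w x ≤ 1 → P.w (y - x ^ n) < 1)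

theorem Pl.isFr_one {P : Pl} {σ : GG} : P.IsFr 1 σ ↔ σ ∈ P.ine := by
  simp only [Pl.IsFr, pow_one]
  rfl

theorem Pl.isClosed_ine (P : Pl) : IsClosed (P.ine : Set GG) := by
  have e : (P.ine : Set GG) = {σ : GG | P.IsFr 1 σ} := Set.ext fun _ => Pl.isFr_one.symm
  rw [e]
  exact P.isClosed_isFr 1

theorem Pl.ine_conj (P : Pl) {σ τ : GG} (hσ : σ ∈ P.dec) (hτ : τ ∈ P.ine) :
    σ * τ * σ⁻¹ ∈ P.ine := by
  have h1 : σ • P = P := hσ
  rw [← h1, mem_ine_smul]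
  simpa [mul_assoc] using hτ

theorem Pl.pow_sub_le (P : Pl) {a b : Om} (ha : P.w a ≤ 1) (hb : P.w b ≤ 1) (k : ℕ) :
    P.w (a ^ k - b ^ k) ≤ P.w (a - b) := by
  rw [← Commute.geom_sum₂_mul (Commute.all a b) k, map_mul]
  refine mul_le_of_le_one_left (P.w.nonneg _) (P.sum_le _ _ zero_le_one fun i _ => ?_)
  rw [map_mul, map_pow, map_pow]
  exact mul_le_one₀ (pow_le_one₀ (P.w.nonneg _) ha) (by positivity) (pow_le_one₀ (P.w.nonneg _) hb)

theorem Pl.IsFr.mul {P : Pl} {n m : ℕ} {σ τ : GG} (h : P.IsFr n σ) (h' : P.IsFr m τ) :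
    P.IsFr (n * m) (σ * τ) := by
  refine ⟨P.dec.mul_mem h.1 h'.1, fun x hx => ?_⟩
  have e : (σ * τ) x - x ^ (n * m) = σ (τ x - x ^ m) + (σ x ^ m - (x ^ n) ^ m) := by
    rw [AlgEquiv.mul_apply, map_sub, map_pow, pow_mul]
    ring
  rw [e]
  refine (P.add_le _ _).trans_lt (max_lt ?_ ((P.pow_sub_le ?_ ?_ m).trans_lt (h.2 x hx)))
  · rw [Pl.mem_dec.1 h.1]
    exact h'.2 x hx
  · rwa [Pl.mem_dec.1 h.1]
  · rw [map_pow]
    exact pow_le_one₀ (P.w.nonneg _) hx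

theorem Pl.IsFr.pow {P : Pl} {n : ℕ} {σ : GG} (h : P.IsFr n σ) (k : ℕ) :
    P.IsFr (n ^ k) (σ ^ k) := by
  induction k with
  | zero =>
    rw [pow_zero, pow_zero]
    exact Pl.isFr_one.2 P.ine.one_mem
  | succ k ih =>
    rw [pow_succ, pow_succ]
    exact ih.mul h

theorem Pl.IsFr.inv_mul {P : Pl} {n : ℕ} {σ τ : GG} (h : P.IsFr n σ) (h' : P.IsFr n τ) :
    σ⁻¹ * τ ∈ P.ine := by
  refine ⟨P.dec.mul_mem (P.dec.inv_mem h.1) h'.1, fun x hx => ?_⟩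
  rw [← Pl.mem_dec.1 h.1, map_sub, AlgEquiv.mul_apply, pl2_inv',
    ← sub_sub_sub_cancel_right _ _ (x ^ n)]
  exact (P.sub_le _ _).trans_lt (max_lt (h'.2 x hx) (h.2 x hx))

theorem Pl.IsFr.mul_ine {P : Pl} {n : ℕ} {σ τ : GG} (h : P.IsFr n σ) (h' : τ ∈ P.ine) :
    P.IsFr n (σ * τ) := by
  simpa using h.mul (Pl.isFr_one.2 h')

theorem Pl.root_eq_one (P : Pl) {m : ℕ} (hm : ¬ P.p ∣ m) {ζ : Om} (hζ : ζ ^ m = 1)
    (h : P.w (ζ - 1) < 1) : ζ = 1 := by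
  by_contra h1
  have h2 : ∑ i ∈ Finset.range m, ζ ^ i = 0 := by
    have h3 := geom_sum_mul ζ m
    rw [hζ, sub_self] at h3
    exact (mul_eq_zero.1 h3).resolve_right (sub_ne_zero.2 h1)
  have h3 : (m : Om) = -∑ i ∈ Finset.range m, (ζ ^ i - 1 ^ i) := by
    simp [Finset.sum_sub_distrib, h2]
  have h4 := P.w_coprime hm
  rw [h3, AbsoluteValue.map_neg] at h4
  exact (h4 ▸ (P.sum_le _ _ (P.w.nonneg _) fun i _ =>
    P.pow_sub_le (P.eq_one_of_sub_lt h).le (by simp) i).trans_lt h).false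

theorem Pl.pl2_root (P : Pl) {m : ℕ} (hm : m ≠ 0) {ζ : Om} (hζ : ζ ^ m = 1) : P.w ζ = 1 := by
  have h1 := congrArg P.w hζ
  rw [map_pow, map_one] at h1
  exact (pow_eq_one_iff_of_nonneg (P.w.nonneg _) hm).1 h1

theorem Pl.pl2_eq (P : Pl) {m : ℕ} (hm : ¬ P.p ∣ m) {a b : Om} (hb : P.w b = 1)
    (hab : a ^ m = b ^ m) (h : P.w (a - b) < 1) : a = b := by
  have h0 : b ≠ 0 := fun h0 => by simp [h0] at hb
  have h1 : a / b = 1 := by
    refine P.root_eq_one hm (by rw [div_pow, hab, div_self (pow_ne_zero _ h0)]) ?_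
    rwa [div_sub_one h0, map_div₀, hb, div_one]
  exact (div_eq_one_iff_eq h0).1 h1

theorem Pl.IsFr.root {P : Pl} {n : ℕ} {σ : GG} (h : P.IsFr n σ) {m : ℕ} (hm : ¬ P.p ∣ m) {ζ : Om}
    (hζ : ζ ^ m = 1) : σ ζ = ζ ^ n := by
  have h1 := P.pl2_root (m := m) (fun h0 => hm (h0 ▸ dvd_zero _)) hζ
  refine P.pl2_eq hm (by rw [map_pow, h1, one_pow]) ?_ (h.2 ζ h1.le)
  rw [← map_pow, hζ, map_one, ← pow_mul, mul_comm, pow_mul, hζ, one_pow]

/-- Inertia fixes roots of units. -/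
theorem Pl.ine_root (P : Pl) {τ : GG} (hτ : τ ∈ P.ine) {m : ℕ} (hm : ¬ P.p ∣ m) {β : Om}
    (hβ : P.w β = 1) (h : τ (β ^ m) = β ^ m) : τ β = β :=
  P.pl2_eq hm hβ (by rw [← map_pow, h]) (hτ.2 β hβ.le)

/-- A form of Hensel's lemma. -/
theorem Pl.hensel (P : Pl) {l : ℕ} (hl : l.Prime) {u : Om} (hu : P.w (u - 1) < P.w (l : Om) ^ 2) :
    ∃ ρ : Om, ρ ^ l = u ∧ ∀ σ ∈ P.dec, σ u = u → σ ρ = ρ := by
  have : NeZero l := ⟨hl.ne_zero⟩
  obtain ⟨α, hα⟩ := IsAlgClosed.exists_pow_nat_eq u hl.pos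
  have hz := zet_spec l
  have h1 := congrArg (Polynomial.eval 1) (X_pow_sub_C_eq_prod hz hl.pos hα)
  simp only [Polynomial.eval_sub, Polynomial.eval_pow, Polynomial.eval_X, Polynomial.eval_C,
    one_pow, Polynomial.eval_prod] at h1
  obtain ⟨i, -, hi⟩ := (Finset.range l).exists_min_image (fun i => P.w (1 - zet l ^ i * α))
    ⟨0, Finset.mem_range.2 hl.pos⟩
  set ρ := zet l ^ i * α with hρ
  have hρl : ρ ^ l = u := by
    rw [hρ, mul_pow, ← pow_mul, mul_comm i l, pow_mul, hz.pow_eq_one, one_pow, one_mul, hα]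
  have hl1 : P.w (l : Om) ≤ 1 := P.nat_le l
  have hl0 : 0 < P.w (l : Om) := P.w.pos (by exact_mod_cast hl.ne_zero)
  have h2 : P.w (ρ - 1) ^ l < P.w (l : Om) ^ 2 := by
    refine lt_of_le_of_lt ?_ hu
    rw [AbsoluteValue.map_sub _ u, h1, map_prod, AbsoluteValue.map_sub]
    have h3 := Finset.prod_le_prod (fun _ _ => P.w.nonneg _) hi
    rwa [Finset.prod_const, Finset.card_range] at h3
  have h3 : P.w (ρ - 1) < 1 := by
    by_contra h4
    exact absurd (h2.trans_le (pow_le_one₀ hl0.le hl1)) (not_lt.2 (one_le_pow₀ (not_lt.1 h4)))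
  have h4 := P.eq_one_of_sub_lt h3
  have h0 : ρ ≠ 0 := fun h0 => by simp [h0] at h4
  refine ⟨ρ, hρl, fun σ hσ hσu => ?_⟩
  by_contra h5
  set η := σ ρ / ρ with hη
  have hη1 : η ≠ 1 := fun h => h5 ((div_eq_one_iff_eq h0).1 h)
  have hηl : η ^ l = 1 := by
    rw [hη, div_pow, ← map_pow, hρl, hσu, div_self (hρl ▸ pow_ne_zero _ h0)]
  have h6 : P.w (1 - η) ≤ P.w (ρ - 1) := by
    rw [AbsoluteValue.map_sub, hη, div_sub_one h0, map_div₀, h4, div_one,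
      ← sub_sub_sub_cancel_right _ _ 1]
    refine (P.sub_le _ _).trans (max_le (le_of_eq ?_) le_rfl)
    rw [← Pl.mem_dec.1 hσ (ρ - 1), map_sub σ, map_one]
  have := Fact.mk hl
  have h7 : IsPrimitiveRoot η l := by
    rw [← orderOf_eq_prime hηl hη1]
    exact IsPrimitiveRoot.orderOf η
  obtain ⟨k, rfl⟩ : ∃ k, l = k + 1 := Nat.exists_eq_succ_of_ne_zero hl.ne_zero
  have h8 := congrArg P.w h7.prod_one_sub_pow_eq_order
  have h9 : P.w ((k + 1 : ℕ) : Om) ≤ P.w (ρ - 1) ^ k := by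
    push_cast
    rw [← h8, map_prod, ← Finset.card_range k, ← Finset.prod_const, Finset.card_range]
    refine Finset.prod_le_prod (fun _ _ => P.w.nonneg _) fun j _ => ?_
    have h10 := P.pow_sub_le (a := 1) (by simp) (P.pl2_root hl.ne_zero hηl).le (j + 1)
    rw [one_pow] at h10
    exact h10.trans h6
  have hk : 1 ≤ k := by have := hl.two_le; omega
  have h10 : P.w ((k + 1 : ℕ) : Om) ^ (k + 1) < P.w ((k + 1 : ℕ) : Om) ^ (k + 1) :=
    calc _ ≤ (P.w (ρ - 1) ^ k) ^ (k + 1) := pow_le_pow_left₀ hl0.le h9 _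
      _ = (P.w (ρ - 1) ^ (k + 1)) ^ k := by rw [← pow_mul, ← pow_mul, mul_comm]
      _ < (P.w ((k + 1 : ℕ) : Om) ^ 2) ^ k := pow_lt_pow_left₀ h2 (by positivity) (by omega)
      _ ≤ _ := by
        rw [← pow_mul]
        exact pow_le_pow_of_le_one hl0.le hl1 (by omega)
  exact h10.false

theorem index_ne_zero {U : Subgroup GG} (hU : IsOpen (U : Set GG)) : U.index ≠ 0 := by
  have := U.quotient_finite_of_isOpen hU
  exact Subgroup.index_ne_zero_of_finite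

/-- Every open subgroup contains an open normal subgroup. -/
theorem exists_normal_le {U : Subgroup GG} (hU : IsOpen (U : Set GG)) :
    ∃ V : Subgroup GG, IsOpen (V : Set GG) ∧ V.Normal ∧ V ≤ U := by
  have : U.FiniteIndex := ⟨index_ne_zero hU⟩
  exact ⟨U.normalCore, Subgroup.isOpen_of_isClosed_of_finiteIndex _
    (U.normalCore_isClosed (U.isClosed_of_isOpen hU)), U.normalCore_normal, U.normalCore_le⟩

theorem mem_of_forall_open {H : Subgroup GG} (hH : IsClosed (H : Set GG)) {x : GG}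
    (h : ∀ U : Subgroup GG, IsOpen (U : Set GG) → U.Normal → ∃ y ∈ H, y⁻¹ * x ∈ U) : x ∈ H := by
  by_contra hx
  have h1 : IsOpen ((fun u : GG => x * u⁻¹) ⁻¹' (H : Set GG)ᶜ) :=
    hH.isOpen_compl.preimage (by fun_prop)
  obtain ⟨E, hE, h2⟩ := (krullTopology_mem_nhds_one_iff ℚ Om _).1
    (h1.mem_nhds (show x * 1⁻¹ ∉ H by simpa using hx))
  obtain ⟨V, h3, h4, h5⟩ := exists_normal_le E.fixingSubgroup_isOpen
  obtain ⟨y, hy, h6⟩ := h V h3 h4
  have h7 : x * (y⁻¹ * x)⁻¹ ∉ H := h2 (h5 h6)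
  exact h7 (by simpa using hy)

end Vale.Agent.P024
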