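import Vale.Agent.P024.Pl1
import Vale.Agent.P024.Pl2

/-! Approximation and transitivity. -/

namespace Vale.Agent.P024

open NumberField IsDedekindDomain

theorem pl3_p_eq {P Q : Pl} (h : P.w (Q.p : Om) < 1) : P.p = Q.p := by
  refine (Nat.prime_dvd_prime_iff_eq P.hp Q.hp).1 ?_
  by_contra h1
  exact h.ne (P.w_coprime h1)

/-- Weak approximation in the fixed field of an arbitrary subgroup. -/
theorem approx0 (H : Subgroup GG) (T : Finset Pl)
    (hT : ∀ P ∈ T, ∀ Q ∈ T, P ≠ Q → ∃ x ∈ fld H, P.w x ≠ Q.w x) (a : Pl → Om)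
    (ha : ∀ P ∈ T, a P ∈ fld H) {ε : ℝ} (hε : 0 < ε) :
    ∃ y ∈ fld H, ∀ P ∈ T, P.w (y - a P) ≤ ε := by
  set v : T → AbsoluteValue (fld H) ℝ := fun P =>
    P.1.w.comp (f := algebraMap (fld H) Om) (algebraMap (fld H) Om).injective with hv
  have hv' : ∀ (P : T) (x : fld H), v P x = P.1.w x := fun _ _ => rfl
  have h1 : ∀ P, (v P).IsNontrivial := fun P =>
    ⟨(P.1.p : fld H), by exact_mod_cast P.1.hp.ne_zero, by
      rw [hv']
      simpa using P.1.w_p_lt.ne⟩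
  have h2 : Pairwise fun P Q => ¬(v P).IsEquiv (v Q) := by
    intro P Q hPQ he
    obtain ⟨c, hc, h3⟩ := AbsoluteValue.isEquiv_iff_exists_rpow_eq.1 he
    have h4 : ∀ x : fld H, P.1.w x ^ c = Q.1.w x := fun x => congrFun h3 x
    have h5 := h4 (P.1.p : fld H)
    simp only [SubringClass.coe_natCast] at h5
    have h6 : Q.1.p = P.1.p := pl3_p_eq (h5 ▸ Real.rpow_lt_one (P.1.w.nonneg _) P.1.w_p_lt hc)
    have h7 : Q.1.w (P.1.p : Om) = P.1.w (P.1.p : Om) := by rw [P.1.wp, ← h6, Q.1.wp]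
    have h8 : c = 1 := by
      have h9 : 0 < P.1.w (P.1.p : Om) := P.1.w.pos (by exact_mod_cast P.1.hp.ne_zero)
      rw [h7] at h5
      exact (Real.rpow_right_inj h9 P.1.w_p_lt.ne).1 (h5.trans (Real.rpow_one _).symm)
    obtain ⟨x, hx, h9⟩ := hT P P.2 Q Q.2 fun h => hPQ (Subtype.ext h)
    exact h9 (by simpa [h8] using h4 ⟨x, hx⟩)
  obtain ⟨y, hy⟩ := Metric.denseRange_iff.1 (AbsoluteValue.denseRange_algebraMap_pi h1 h2)
    (fun P => WithAbs.toAbs (v P) ⟨a P, ha P P.2⟩) ε hε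
  refine ⟨y, y.2, fun P hP => ?_⟩
  have h3 := (dist_pi_lt_iff hε).1 hy ⟨P, hP⟩
  rw [dist_comm, dist_eq_norm, WithAbs.norm_eq_apply_ofAbs, hv'] at h3
  exact h3.le

/-- Weak approximation without the separation hypothesis. -/
theorem pl3_approx (H : Subgroup GG) (T : Finset Pl) (a : Pl → Om)
    (hT : ∀ P ∈ T, ∀ Q ∈ T, (∀ x ∈ fld H, P.w x = Q.w x) → a P = a Q)
    (ha : ∀ P ∈ T, a P ∈ fld H) {ε : ℝ} (hε : 0 < ε) :
    ∃ y ∈ fld H, ∀ P ∈ T, P.w (y - a P) ≤ ε := by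
  classical
  have : Nonempty Pl := ⟨(exists_pl Nat.prime_two).choose⟩
  set res : Pl → fld H → ℝ := fun P x => P.w x with hres
  set rep : Pl → Pl := fun P => Function.invFunOn res T (res P) with hrep
  have h1 : ∀ P ∈ T, rep P ∈ T := fun P hP => Function.invFunOn_mem ⟨P, hP, rfl⟩
  have h2 : ∀ P ∈ T, res (rep P) = res P := fun P hP => Function.invFunOn_eq ⟨P, hP, rfl⟩
  obtain ⟨y, hy, h3⟩ := approx0 H (T.image rep) (fun P hP Q hQ hPQ => by
    obtain ⟨P, hP', rfl⟩ := Finset.mem_image.1 hP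
    obtain ⟨Q, hQ', rfl⟩ := Finset.mem_image.1 hQ
    by_contra h3
    push Not at h3
    have h4 : res (rep P) = res (rep Q) := funext fun x => h3 x x.2
    rw [h2 P hP', h2 Q hQ'] at h4
    exact hPQ (by simp only [hrep, h4])) a (fun P hP => by
    obtain ⟨P, hP', rfl⟩ := Finset.mem_image.1 hP
    exact ha _ (h1 P hP')) hε
  refine ⟨y, hy, fun P hP => ?_⟩
  have h4 : ∀ x ∈ fld H, (rep P).w x = P.w x := fun x hx => congrFun (h2 P hP) ⟨x, hx⟩
  rw [← h4 _ (sub_mem hy (ha P hP)), ← hT _ (h1 P hP) P hP h4]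
  exact h3 _ (Finset.mem_image_of_mem _ hP)

theorem pl3_fin (H : Subgroup GG) (y : Om) : {z | ∃ h ∈ H, h y = z}.Finite := by
  refine ((minpoly ℚ y).rootSet_finite Om).subset ?_
  rintro _ ⟨h, -, rfl⟩
  rw [Polynomial.mem_rootSet]
  refine ⟨minpoly.ne_zero (Algebra.IsIntegral.isIntegral y), ?_⟩
  rw [Polynomial.aeval_algHom_apply, minpoly.aeval, map_zero]

theorem pl3_fld {U : Subgroup GG} (hU : U.Normal) (g : GG) {x : Om} (hx : x ∈ fld U) :
    g x ∈ fld U := by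
  rw [mem_fld] at hx ⊢
  intro σ hσ
  have h1 := hx _ (hU.conj_mem' σ hσ g)
  rw [AlgEquiv.mul_apply, AlgEquiv.mul_apply] at h1
  conv_rhs => rw [← h1, pl2_inv']

theorem pl3_level {H U : Subgroup GG} (hU : IsOpen (U : Set GG)) (hN : U.Normal) {P Q : Pl}
    (h : ∀ x ∈ fld H, P.w x = Q.w x) : ∃ g ∈ H, ∀ x ∈ fld U, (g • P).w x = Q.w x := by
  classical
  by_contra hc
  push Not at hc
  have := U.quotient_finite_of_isOpen hU
  have := Fintype.ofFinite (GG ⧸ U)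
  set r : GG ⧸ U → GG := fun c => if h : ∃ g ∈ H, (g : GG ⧸ U) = c then h.choose else 1 with hr
  have h1 : ∀ c, r c ∈ H := fun c => by
    simp only [hr]
    split_ifs with h
    · exact h.choose_spec.1
    · exact H.one_mem
  have h2 : ∀ g ∈ H, ∀ (S : Pl), ∀ x ∈ fld U, (r g • S).w x = (g • S).w x := by
    intro g hg S x hx
    have h3 : ∃ g' ∈ H, (g' : GG ⧸ U) = (g : GG ⧸ U) := ⟨g, hg, rfl⟩
    have h4 : (r g : GG ⧸ U) = (g : GG ⧸ U) := by
      simp only [hr, dif_pos h3]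
      exact h3.choose_spec.2
    have h5 := mem_fld.1 (pl3_fld hN g⁻¹ hx) _ (QuotientGroup.eq.1 h4)
    rw [AlgEquiv.mul_apply, pl2_inv'] at h5
    rw [Pl.smul_w, Pl.smul_w, h5]
  set a : Pl → Om := fun S => if ∃ g ∈ H, ∀ x ∈ fld U, S.w x = (g • P).w x then 1 else 0 with ha
  obtain ⟨y, hy, h3⟩ := pl3_approx U
    (Finset.univ.image (fun c => r c • P) ∪ Finset.univ.image fun c => r c • Q) a
    (fun S _ S' _ hS => if_congr (exists_congr fun g => and_congr_right fun _ =>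
      forall₂_congr fun x hx => by rw [hS x hx]) rfl rfl)
    (fun S _ => by
      simp only [ha]
      split_ifs
      · exact one_mem _
      · exact zero_mem _) (ε := 1 / 2) (by norm_num)
  have h4 : ∀ g ∈ H, P.w (g y) = 1 := by
    intro g hg
    have h5 := h3 (r (g⁻¹ : GG) • P) (Finset.mem_union_left _
      (Finset.mem_image_of_mem _ (Finset.mem_univ _)))
    have h6 : a (r (g⁻¹ : GG) • P) = 1 := if_pos ⟨_, h1 _, fun _ _ => rfl⟩
    rw [h6, h2 _ (H.inv_mem hg) _ _ (sub_mem hy (one_mem _))] at h5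
    simpa using (g⁻¹ • P).eq_one_of_sub_lt (h5.trans_lt (by norm_num))
  have h5 : ∀ g ∈ H, Q.w (g y) ≤ 1 / 2 := by
    intro g hg
    have h5 := h3 (r (g⁻¹ : GG) • Q) (Finset.mem_union_right _
      (Finset.mem_image_of_mem _ (Finset.mem_univ _)))
    have h6 : a (r (g⁻¹ : GG) • Q) = 0 := by
      refine if_neg ?_
      rintro ⟨g', hg', h6⟩
      obtain ⟨x, hx, h7⟩ := hc ((r (g⁻¹ : GG))⁻¹ * g') (H.mul_mem (H.inv_mem (h1 _)) hg')
      have h8 := h6 _ (pl3_fld hN (r (g⁻¹ : GG)) hx)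
      rw [Pl.smul_w_apply] at h8
      exact h7 (by rw [mul_smul, Pl.smul_w, inv_inv, h8])
    rw [h6, sub_zero, h2 _ (H.inv_mem hg) _ _ hy] at h5
    simpa using h5
  set O := (pl3_fin H y).toFinset with hO
  have hO' : ∀ z, z ∈ O ↔ ∃ g ∈ H, g y = z := fun z => Set.Finite.mem_toFinset _
  have hO2 : ∀ σ ∈ H, ∀ z ∈ O, σ z ∈ O := by
    intro σ hσ z hz
    obtain ⟨g, hg, rfl⟩ := (hO' z).1 hz
    exact (hO' _).2 ⟨σ * g, H.mul_mem hσ hg, rfl⟩
  have h6 : ∏ z ∈ O, z ∈ fld H := by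
    refine mem_fld.2 fun σ hσ => ?_
    rw [map_prod]
    exact Finset.prod_nbij' (fun z => σ z) (fun z => σ⁻¹ z) (hO2 σ hσ) (hO2 _ (H.inv_mem hσ))
      (fun z _ => pl2_inv σ z) (fun z _ => pl2_inv' σ z) fun _ _ => rfl
  have h7 := h _ h6
  have hy' : y ∈ O := (hO' y).2 ⟨1, H.one_mem, rfl⟩
  rw [map_prod, map_prod, Finset.prod_eq_one fun z hz => by
    obtain ⟨g, hg, rfl⟩ := (hO' z).1 hz
    exact h4 g hg, ← Finset.mul_prod_erase O _ hy'] at h7
  have h8 : ∏ z ∈ O.erase y, Q.w z ≤ 1 := Finset.prod_le_one (fun _ _ => Q.w.nonneg _) fun z hz => by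
    obtain ⟨g, hg, rfl⟩ := (hO' z).1 (Finset.mem_of_mem_erase hz)
    exact (h5 g hg).trans (by norm_num)
  have h9 : Q.w y ≤ 1 / 2 := h5 1 H.one_mem
  have h10 := Q.w.nonneg y
  nlinarith

theorem exists_smul {H : Subgroup GG} (hH : IsClosed (H : Set GG)) {P Q : Pl}
    (h : ∀ x ∈ fld H, P.w x = Q.w x) : Q ∈ orb H P := by
  let I := {U : Subgroup GG // IsOpen (U : Set GG) ∧ U.Normal}
  have : Nonempty I := ⟨⟨⊤, isOpen_univ, inferInstance⟩⟩
  let C : I → Set GG := fun U => (H : Set GG) ∩ ⋂ x ∈ fld U.1, {g : GG | P.w (g⁻¹ x) = Q.w x}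
  have hC : ∀ U, IsClosed (C U) := fun U => hH.inter (isClosed_biInter fun x _ =>
    (pl2_closed x fun y => P.w y = Q.w x).preimage continuous_inv)
  obtain ⟨g, hg⟩ := IsCompact.nonempty_iInter_of_directed_nonempty_isCompact_isClosed C
    (fun U V => by
      have := U.2.2
      have := V.2.2
      refine ⟨⟨U.1 ⊓ V.1, U.2.1.inter V.2.1, inferInstance⟩, ?_, ?_⟩
      · refine Set.inter_subset_inter_right _ (Set.biInter_subset_biInter_left ?_)
        exact IntermediateField.fixedField_antitone inf_le_left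
      · refine Set.inter_subset_inter_right _ (Set.biInter_subset_biInter_left ?_)
        exact IntermediateField.fixedField_antitone inf_le_right)
    (fun U => by
      obtain ⟨g, hg, h1⟩ := pl3_level U.2.1 U.2.2 h
      exact ⟨g, hg, Set.mem_iInter₂.2 h1⟩) (fun U => (hC U).isCompact) hC
  rw [Set.mem_iInter] at hg
  refine ⟨g, (hg ⟨⊤, isOpen_univ, inferInstance⟩).1, Pl.ext ?_ ?_⟩
  · refine (pl3_p_eq (P := P) ?_).symm
    rw [h _ (natCast_mem _ _)]
    exact Q.w_p_lt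
  · ext x
    obtain ⟨V, h1, h2, h3⟩ := exists_normal_le (U := MulAction.stabilizer GG x) (isOpen_stab x)
    exact (Set.mem_iInter₂.1 (hg ⟨V, h1, h2⟩).2 x (mem_fld.2 fun σ hσ => h3 hσ)).symm

theorem exists_smul_of_p {P Q : Pl} (h : P.p = Q.p) : ∃ g : GG, Q = g • P := by
  obtain ⟨g, -, hg⟩ := exists_smul (H := ⊤) isClosed_univ (P := P) (Q := Q) fun x hx => by
    have h1 : x ∈ (⊥ : IntermediateField ℚ Om) := by
      rw [← InfiniteGalois.fixedField_bot]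
      exact hx
    obtain ⟨q, rfl⟩ := IntermediateField.mem_bot.1 h1
    change P.w (q : Om) = Q.w (q : Om)
    rw [P.w_rat, Q.w_rat, h]
  exact ⟨g, hg⟩

theorem w_eq_of_orb {H : Subgroup GG} {P Q : Pl} (h : Q ∈ orb H P) {x : Om} (hx : x ∈ fld H) :
    Q.w x = P.w x := by
  obtain ⟨g, hg, rfl⟩ := h
  rw [Pl.smul_w, mem_fld.1 hx _ (H.inv_mem hg)]

/-- Weak approximation at places in different orbits. -/
theorem approx {H : Subgroup GG} (hH : IsClosed (H : Set GG)) (T : Finset Pl)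
    (hT : ∀ P ∈ T, ∀ Q ∈ T, P ≠ Q → Q ∉ orb H P) (a : Pl → Om)
    (ha : ∀ P ∈ T, a P ∈ fld H) {ε : ℝ} (hε : 0 < ε) :
    ∃ y ∈ fld H, ∀ P ∈ T, P.w (y - a P) ≤ ε := by
  refine approx0 H T (fun P hP Q hQ hPQ => ?_) a ha hε
  by_contra h
  push Not at h
  exact hT P hP Q hQ hPQ (exists_smul hH h)

/-- Elements of the decomposition field are approximated by elements of the ground field. -/
theorem dec_approx {H : Subgroup GG} (hH : IsClosed (H : Set GG)) (P : Pl) {γ : Om}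
    (hγ : ∀ σ ∈ P.dec ⊓ H, σ γ = γ) {ε : ℝ} (hε : 0 < ε) :
    ∃ y ∈ fld H, P.w (y - γ) ≤ ε := by
  classical
  set K := H ⊓ MulAction.stabilizer GG γ with hK
  set O := (pl3_fin H γ).toFinset with hO
  have hO' : ∀ z, z ∈ O ↔ ∃ g ∈ H, g γ = z := fun z => Set.Finite.mem_toFinset _
  have hO2 : ∀ σ ∈ H, ∀ z ∈ O, σ z ∈ O := by
    intro σ hσ z hz
    obtain ⟨g, hg, rfl⟩ := (hO' z).1 hz
    exact (hO' _).2 ⟨σ * g, H.mul_mem hσ hg, rfl⟩
  have hγO : γ ∈ O := (hO' γ).2 ⟨1, H.one_mem, rfl⟩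
  choose! τ h1 h2 using fun z => (hO' z).1
  have hKc : IsClosed (K : Set GG) := hH.inter (pl2_closed γ fun y => y = γ)
  have hγK : γ ∈ fld K := mem_fld.2 fun σ hσ => hσ.2
  set a : Pl → Om := fun S => if ∀ x ∈ fld K, P.w x = S.w x then γ else 0 with ha
  obtain ⟨t, ht, h3⟩ := pl3_approx K (O.image fun z => (τ z)⁻¹ • P) a
    (fun S _ S' _ hS => if_congr (forall₂_congr fun x hx => by rw [hS x hx]) rfl rfl)
    (fun S _ => by
      simp only [ha]
      split_ifs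
      · exact hγK
      · exact zero_mem _) hε
  refine ⟨∑ z ∈ O, τ z t, mem_fld.2 fun σ hσ => ?_, ?_⟩
  · rw [map_sum]
    refine Finset.sum_nbij' (fun z => σ z) (fun z => σ⁻¹ z) (hO2 σ hσ) (hO2 _ (H.inv_mem hσ))
      (fun z _ => pl2_inv σ z) (fun z _ => pl2_inv' σ z) fun z hz => ?_
    have h4 : (τ (σ z))⁻¹ * σ * τ z ∈ K := by
      refine ⟨H.mul_mem (H.mul_mem (H.inv_mem (h1 _ (hO2 σ hσ z hz))) hσ) (h1 z hz), ?_⟩
      change (τ (σ z))⁻¹ (σ (τ z γ)) = γ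
      rw [h2 z hz]
      conv_lhs => arg 2; rw [← h2 _ (hO2 σ hσ z hz)]
      exact pl2_inv _ _
    have h5 := mem_fld.1 ht _ h4
    rw [AlgEquiv.mul_apply, AlgEquiv.mul_apply] at h5
    conv_rhs => rw [← h5, pl2_inv']
  · have e : ∑ z ∈ O, τ z t - γ = ∑ z ∈ O, (τ z t - if z = γ then γ else 0) := by
      rw [Finset.sum_sub_distrib, Finset.sum_ite_eq' O γ, if_pos hγO]
    rw [e]
    refine P.sum_le _ _ hε.le fun z hz => ?_
    have h4 := h3 _ (Finset.mem_image_of_mem _ hz)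
    rw [Pl.smul_w, inv_inv, map_sub (τ z)] at h4
    by_cases hz' : z = γ
    · subst hz'
      have h5 : τ z ∈ K := ⟨h1 z hz, h2 z hz⟩
      have h6 : a ((τ z)⁻¹ • P) = z := if_pos fun x hx => by
        rw [Pl.smul_w, inv_inv, mem_fld.1 hx _ h5]
      rw [h6, h2 z hz] at h4
      rwa [if_pos rfl]
    · have h6 : a ((τ z)⁻¹ • P) = 0 := by
        refine if_neg fun h6 => hz' ?_
        obtain ⟨g, hg, h7⟩ := exists_smul hKc h6
        have h8 : τ z * g ∈ P.dec ⊓ H := by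
          refine ⟨?_, H.mul_mem (h1 z hz) hg.1⟩
          change (τ z * g) • P = P
          rw [mul_smul, ← h7, smul_inv_smul]
        have h9 := hγ _ h8
        have h10 : g γ = γ := hg.2
        rwa [AlgEquiv.mul_apply, h10, h2 z hz] at h9
      rw [h6, map_zero] at h4
      rwa [if_neg hz']

end Vale.Agent.P024
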