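import Vale.Agent.P024.Br

/-! Ramification. -/

namespace Vale.Agent.P024

open NumberField IsDedekindDomain

variable {H H' : Subgroup GG}

theorem ram_finite (x : Om) : (Pl.p '' {P : Pl | ∃ τ ∈ P.ine, τ x ≠ x}).Finite := by
  rcases eq_or_ne x 0 with rfl | hx
  · simp
  have h1 : (⋃ y ∈ (Set.range fun σ : GG => σ x) \ {x},
      Pl.p '' {P : Pl | P.w (y - x) ≠ 1}).Finite :=
    ((pl2_lc x).range_finite.sdiff).biUnion fun y hy => finite_p_ne_one (sub_ne_zero.2 hy.2)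
  refine ((finite_p_ne_one hx).union h1).subset ?_
  rintro _ ⟨P, ⟨τ, hτ, h⟩, rfl⟩
  by_cases h2 : P.w x = 1
  · exact Or.inr (Set.mem_biUnion (x := τ x) ⟨⟨τ, rfl⟩, h⟩ ⟨P, (hτ.2 x h2.le).ne, rfl⟩)
  · exact Or.inl ⟨P, h2, rfl⟩

theorem ine_finite {U : Subgroup GG} (hU : IsOpen (U : Set GG)) :
    (Pl.p '' {P : Pl | ¬ P.ine ≤ U}).Finite := by
  have := nf hU
  let b := Module.finBasis ℚ (fld U)
  refine (Set.finite_iUnion fun i => ram_finite (b i : Om)).subset ?_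
  rintro _ ⟨P, hP, rfl⟩
  obtain ⟨τ, hτ, h⟩ := SetLike.not_le_iff_exists.1 hP
  by_contra hcon
  refine h (mem_of_fix (U.isClosed_of_isOpen hU) fun x hx => ?_)
  have h1 : τ.toLinearMap ∘ₗ (fld U).val.toLinearMap = (fld U).val.toLinearMap :=
    b.ext fun i => by_contra fun h2 => hcon (Set.mem_iUnion.2 ⟨i, P, ⟨τ, hτ, h2⟩, rfl⟩)
  exact LinearMap.congr_fun h1 ⟨x, hx⟩

theorem ram_fld {g : GG} (hg : ∀ x, x ∈ H ↔ g * x * g⁻¹ ∈ H) (y : Om) :
    g y ∈ fld H ↔ y ∈ fld H := by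
  simp only [mem_fld]
  refine ⟨fun h σ hσ => g.injective ?_, fun h σ hσ => ?_⟩
  · have h1 := h _ ((hg σ).1 hσ)
    rwa [AlgEquiv.mul_apply, AlgEquiv.mul_apply, pl2_inv] at h1
  · have h1 := congrArg g (h (g⁻¹ * σ * g) ((hg _).2 (by simpa [mul_assoc] using hσ)))
    rwa [AlgEquiv.mul_apply, AlgEquiv.mul_apply, pl2_inv'] at h1

theorem e_smul {g : GG} (hg : ∀ x, x ∈ H ↔ g * x * g⁻¹ ∈ H) (P : Pl) : (g • P).e H = P.e H := by
  unfold Pl.e
  congr 1
  ext k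
  refine and_congr_right fun _ => g.surjective.forall.trans (forall_congr' fun y => ?_)
  rw [ram_fld hg, Pl.smul_w_apply, Pl.smul_p, map_ne_zero_iff g g.injective]

theorem f_smul {g : GG} (hg : ∀ x, x ∈ H ↔ g * x * g⁻¹ ∈ H) (P : Pl) : (g • P).f H = P.f H := by
  unfold Pl.f
  congr 1
  ext k
  refine and_congr_right fun _ => g.surjective.forall.trans (forall_congr' fun y => ?_)
  rw [ram_fld hg, Pl.smul_w_apply, Pl.smul_p, ← map_pow, ← map_sub, Pl.smul_w_apply]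

theorem ord_smul {g : GG} (hg : ∀ x, x ∈ H ↔ g * x * g⁻¹ ∈ H) (P : Pl) (x : Om) :
    ord H (g • P) (g x) = ord H P x := by
  rw [ord, ord, e_smul hg, Pl.smul_w_apply, Pl.smul_p]

theorem dg_smul (hn : Nl H H') {g : GG} (hg : g ∈ H) (P : Pl) : dg H H' (g • P) = dg H H' P := by
  let c : GG →* GG := (MulAut.conj g⁻¹).toMonoidHom
  have hc : ∀ σ, c σ = g⁻¹ * σ * g := fun σ => by simp [c]
  have h1 : H' = H'.comap c := by
    ext σ
    rw [Subgroup.mem_comap, hc]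
    exact ⟨fun h => by simpa using hn _ (H.inv_mem hg) _ h,
      fun h => by simpa [mul_assoc] using hn _ hg _ h⟩
  have h2 : (g • P).dec ⊓ H = (P.dec ⊓ H).comap c := by
    ext σ
    rw [Subgroup.mem_comap, hc, Subgroup.mem_inf, Subgroup.mem_inf, mem_dec_smul,
      H.mul_mem_cancel_right hg, H.mul_mem_cancel_left (H.inv_mem hg)]
  rw [dg, dg, h2]
  conv_lhs => rw [h1]
  rw [Subgroup.relIndex_comap,
    Subgroup.map_comap_eq_self_of_surjective (MulAut.conj g⁻¹).surjective]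

theorem dg_ne_zero (hH' : IsOpen (H' : Set GG)) (P : Pl) : dg H H' P ≠ 0 := by
  have : H'.FiniteIndex := ⟨index_ne_zero hH'⟩
  exact Subgroup.FiniteIndex.index_ne_zero (H := H'.subgroupOf (P.dec ⊓ H))

theorem Nl.iff (hn : Nl H H') {g : GG} (hg : g ∈ H) (x : GG) : x ∈ H' ↔ g * x * g⁻¹ ∈ H' := by
  exact ⟨hn g hg x, fun h => by simpa [mul_assoc] using hn _ (H.inv_mem hg) _ h⟩

theorem Nl.self (H : Subgroup GG) : Nl H H := by
  exact fun h hh x hx => H.mul_mem (H.mul_mem hh hx) (H.inv_mem hh)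

theorem Nl.apply_mem (hn : Nl H H') {g : GG} (hg : g ∈ H) {x : Om} (hx : x ∈ fld H') :
    g x ∈ fld H' := by
  exact (ram_fld (hn.iff hg) x).2 hx

end Vale.Agent.P024
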