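import Vale.Agent.P024.Ram
import Vale.Agent.P024.Fr2

/-! Unramified extensions. -/

namespace Vale.Agent.P024

open NumberField IsDedekindDomain

variable {H H' : Subgroup GG}

/-- The valuation ring of a place. -/
def ram2_O (P : Pl) : Subring Om where
  carrier := {x | P.w x ≤ 1}
  mul_mem' := fun {a b} ha hb => by
    show P.w (a * b) ≤ 1
    rw [map_mul]
    exact mul_le_one₀ ha (P.w.nonneg _) hb
  one_mem' := by simp
  add_mem' := fun {a b} ha hb => (P.add_le a b).trans (max_le ha hb)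
  zero_mem' := by simp
  neg_mem' := fun {a} ha => by
    show P.w (-a) ≤ 1
    rw [AbsoluteValue.map_neg]
    exact ha

/-- The maximal ideal of the valuation ring. -/
def ram2_m (P : Pl) : Ideal (ram2_O P) where
  carrier := {x | P.w x < 1}
  add_mem' := fun {a b} ha hb => (P.add_le a b).trans_lt (max_lt ha hb)
  zero_mem' := by simp
  smul_mem' := fun c x hx => by
    show P.w ((c : Om) * x) < 1
    rw [map_mul]
    exact mul_lt_one_of_nonneg_of_lt_one_right c.2 (P.w.nonneg _) hx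

theorem ram2_prime (P : Pl) : (ram2_m P).IsPrime := by
  refine ⟨?_, ?_⟩
  · rw [Ne, Ideal.eq_top_iff_one]
    intro h
    have h' : P.w (1 : Om) < 1 := h
    simp at h'
  · intro a b hab
    have h' : P.w ((a : Om) * b) < 1 := hab
    by_contra hcon
    rw [not_or] at hcon
    have ha : 1 ≤ P.w (a : Om) := not_lt.1 hcon.1
    have hb : 1 ≤ P.w (b : Om) := not_lt.1 hcon.2
    have := one_le_mul_of_one_le_of_one_le ha hb
    rw [map_mul] at h'
    linarith

/-- An element of the decomposition group acting trivially on the residue field of `fld H'`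
lies in `H'`. -/
theorem ram2_faith (hH : IsOpen (H : Set GG)) (hH' : IsOpen (H' : Set GG)) (hle : H' ≤ H)
    {P : Pl} (h : P.ine ⊓ H ≤ H') {σ : GG} (hσ : σ ∈ P.dec ⊓ H)
    (ht : ∀ y ∈ fld H', P.w y ≤ 1 → P.w (σ y - y) < 1) : σ ∈ H' := by
  obtain ⟨hφH, hφ⟩ := frob_spec hH P
  obtain ⟨hψH, hψ⟩ := frob_spec hH' P
  obtain ⟨a, τ, hτ, u, hu, rfl⟩ := dec_dense hH hH' hφH hφ hσ
  have hτ' : τ ∈ H' := h hτ
  have h1 := hφ.pow a
  have h2 : P.f H' ∣ P.f H * a := by
    refine (f_spec hH' P).2.2 _ fun y hy hy1 => ?_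
    have h3 := ht y hy hy1
    rw [AlgEquiv.mul_apply, AlgEquiv.mul_apply, mem_fld.1 hy u hu, mem_fld.1 hy τ hτ'] at h3
    have h4 := h1.2 y hy1
    rw [Pl.nm, ← pow_mul] at h4
    have e : y ^ P.p ^ (P.f H * a) - y =
        ((frob H P ^ a) y - y) - ((frob H P ^ a) y - y ^ P.p ^ (P.f H * a)) := by ring
    rw [e]
    exact (P.sub_le _ _).trans_lt (max_lt h3 h4)
  obtain ⟨j, hj⟩ := h2
  have h5 := hψ.pow j
  have e2 : P.nm H' ^ j = P.nm H ^ a := by
    rw [Pl.nm, Pl.nm, ← pow_mul, ← pow_mul, hj]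
  rw [e2] at h5
  have h6 : (frob H' P ^ j)⁻¹ * frob H P ^ a ∈ H' :=
    h ⟨h5.inv_mul h1, H.mul_mem (H.inv_mem (H.pow_mem (hle hψH) _)) (H.pow_mem hφH _)⟩
  have h7 : frob H P ^ a ∈ H' := by
    have := H'.mul_mem (H'.pow_mem hψH j) h6
    rwa [mul_inv_cancel_left] at this
  exact H'.mul_mem (H'.mul_mem h7 hτ') hu

/-- The reduction of `σ` as a character of the valuation ring of `fld H'`. -/
noncomputable def ram2_chi (P : Pl) (H' : Subgroup GG) (σ : P.dec) :
    ((fld H').toSubfield.toSubmonoid ⊓ (ram2_O P).toSubmonoid : Submonoid Om) →*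
      (ram2_O P ⧸ ram2_m P) where
  toFun a := Ideal.Quotient.mk _ ⟨σ.1 a.1, by
    show P.w (σ.1 a.1) ≤ 1
    rw [Pl.mem_dec.1 σ.2]
    exact a.2.2⟩
  map_one' := by
    rw [← map_one (Ideal.Quotient.mk (ram2_m P))]
    congr 1
    ext
    simp
  map_mul' a b := by
    rw [← map_mul]
    congr 1
    ext
    simp

theorem ram2_val (hH : IsOpen (H : Set GG)) (hH' : IsOpen (H' : Set GG)) (hle : H' ≤ H)
    {P : Pl} (h : P.ine ⊓ H ≤ H') {x : Om} (hx : x ∈ fld H') (hx0 : x ≠ 0) :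
    ∃ y ∈ fld H, P.w y = P.w x := by
  classical
  have := ram2_prime P
  have : H'.FiniteIndex := ⟨index_ne_zero hH'⟩
  set D : Subgroup GG := P.dec ⊓ H with hD
  let Q := D ⧸ H'.subgroupOf D
  have : Fintype Q := Fintype.ofFinite _
  let s : Q → P.dec := fun q => ⟨(q.out : D), (q.out : D).2.1⟩
  have hinj : Function.Injective fun q : Q => ram2_chi P H' (s q) := by
    intro q r hqr
    rw [← q.out_eq, ← r.out_eq]
    refine QuotientGroup.eq.2 ?_
    rw [Subgroup.mem_subgroupOf]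
    refine ram2_faith hH hH' hle h (q.out⁻¹ * r.out : D).2 fun y hy hy1 => ?_
    have h1 := DFunLike.congr_fun hqr ⟨y, hy, hy1⟩
    have h2 : P.w ((s q).1 y - (s r).1 y) < 1 := Ideal.Quotient.eq.1 h1
    rw [← Pl.mem_dec.1 (s q).2, map_sub]
    have e : (s q).1 (((q.out⁻¹ * r.out : D) : GG) y) = (s r).1 y := by
      show ((q.out : D) : GG) ((((q.out : D) : GG)⁻¹ * ((r.out : D) : GG)) y) = _
      rw [AlgEquiv.mul_apply, pl2_inv']
    rw [e, AbsoluteValue.map_sub]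
    exact h2
  have hli := (linearIndependent_monoidHom _ (ram2_O P ⧸ ram2_m P)).comp _ hinj
  have hw : 0 < P.w x := P.w.pos hx0
  have hc : ∀ q : Q, P.w ((s q).1 x / x) = 1 := fun q => by
    rw [map_div₀, Pl.mem_dec.1 (s q).2, div_self hw.ne']
  let c : Q → ram2_O P := fun q => ⟨(s q).1 x / x, (hc q).le⟩
  have hex : ∃ a ∈ fld H', P.w a ≤ 1 ∧ ¬ P.w (∑ q : Q, (s q).1 x / x * (s q).1 a) < 1 := by
    by_contra hcon
    push Not at hcon
    have h1 := Fintype.linearIndependent_iff.1 hli (fun q => Ideal.Quotient.mk _ (c q)) (by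
      funext a
      rw [Finset.sum_apply]
      have h2 := hcon a.1 a.2.1 a.2.2
      show ∑ q : Q, Ideal.Quotient.mk (ram2_m P) (c q) * Ideal.Quotient.mk (ram2_m P) _ = 0
      simp only [← map_mul, ← map_sum]
      rw [Ideal.Quotient.eq_zero_iff_mem]
      show P.w _ < 1
      rw [AddSubmonoidClass.coe_finsetSum]
      exact h2) ((1 : D) : Q)
    rw [Ideal.Quotient.eq_zero_iff_mem] at h1
    exact (hc _).not_lt h1
  obtain ⟨a, ha, ha1, ha2⟩ := hex
  have h3 : P.w (∑ q : Q, (s q).1 x / x * (s q).1 a) = 1 := by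
    refine le_antisymm (P.sum_le _ _ zero_le_one fun q _ => ?_) (not_lt.1 ha2)
    rw [map_mul, hc, one_mul, Pl.mem_dec.1 (s q).2]
    exact ha1
  set γ := ∑ q : Q, (s q).1 (a * x) with hγ
  have h4 : P.w γ = P.w x := by
    have e : γ = (∑ q : Q, (s q).1 x / x * (s q).1 a) * x := by
      rw [hγ, Finset.sum_mul]
      refine Finset.sum_congr rfl fun q _ => ?_
      rw [map_mul]
      field_simp
    rw [e, map_mul, h3, one_mul]
  have h5 : ∀ σ ∈ P.dec ⊓ H, σ γ = γ := by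
    intro σ hσ
    rw [hγ, map_sum]
    refine Fintype.sum_equiv (MulAction.toPerm (⟨σ, hσ⟩ : D)) _ _ fun q => ?_
    have h6 : ((MulAction.toPerm (⟨σ, hσ⟩ : D) q : Q).out⁻¹ * ((⟨σ, hσ⟩ : D) * q.out) : D) ∈
        H'.subgroupOf D := by
      refine QuotientGroup.eq.1 ?_
      rw [QuotientGroup.out_eq']
      conv_lhs => rw [← q.out_eq]
      rfl
    rw [Subgroup.mem_subgroupOf] at h6
    have h7 := mem_fld.1 ((fld H').mul_mem ha hx) _ h6
    have h8 := congrArg (s (MulAction.toPerm (⟨σ, hσ⟩ : D) q)).1 h7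
    rw [← h8]
    show _ = (s _).1 (((s _).1⁻¹ * (σ * (s q).1)) (a * x))
    rw [AlgEquiv.mul_apply, pl2_inv', AlgEquiv.mul_apply]
  obtain ⟨y, hy, hy2⟩ := dec_approx (H.isClosed_of_isOpen hH) P h5 (half_pos hw)
  refine ⟨y, hy, ?_⟩
  have h9 : P.w (y - γ) < P.w γ := by rw [h4]; linarith
  rw [← h4]
  refine le_antisymm ?_ (not_lt.1 fun h10 => ?_)
  · have := P.add_le (y - γ) γ
    rw [sub_add_cancel] at this
    exact this.trans (max_le h9.le le_rfl)
  · have := P.sub_le y (y - γ)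
    rw [sub_sub_cancel] at this
    exact absurd (this.trans_lt (max_lt h10 h9)) (lt_irrefl _)

theorem ram2_e (hH : IsOpen (H : Set GG)) (hH' : IsOpen (H' : Set GG)) (hle : H' ≤ H)
    {P : Pl} (h : P.ine ⊓ H ≤ H') : P.e H' = P.e H := by
  unfold Pl.e
  congr 1
  ext k
  refine and_congr_right fun _ => ⟨fun h1 x hx hx0 => h1 x ?_ hx0, fun h1 x hx hx0 => ?_⟩
  · exact mem_fld.2 fun σ hσ => mem_fld.1 hx σ (hle hσ)
  · obtain ⟨y, hy, hy2⟩ := ram2_val hH hH' hle h hx hx0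
    rw [← hy2]
    refine h1 y hy fun h0 => ?_
    rw [h0, map_zero] at hy2
    exact (P.w.pos hx0).ne hy2

theorem e_eq (hH : IsOpen (H : Set GG)) (hH' : IsOpen (H' : Set GG)) (hle : H' ≤ H)
    (hn : Nl H H') {P : Pl} (h : P.ine ⊓ H ≤ H') : P.e H' = P.e H := by
  have _ := hn
  exact ram2_e hH hH' hle h

theorem ord_eq (hH : IsOpen (H : Set GG)) (hH' : IsOpen (H' : Set GG)) (hle : H' ≤ H)
    (hn : Nl H H') {P : Pl} (h : P.ine ⊓ H ≤ H') (x : Om) : ord H' P x = ord H P x := by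
  rw [ord, ord, e_eq hH hH' hle hn h]

/-- An unramified radical extension forces divisibility of the valuation. -/
theorem unr_dvd (hH : IsOpen (H : Set GG)) {n : ℕ} {β : Om} (hβ : β ≠ 0) (hb : β ^ n ∈ fld H)
    {P : Pl} (hn : ¬ P.p ∣ n) (h : ∀ τ ∈ P.ine ⊓ H, τ β = β) : (n : ℤ) ∣ ord H P (β ^ n) := by
  have _ := hn
  set K := H ⊓ MulAction.stabilizer GG β with hK
  have hKo : IsOpen (K : Set GG) := hH.inter (isOpen_stab β)
  have he : P.e K = P.e H := ram2_e hH hKo inf_le_left fun τ hτ => ⟨hτ.2, h τ hτ⟩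
  have h1 := (e_spec hKo P).2.1 β (mem_fld.2 fun σ hσ => hσ.2) hβ
  have h2 := (e_spec hH P).2.1 _ hb (pow_ne_zero _ hβ)
  rw [map_pow, ← pow_mul, mul_comm, pow_mul, ← he, h1, ← zpow_natCast, ← zpow_mul] at h2
  have h3 : (1 : ℝ) < P.p := by exact_mod_cast P.hp.one_lt
  have h4 := zpow_right_injective₀ (by positivity) h3.ne' h2
  exact ⟨ord K P β, by linarith⟩

end Vale.Agent.P024
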